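import Vale.Agent.P223.H691.UY

/-! The Sobolev inequality with a potential on the universal covering. -/

namespace Vale.Agent.P223.J

open scoped ContDiff
open MeasureTheory

/-- The Sobolev inequality `y (∫ |u|^(2n/(n-2)))^((n-2)/n) ≤ ∫ (|du|² + k u²)` for all smooth
functions `u` with compact support on the Riemannian manifold `(X, g)` (`μ` is the Riemannian
measure). -/
def SobW {n : ℕ} {X : Type} [TopologicalSpace X] (c : X → Ch n X) (g : X → Mtx n) (k : X → ℝ)
    (y : ℝ) : Prop :=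
  ∀ (_ : MeasurableSpace X) (_ : BorelSpace X) (μ : Measure X), Vol c g μ → ∀ u : X → ℝ,
    Sm c u → HasCompactSupport u →
      y * (∫ q, |u q| ^ (2 * (n : ℝ) / (n - 2)) ∂μ) ^ (((n : ℝ) - 2) / n) ≤
        ∫ q, (gsq (g q) (fun x => u ((c q).symm x)) (c q q) + k q * u q ^ 2) ∂μ

/-- The Sobolev inequality with potential `k` on the universal covering of `(M, g)`. -/
def UCSobW {n : ℕ} {M : Type} [TopologicalSpace M] (c : M → Ch n M) (g : M → Mtx n) (k : M → ℝ)
    (y : ℝ) : Prop :=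
  ∀ (X : Type) (_ : TopologicalSpace X) (f : X → M) (c' : X → Ch n X), SimplyConnectedSpace X →
    CovAtl c f c' → SobW c' (fun q => g (f q)) (fun q => k (f q)) y

end Vale.Agent.P223.J

namespace Vale.Agent.P223.H691

open scoped ContDiff Topology ENNReal Matrix
open MeasureTheory Vale.Agent.P223.H Vale.Agent.P223.X

section
variable {n : ℕ} {M X Γ I : Type} [TopologicalSpace M] [TopologicalSpace X] [Group Γ]
    [MulAction Γ X]

/-- The Sobolev inequality with potential `k` on `X`. -/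
def SobXW [MeasurableSpace X] (C : Cov n M X Γ I) (G : I → E n → Matrix (Fin n) (Fin n) ℝ)
    (μ : Measure X) (k : X → ℝ) (y : ℝ) : Prop :=
  ∀ f, Vale.Agent.P223.H66.Cc C f →
    y * (∫ x, |f x| ^ (2 * (n : ℝ) / (n - 2)) ∂μ) ^ (((n : ℝ) - 2) / n) ≤
      ∫ x, (gsX C G f x + k x * f x ^ 2) ∂μ

theorem sobX_iff [MeasurableSpace X] (C : Cov n M X Γ I)
    (G : I → E n → Matrix (Fin n) (Fin n) ℝ) (μ : Measure X) (a b y : ℝ) :
    Vale.Agent.P223.H66.SobX C G μ a b y ↔
      SobXW C G μ (fun x => a * Vale.Agent.P223.H66.scX C G x + b) y := Iff.rfl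

/-- From manifolds to coverings `Cov`; `k` is an arbitrary function on `M`. -/
theorem sobXW [T2Space X] [SimplyConnectedSpace X] [MeasurableSpace X] [BorelSpace X]
    {c : M → J.Ch n M} {B : Box c I} {C : Cov n M X Γ I} {g : M → J.Mtx n} {μ : Measure X}
    {k : M → ℝ} {y : ℝ} (hc : J.Atl c) (hβ : ∀ i z, C.π (C.ψ i z) = B.β i z) (hg : J.Met c g)
    (hμ : VolX C (B.G g) μ) (hU : J.UCSobW c g k y) :
    SobXW C (B.G g) μ (fun x => k (C.π x)) y := by
  intro u hu
  obtain ⟨c', hf⟩ := UY.exists_covAtl hc C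
  have h := hU X _ C.π c' inferInstance hf _ inferInstance μ (UY.vol hc hβ hg hf hμ) u
    (UY.sm hc hβ hf hu.1) hu.2
  refine h.trans (le_of_eq (integral_congr_ae (ae_of_all _ fun q => ?_)))
  simp only [UY.gsq_eq hc hβ hg hf hu.1 q]

/-- the scalar curvature of `M` at `C.π x` -/
theorem scX_eq {c : M → J.Ch n M} {B : Box c I} {C : Cov n M X Γ I} {g : M → J.Mtx n}
    (hc : J.Atl c) (hβ : ∀ i z, C.π (C.ψ i z) = B.β i z) (hg : J.Met c g) (x : X) :
    Vale.Agent.P223.H66.scX C (B.G g) x = J.scal (g (C.π x)) (c (C.π x) (C.π x)) := by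
  obtain ⟨c', hf⟩ := UY.exists_covAtl hc C
  rw [← UY.scal_eq hc hβ hg hf x, (hf.eq x x (hf.mem x)).2]

end

end Vale.Agent.P223.H691
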