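import Vale.Agent.P223.H691.TCS
import Vale.Agent.P223.H566.Spec

/-! Block TC. -/

namespace Vale.Agent.P223.H691

open scoped InnerProductSpace Topology
open MeasureTheory Filter H566

section
variable {H : Type} [NormedAddCommGroup H] [InnerProductSpace ℂ H]

theorem Nu.nuc [CompleteSpace H] {T : H →L[ℂ] H} {B : ℝ} (h : Nu T B) : Nuc T B := by
  obtain ⟨α, mα, ν, u, v, h1, h2⟩ := h
  have eu := h1.mu.ae_eq_mk
  have ev := h1.mv.ae_eq_mk
  refine ⟨α, mα, ν, h1.mu.mk u, h1.mv.mk v, h1.mu.stronglyMeasurable_mk,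
    h1.mv.stronglyMeasurable_mk, ?_, ?_, fun x y => ?_⟩
  · refine h1.int.congr ?_
    filter_upwards [eu, ev] with a h3 h4
    rw [← h3, ← h4]
  · refine le_trans (le_of_eq (integral_congr_ae ?_)) h2
    filter_upwards [eu, ev] with a h3 h4
    rw [← h3, ← h4]
  · rw [h1.rep, ← integral_inner (h1.integrable_smul y)]
    refine integral_congr_ae ?_
    filter_upwards [eu, ev] with a h3 h4
    rw [← h3, ← h4, inner_smul_right, mul_comm]

theorem Nuc.nu [CompleteSpace H] {T : H →L[ℂ] H} {B : ℝ} (h : Nuc T B) : Nu T B := by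
  obtain ⟨α, mα, ν, u, v, hu, hv, hi, hB, hT⟩ := h
  have hi' : ∀ x, Integrable (fun a => ⟪v a, x⟫_ℂ • u a) ν := by
    intro x
    refine (hi.mul_const ‖x‖).mono' ((hv.aestronglyMeasurable.inner
      aestronglyMeasurable_const).smul hu.aestronglyMeasurable) ?_
    filter_upwards with a
    rw [norm_smul]
    have := norm_inner_le_norm (𝕜 := ℂ) (v a) x
    calc ‖⟪v a, x⟫_ℂ‖ * ‖u a‖ ≤ (‖v a‖ * ‖x‖) * ‖u a‖ := by gcongr
      _ = ‖u a‖ * ‖v a‖ * ‖x‖ := by ring
  refine ⟨α, mα, ν, u, v, ⟨hu.aestronglyMeasurable, hv.aestronglyMeasurable, hi, fun x => ?_⟩, hB⟩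
  refine ext_inner_left ℂ fun y => ?_
  rw [hT, ← integral_inner (hi' x)]
  simp only [inner_smul_right, mul_comm]

theorem nuc_iff [CompleteSpace H] {T : H →L[ℂ] H} {B : ℝ} : Nuc T B ↔ Nu T B :=
  ⟨Nuc.nu, Nu.nuc⟩

theorem trH_eq [CompleteSpace H] (T : H →L[ℂ] H) : trH T = tr T := rfl

end

/-- BLOCK TC -/
theorem specTC : SpecTC := by
  intro H _ _ _
  simp only [nuc_iff, trH_eq]
  refine ⟨fun T A B b h => ⟨(h.left A).right B, h.summable, h.norm_tr_le, ?_, ?_⟩,
    fun T T' b b' h h' => h.add h', fun T b c h => h.smul c,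
    fun α _ T S b h hb hS => Nu.hasSum h hb hS,
    fun α _ A S T B b hB hS h => Nu.hasSum_mul hB hS h⟩
  · rw [mul_assoc, (h.right B).tr_comm A]
  · rw [← (h.left A).tr_comm B, mul_assoc]

end Vale.Agent.P223.H691
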