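import Vale.Agent.P223.H691.TrC
import Vale.Agent.P223.H691.SpecTC
import Vale.Agent.P223.H66.S2

/-! Trace bound: block B4 of stage 2. -/

namespace Vale.Agent.P223.H691

open scoped ContDiff InnerProductSpace Topology
open MeasureTheory Vale.Agent.P223.X Filter
open Vale.Agent.P223.H566 (SpX Core Raw IsCore Cliff Ctx Emb Rsv SpecIntS mulR nm hp Nuc trH)

/-! ### traces and strong limits -/

section
variable {H : Type} [NormedAddCommGroup H] [InnerProductSpace ℂ H] [CompleteSpace H]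

theorem tr_right_eq {α : Type} [MeasurableSpace α] {ν : Measure α} {u v : α → H} {T : H →L[ℂ] H}
    (h : IntRep ν u v T) (S : H →L[ℂ] H) : tr (T * S) = ∫ a, ⟪v a, S (u a)⟫_ℂ ∂ν := by
  rw [(h.right S).tr_eq]
  simp only [ContinuousLinearMap.adjoint_inner_left]

/-- strong convergence and traces -/
theorem Nu.tr_tendsto {T S : H →L[ℂ] H} {S' : ℕ → H →L[ℂ] H} {b B : ℝ} (h : Nu T b)
    (hB : ∀ k x, ‖S' k x‖ ≤ B * ‖x‖) (hS : ∀ x, Tendsto (fun k => S' k x) atTop (𝓝 (S x))) :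
    Tendsto (fun k => tr (T * S' k)) atTop (𝓝 (tr (T * S))) := by
  obtain ⟨α, mα, ν, u, v, h1, h2⟩ := h
  simp only [tr_right_eq h1]
  refine tendsto_integral_of_dominated_convergence (fun a => B * (‖u a‖ * ‖v a‖)) ?_
    (h1.int.const_mul B) ?_ ?_
  · exact fun k => h1.mv.inner ((S' k).continuous.comp_aestronglyMeasurable h1.mu)
  · refine fun k => Eventually.of_forall fun a => ?_
    refine (norm_inner_le_norm (𝕜 := ℂ) _ _).trans ?_
    calc ‖v a‖ * ‖S' k (u a)‖ ≤ ‖v a‖ * (B * ‖u a‖) := by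
          gcongr; exact hB k (u a)
      _ = B * (‖u a‖ * ‖v a‖) := by ring
  · exact Eventually.of_forall fun a => ((continuous_const.inner continuous_id).tendsto _).comp
      (hS (u a))

omit [CompleteSpace H] in
theorem bound_of_dense {C : Type} {e : C → H} (he : DenseRange e) {S : H →L[ℂ] H} {B : ℝ}
    (hB : ∀ c, ‖S (e c)‖ ≤ B * ‖e c‖) (x : H) : ‖S x‖ ≤ B * ‖x‖ :=
  he.induction_on x (isClosed_le (by fun_prop) (by fun_prop)) hB

omit [CompleteSpace H] in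
theorem tendsto_of_dense {C : Type} {e : C → H} (he : DenseRange e) {S : H →L[ℂ] H}
    {S' : ℕ → H →L[ℂ] H} {B : ℝ} (hB : ∀ k x, ‖S' k x‖ ≤ B * ‖x‖)
    (hS : ∀ c, Tendsto (fun k => S' k (e c)) atTop (𝓝 (S (e c)))) (x : H) :
    Tendsto (fun k => S' k x) atTop (𝓝 (S x)) := by
  rw [Metric.tendsto_atTop]
  intro ε hε
  have hB' : 0 < 2 * (|B| + ‖S‖ + 1) := by positivity
  obtain ⟨y, hy, hxy⟩ := Metric.mem_closure_iff.1 (he x) (ε / (2 * (|B| + ‖S‖ + 1)))
    (by positivity)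
  obtain ⟨c, rfl⟩ := hy
  obtain ⟨N, hN⟩ := Metric.tendsto_atTop.1 (hS c) (ε / 2) (by positivity)
  refine ⟨N, fun k hk => ?_⟩
  have h1 := hN k hk
  rw [dist_eq_norm] at h1 hxy ⊢
  have e1 : S' k x - S x = S' k (x - e c) + (S' k (e c) - S (e c)) - S (x - e c) := by
    simp only [map_sub]; abel
  rw [e1]
  have h2 := hB k (x - e c)
  have h3 := S.le_opNorm (x - e c)
  have h4 : (|B| + ‖S‖) * ‖x - e c‖ < ε / 2 := by
    have h5 : (|B| + ‖S‖) * ‖x - e c‖ ≤ (|B| + ‖S‖ + 1) * ‖x - e c‖ :=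
      mul_le_mul_of_nonneg_right (by linarith) (norm_nonneg _)
    refine h5.trans_lt ?_
    rw [lt_div_iff₀ (by positivity)] at hxy
    linarith
  have h6 : B * ‖x - e c‖ ≤ |B| * ‖x - e c‖ := by
    gcongr; exact le_abs_self B
  calc ‖S' k (x - e c) + (S' k (e c) - S (e c)) - S (x - e c)‖
      ≤ ‖S' k (x - e c)‖ + ‖S' k (e c) - S (e c)‖ + ‖S (x - e c)‖ :=
        (norm_sub_le _ _).trans (add_le_add_left (norm_add_le _ _) _)
    _ < ε := by linarith

end

section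
variable {n : ℕ} {M X Γ I V H : Type} [TopologicalSpace M] [TopologicalSpace X] [Group Γ]
  [MulAction Γ X] [T2Space X] [MeasurableSpace X] [BorelSpace X] [Fintype I]
  [NormedAddCommGroup V] [InnerProductSpace ℂ V]
  [NormedAddCommGroup H] [InnerProductSpace ℂ H]
  (c : Ctx n M X Γ I V H)

omit [MeasurableSpace X] [BorelSpace X] in
/-- decomposition of the multiplication by `κ` into local pieces, and of its integral -/
theorem decompI {C : Cov n M X Γ I} {χ : I → E n → ℝ} (hχ : Part C χ) {κ : X → ℝ}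
    (hκ : C.Ck ∞ κ) (hc : HasCompactSupport κ) : ∃ F : Finset Γ,
    (∀ (G : I → E n → Matrix (Fin n) (Fin n) ℝ) (K : Cliff n V) (S : SpX C G K) (φ : Core S),
      S.mC κ hκ φ = ∑ i, ∑ γ ∈ F, S.lC γ i ⟨_, mulCS_mem S φ γ i (ck_smooth hχ hκ γ i)
      (ck_hcs hχ γ i)⟩) ∧
    ∀ [MeasurableSpace X] [BorelSpace X] (G : I → E n → Matrix (Fin n) (Fin n) ℝ)
      (μ : Measure X), MetX C G → VolX C G μ → ∫ x, κ x ∂μ =
        ∑ i, ∑ γ ∈ F, ∫ y, ck C χ κ γ i y * Vale.Agent.P223.H.dens (G i) y := by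
  classical
  obtain ⟨F, hF⟩ := H566.exists_F (C := C) hχ hc.isCompact
  refine ⟨F.image (fun γ => γ⁻¹), fun G K S φ => ?_, fun G μ hG hV => ?_⟩
  · have key : ∀ (γ : Γ) i γ' j y, (S.lC γ⁻¹ i ⟨_, mulCS_mem S φ γ⁻¹ i (ck_smooth hχ hκ γ⁻¹ i)
        (ck_hcs hχ γ⁻¹ i)⟩ : Raw Γ I n V) γ' j y =
        (IBPX.th C χ γ i (γ' • C.ψ j y) * κ (γ' • C.ψ j y) : ℂ) • (φ : Raw Γ I n V) γ' j y := by
      intro γ i γ' j y
      change S.loc γ⁻¹ i _ γ' j y = _
      by_cases hx : γ • γ' • C.ψ j y ∈ Set.range (C.ψ i)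
      · obtain ⟨z, hz⟩ := hx
        have hz' : γ' • C.ψ j y = γ⁻¹ • C.ψ i z := by rw [hz, inv_smul_smul]
        rw [S.loc_of hz', map_smul, ← φ.2.compat γ⁻¹ γ' i j z y hz'.symm]
        unfold IBPX.th ck
        rw [← hz', ← hz, ex_ψ]
        push_cast
        rfl
      · rw [S.loc_zero]
        · unfold IBPX.th
          rw [IBPX.ex_of_notMem hx]; simp
        · intro z _ h
          apply hx
          rw [h, smul_inv_smul]
          exact ⟨z, rfl⟩
    refine Subtype.ext ?_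
    funext γ' j y
    have e1 : ((∑ i, ∑ γ ∈ F.image (fun γ => γ⁻¹), S.lC γ i ⟨_, mulCS_mem S φ γ i
        (ck_smooth hχ hκ γ i) (ck_hcs hχ γ i)⟩ : Core S) : Raw Γ I n V) γ' j y =
        ∑ i, ∑ γ ∈ F.image (fun γ => γ⁻¹), (S.lC γ i ⟨_, mulCS_mem S φ γ i
        (ck_smooth hχ hκ γ i) (ck_hcs hχ γ i)⟩ : Raw Γ I n V) γ' j y := by
      simp only [AddSubmonoidClass.coe_finsetSum, Finset.sum_apply]
    rw [e1]
    have e2 : ∀ i, ∑ γ ∈ F.image (fun γ => γ⁻¹), (S.lC γ i ⟨_, mulCS_mem S φ γ i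
        (ck_smooth hχ hκ γ i) (ck_hcs hχ γ i)⟩ : Raw Γ I n V) γ' j y =
        ∑ γ ∈ F, (IBPX.th C χ γ i (γ' • C.ψ j y) * κ (γ' • C.ψ j y) : ℂ) •
          (φ : Raw Γ I n V) γ' j y := by
      intro i
      rw [Finset.sum_image fun a _ b _ h => inv_injective h]
      exact Finset.sum_congr rfl fun γ _ => key γ i γ' j y
    simp only [e2]
    change mulR C κ (φ : Raw Γ I n V) γ' j y = _
    unfold mulR
    by_cases hx : γ' • C.ψ j y ∈ tsupport κ
    · simp only [← Finset.sum_smul, ← Finset.sum_mul]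
      have := hF _ hx
      have h4 : ∑ i, ∑ γ ∈ F, (IBPX.th C χ γ i (γ' • C.ψ j y) : ℂ) = 1 := by
        exact_mod_cast congrArg (fun r : ℝ => (r : ℂ)) this
      rw [h4, one_mul]
    · rw [image_eq_zero_of_notMem_tsupport hx]; simp
  · have hfc := H566.finComp hG hV
    have c1 : ∀ γ i, Continuous (IBPX.th C χ γ i) := fun γ i => by
      have h1 : C.Ck ∞ (C.ex i (χ i)) := Ck_ex C (hχ.smooth i)
        (HasCompactSupport.intro (isCompact_closedBall (0 : E n) 2) fun y hy =>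
          hχ.supp i y (by simpa using (lt_of_not_ge fun h => hy (by simpa using h)).le))
      exact Ck_continuous C fun γ' j => (Ck_smul C h1 γ γ' j).of_le (by simp)
    have c2 : Continuous κ := Ck_continuous C (fun γ i => (hκ γ i).of_le (by simp))
    have i1 : ∀ γ i, Integrable (fun x => IBPX.th C χ γ i x * κ x) μ := fun γ i =>
      ((c1 γ i).mul c2).integrable_of_hasCompactSupport hc.mul_left
    have e1 : ∀ x, κ x = ∑ i, ∑ γ ∈ F, IBPX.th C χ γ i x * κ x := by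
      intro x
      simp only [← Finset.sum_mul]
      by_cases hx : x ∈ tsupport κ
      · rw [hF x hx, one_mul]
      · rw [image_eq_zero_of_notMem_tsupport hx, mul_zero]
    have e2 : ∫ x, κ x ∂μ = ∑ i, ∑ γ ∈ F, ∫ x, IBPX.th C χ γ i x * κ x ∂μ := by
      calc ∫ x, κ x ∂μ = ∫ x, ∑ i, ∑ γ ∈ F, IBPX.th C χ γ i x * κ x ∂μ :=
            integral_congr_ae (Eventually.of_forall e1)
        _ = ∑ i, ∫ x, ∑ γ ∈ F, IBPX.th C χ γ i x * κ x ∂μ :=
            integral_finsetSum _ fun i _ => integrable_finsetSum _ fun γ _ => i1 γ i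
        _ = _ := Finset.sum_congr rfl fun i _ => integral_finsetSum _ fun γ _ => i1 γ i
    rw [e2]
    refine Finset.sum_congr rfl fun i _ => ?_
    rw [Finset.sum_image fun a _ b _ h => inv_injective h]
    refine Finset.sum_congr rfl fun γ _ => ?_
    rw [Int.integral_chart hG hV γ⁻¹ i]
    · refine integral_congr_ae (Eventually.of_forall fun y => ?_)
      simp only [IBPX.th, ck, smul_inv_smul, ex_ψ]
    · intro x hx
      unfold IBPX.th
      rw [IBPX.ex_of_notMem, zero_mul]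
      rintro ⟨z, hz⟩
      exact hx ⟨z, by simp only [hz, inv_smul_smul]⟩

omit [Fintype I] in
theorem chart_L2 (γ : Γ) (i : I) (K : Set (E n)) (φ : Core c.S) :
    IntegrableOn (fun y => Vale.Agent.P223.H.dens (c.G i) y * ‖(φ : Raw Γ I n V) γ i y‖ ^ 2) K ∧
    ∫ y in K, Vale.Agent.P223.H.dens (c.G i) y * ‖(φ : Raw Γ I n V) γ i y‖ ^ 2 ≤
      ‖c.E.e φ‖ ^ 2 := by
  have := H566.finComp c.S.met c.vol
  have hi : Integrable (fun x => nm c.C (φ : Raw Γ I n V) x ^ 2) c.μ := by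
    have h1 : HasCompactSupport (fun x => nm c.C (φ : Raw Γ I n V) x ^ 2) :=
      φ.2.nm_supp.comp_left (g := fun r : ℝ => r ^ 2) (by norm_num)
    exact (φ.2.continuous_nm.pow 2).integrable_of_hasCompactSupport h1
  have hN : ‖c.E.e φ‖ ^ 2 = ∫ x, nm c.C (φ : Raw Γ I n V) x ^ 2 ∂c.μ := by
    have h1 := c.E.ip φ φ
    rw [inner_self_eq_norm_sq_to_K] at h1
    unfold H566.ipr at h1
    have h2 : ∀ x, hp c.C (φ : Raw Γ I n V) (φ : Raw Γ I n V) x =
        ((nm c.C (φ : Raw Γ I n V) x ^ 2 : ℝ) : ℂ) := fun x => by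
      unfold hp nm
      rw [inner_self_eq_norm_sq_to_K]
      push_cast
      rfl
    simp only [h2] at h1
    have h3 : ((‖c.E.e φ‖ ^ 2 : ℝ) : ℂ) =
        ((∫ x, nm c.C (φ : Raw Γ I n V) x ^ 2 ∂c.μ : ℝ) : ℂ) := by
      rw [← integral_complex_ofReal, Complex.ofReal_pow]
      exact h1
    exact Complex.ofReal_injective h3
  have h0 := Int.integrable_chart c.S.met c.vol γ i _ hi
  simp only [φ.2.nm_chart] at h0
  set R := Set.range (fun y => γ • c.C.ψ i y) with hR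
  have hRm : MeasurableSet R := (Int.measurableEmbedding_chart c.C γ i).measurableSet_range
  have h1 := Int.integral_chart c.S.met c.vol γ i
    (R.indicator fun x => nm c.C (φ : Raw Γ I n V) x ^ 2)
    (fun x hx => Set.indicator_of_notMem hx _)
  have h2 : ∀ y, R.indicator (fun x => nm c.C (φ : Raw Γ I n V) x ^ 2) (γ • c.C.ψ i y) =
      ‖(φ : Raw Γ I n V) γ i y‖ ^ 2 := fun y => by
    rw [Set.indicator_of_mem (show γ • c.C.ψ i y ∈ R from ⟨y, rfl⟩), φ.2.nm_chart]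
  simp only [h2] at h1
  have h0' : Integrable fun y =>
      Vale.Agent.P223.H.dens (c.G i) y * ‖(φ : Raw Γ I n V) γ i y‖ ^ 2 := by
    simpa only [mul_comm] using h0
  refine ⟨h0'.integrableOn, ?_⟩
  calc ∫ y in K, Vale.Agent.P223.H.dens (c.G i) y * ‖(φ : Raw Γ I n V) γ i y‖ ^ 2
      ≤ ∫ y, Vale.Agent.P223.H.dens (c.G i) y * ‖(φ : Raw Γ I n V) γ i y‖ ^ 2 := by
        refine setIntegral_le_integral h0' (Eventually.of_forall fun y => ?_)
        exact mul_nonneg (Int.dens_pos c.S.met i y).le (by positivity)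
    _ = ∫ y, ‖(φ : Raw Γ I n V) γ i y‖ ^ 2 * Vale.Agent.P223.H.dens (c.G i) y := by
        simp only [mul_comm]
    _ = ∫ x in R, nm c.C (φ : Raw Γ I n V) x ^ 2 ∂c.μ := by
        rw [← h1, integral_indicator hRm]
    _ ≤ ∫ x, nm c.C (φ : Raw Γ I n V) x ^ 2 ∂c.μ :=
        setIntegral_le_integral hi (Eventually.of_forall fun x => by positivity)
    _ = _ := hN.symm

omit [Fintype I] in
theorem chart_L1 (γ : Γ) (i : I) (b : H566.CS n V) :
    ∫ x, nm c.C (c.S.lC γ i b : Raw Γ I n V) x ∂c.μ =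
      ∫ y, Vale.Agent.P223.H.dens (c.G i) y * ‖(b : E n → V) y‖ := by
  rw [Int.integral_chart c.S.met c.vol γ i]
  · refine integral_congr_ae (Eventually.of_forall fun y => ?_)
    simp only
    rw [(c.S.lC γ i b).2.nm_chart, mul_comm]
    congr 2
    exact c.S.loc_self γ i y
  · intro x hx
    unfold nm
    change ‖c.S.loc γ i b _ _ _‖ = 0
    rw [c.S.loc_zero, norm_zero]
    intro z _ h
    rw [H566.pg_spec] at h
    exact hx ⟨z, h.symm⟩

end

/-- BLOCK B4. -/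
theorem specTrB (hI : SpecIntS) : H66.SpecTrB := by
  intro n M X Γ I V H _ _ _ _ _ _ _ _ _ _ _ _ _ _ _ _ c χ₀ hχ₀ T kχ b β hn hsupp hnn hk hT hβ hTb
  classical
  obtain ⟨χ, hχ⟩ := PartX.main n M X Γ I c.C
  obtain ⟨F, hF1, hF2⟩ := decompI hχ hχ₀ hsupp (V := V)
  set K := Metric.closedBall (0 : E n) 3 with hKdef
  set K₀ := Metric.closedBall (0 : E n) 2 with hK₀def
  have hK : IsCompact K := isCompact_closedBall _ _
  have hK₀ : IsCompact K₀ := isCompact_closedBall _ _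
  have hKK : ∀ y, (∃ z ∈ K₀, dist y z ≤ 1) → y ∈ K := by
    rintro y ⟨z, hz, hyz⟩
    rw [hKdef, Metric.mem_closedBall]
    rw [hK₀def, Metric.mem_closedBall] at hz
    linarith [dist_triangle y z 0]
  have hL : ∀ γ i, LocRep K (Vale.Agent.P223.H.dens (c.G i)) c.E.e
      (fun φ : Core c.S => (φ : Raw Γ I n V) γ i) (locE c γ i) := fun γ i => locRep c hI hn hK γ i
  have hck0 : ∀ γ i y, 0 ≤ ck c.C χ χ₀ γ i y := fun γ i y =>
    mul_nonneg (hχ.nonneg i y) (hnn _)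
  have hckz : ∀ γ i y, y ∉ K₀ → ck c.C χ χ₀ γ i y = 0 := fun γ i y hy =>
    ck_zero hχ γ i (by
      rw [hK₀def, mem_closedBall_zero_iff, not_le] at hy
      exact hy.le)
  choose B S hB0 hB hS hTS using fun γ i => (hL γ i).approx hK₀ hKK (ck_smooth hχ hχ₀ γ i)
    (hck0 γ i) (hckz γ i) fun φ => chart_L2 c γ i K φ
  have hker : ∀ γ i, ∀ f ∈ CS K V, ∀ g ∈ CS K V, ‖⟪locE c γ i f, T (locE c γ i g)⟫_ℂ‖ ≤
      β * (∫ y, Vale.Agent.P223.H.dens (c.G i) y * ‖f y‖) *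
        ∫ y, Vale.Agent.P223.H.dens (c.G i) y * ‖g y‖ := by
    intro γ i f hf g hg
    have h1 := hTb (c.S.lC γ i ⟨f, CS.mem566 hK hf⟩) (c.S.lC γ i ⟨g, CS.mem566 hK hg⟩)
    rw [← locE_eq, ← locE_eq, chart_L1, chart_L1] at h1
    exact h1
  set S' : ℕ → H →L[ℂ] H := fun k => ∑ i, ∑ γ ∈ F, S γ i k with hS'
  have hB' : ∀ k x, ‖S' k x‖ ≤ (∑ i, ∑ γ ∈ F, B γ i) * ‖x‖ := by
    intro k
    refine bound_of_dense c.E.dense fun φ => ?_
    simp only [hS', sum_apply, Finset.sum_mul]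
    refine (norm_sum_le _ _).trans (Finset.sum_le_sum fun i _ => ?_)
    exact (norm_sum_le _ _).trans (Finset.sum_le_sum fun γ _ => hB γ i k φ)
  have hlim : ∀ φ, Tendsto (fun k => S' k (c.E.e φ)) atTop (𝓝 (kχ (c.E.e φ))) := by
    intro φ
    have e1 : kχ (c.E.e φ) = ∑ i, ∑ γ ∈ F,
        locE c γ i (fun y => (ck c.C χ χ₀ γ i y : ℂ) • (φ : Raw Γ I n V) γ i y) := by
      rw [hk, hF1]
      simp only [map_sum]
      exact Finset.sum_congr rfl fun i _ => Finset.sum_congr rfl fun γ _ =>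
        (locE_eq c γ i _).symm
    rw [e1]
    simp only [hS', sum_apply]
    exact tendsto_finsetSum _ fun i _ => tendsto_finsetSum _ fun γ _ => hS γ i φ
  have hnu := Nuc.nu hT
  have h2 := hnu.tr_tendsto hB' (tendsto_of_dense c.E.dense hB' hlim)
  rw [trH_eq]
  refine le_of_tendsto h2.norm (Eventually.of_forall fun k => ?_)
  have h3 : ∀ i γ, ‖tr (T * S γ i k)‖ ≤ Module.finrank ℂ V * β *
      ∫ y, ck c.C χ χ₀ γ i y * Vale.Agent.P223.H.dens (c.G i) y := fun i γ =>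
    hTS γ i T β hβ (hker γ i) k
  have h4 : tr (T * S' k) = ∑ i, ∑ γ ∈ F, tr (T * S γ i k) := by
    obtain ⟨α, mα, ν, u, v, g1, g2⟩ := hnu
    simp only [tr_right_eq g1, hS', sum_apply, inner_sum]
    have g3 : ∀ i γ, Integrable (fun a => ⟪v a, S γ i k (u a)⟫_ℂ) ν := fun i γ => by
      have := (g1.right (S γ i k)).integrable_trace
      simpa only [ContinuousLinearMap.adjoint_inner_left] using this
    rw [integral_finsetSum _ fun i _ => integrable_finsetSum _ fun γ _ => g3 i γ]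
    exact Finset.sum_congr rfl fun i _ => integral_finsetSum _ fun γ _ => g3 i γ
  rw [h4, hF2 c.G c.μ c.S.met c.vol, Finset.mul_sum]
  refine (norm_sum_le _ _).trans (Finset.sum_le_sum fun i _ => ?_)
  rw [Finset.mul_sum]
  exact (norm_sum_le _ _).trans (Finset.sum_le_sum fun γ _ => h3 i γ)

end Vale.Agent.P223.H691
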