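import Vale.Agent.P223.H66.S3
import Vale.Agent.P223.X.MiniU
import Vale.Agent.P223.X.RicU
import Vale.Agent.P223.X.Int
import Vale.Agent.P223.X.Basic2

/-! Block UY: the Sobolev inequality on the universal covering. -/

namespace Vale.Agent.P223.H691

open scoped ContDiff Topology ENNReal Matrix
open MeasureTheory Vale.Agent.P223.H Vale.Agent.P223.X
open BoxB MetU MiniU

namespace UY

section
variable {n : ℕ} {M X Γ I : Type} [TopologicalSpace M] [TopologicalSpace X] [Group Γ]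
    [MulAction Γ X] {c : M → J.Ch n M} {B : Box c I} {C : Cov n M X Γ I}
    {g : M → J.Mtx n} {c' : X → J.Ch n X}

/-- the lifted atlas -/
theorem exists_covAtl (hc : J.Atl c) (C : Cov n M X Γ I) :
    ∃ c' : X → J.Ch n X, J.CovAtl c C.π c' := by
  have h := C.cov.isLocalHomeomorph
  choose e he hf using h
  refine ⟨fun q => (e q).trans (c (C.π q)), C.cov, C.surj, fun q => ?_, fun q p hp => ?_⟩
  · rw [OpenPartialHomeomorph.trans_source]
    refine ⟨he q, ?_⟩
    rw [Set.mem_preimage, ← hf q]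
    exact (hc (C.π q)).1
  · rw [OpenPartialHomeomorph.trans_source] at hp
    obtain ⟨-, h2⟩ := hp
    rw [Set.mem_preimage, ← hf q] at h2
    refine ⟨h2, ?_⟩
    rw [OpenPartialHomeomorph.trans_apply, ← hf q]

variable (hc : J.Atl c) (hβ : ∀ i y, C.π (C.ψ i y) = B.β i y) (hg : J.Met c g)
  (hf : J.CovAtl c C.π c')

include hc in
/-- `x i ∘ kp` is the coordinate change -/
theorem D_kp {a p : M} {i : I} (hp : p ∈ (c a).source) (hi : p ∈ Set.range (B.β i)) (v : E n) :
    B.D i (kp B a i (c a p)) (fderiv ℝ (kp B a i) (c a p) v) =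
      fderiv ℝ (J.cm (c a) (c (B.a i))) (c a p) v := by
  obtain ⟨y, rfl⟩ := hi
  have k1 : kp B a i (c a (B.β i y)) = y := by rw [kp_apply B i hp, βi_β]
  have d1 : DifferentiableAt ℝ (kp B a i) (c a (B.β i y)) :=
    (contDiffAt_kp B hc hp ⟨y, rfl⟩).differentiableAt (by simp)
  have d2 : DifferentiableAt ℝ (B.x i) (kp B a i (c a (B.β i y))) :=
    (contDiff_x B i).differentiable (by simp) _
  have e : (fun x => B.x i (kp B a i x)) =ᶠ[𝓝 (c a (B.β i y))] J.cm (c a) (c (B.a i)) := by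
    filter_upwards [eventually_mem hp (isOpen_range_β B i) ⟨y, rfl⟩] with x hx
    obtain ⟨hx1, z, hz⟩ := hx
    have hs : (c a).symm x ∈ (c a).source := (c a).map_target hx1
    have hxe : x = c a (B.β i z) := by rw [hz, (c a).right_inv hx1]
    have k3 : kp B a i x = z := by rw [hxe, kp_apply B i (by rw [hz]; exact hs), βi_β]
    rw [k3, ← c_β, hz]
    rfl
  rw [← e.fderiv_eq, ← fderiv_x]
  exact (congrArg (fun T : E n →L[ℝ] E n => T v) (fderiv_comp _ d2 d1)).symm

include hc hg in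
theorem gi_g {a p : M} {i : I} (hp : p ∈ (c a).source) (hi : p ∈ Set.range (B.β i)) :
    gi B (B.G g) a i (c a p) = g a (c a p) := by
  have h4 : ∀ v w, J.bil (gi B (B.G g) a i (c a p)) v w = J.bil (g a (c a p)) v w := by
    intro v w
    rw [bil_gi, bil_G, D_kp hc hp hi, D_kp hc hp hi, kp_apply B i hp]
    have h5 : B.x i (βi B i p) = c (B.a i) p := by rw [← c_β, β_βi B hi]
    rw [h5]
    exact ((hg a p hp).2.2 (B.a i) (range_sub B hi) v w).symm
  ext k l
  have h5 := (bil_single (gi B (B.G g) a i (c a p)) k l 1 1).symm.trans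
    ((h4 _ _).trans (bil_single (g a (c a p)) k l 1 1))
  linarith

include hc hg in
/-- pullback of the metric, in matrix form -/
theorem g_jac {a p : M} {i : I} (hp : p ∈ (c a).source) (hi : p ∈ Set.range (B.β i)) :
    g a (c a p) = (jac (kp B a i) (c a p))ᵀ * B.G g i (kp B a i (c a p)) *
      jac (kp B a i) (c a p) := by
  rw [← gi_g hc hg hp hi]
  ext k l
  unfold gi J.bil
  simp only [fderiv_single (contDiffAt_kp B hc hp hi)]
  simp only [Matrix.mul_apply, Matrix.transpose_apply, Finset.sum_mul]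
  rw [Finset.sum_comm]
  refine Finset.sum_congr rfl fun i _ => Finset.sum_congr rfl fun j _ => ?_
  ring

include hc in
theorem det_jac_ne {a p : M} {i : I} (hp : p ∈ (c a).source) (hi : p ∈ Set.range (B.β i)) :
    (jac (kp B a i) (c a p)).det ≠ 0 := by
  rw [Bas2.det_jac (contDiffAt_kp B hc hp hi)]
  intro h0
  have h1 : ¬ IsUnit (LinearMap.det (fderiv ℝ (kp B a i) (c a p) : E n →ₗ[ℝ] E n)) := by
    rw [show LinearMap.det (fderiv ℝ (kp B a i) (c a p) : E n →ₗ[ℝ] E n) = 0 from h0]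
    simp
  have h2 : LinearMap.ker (fderiv ℝ (kp B a i) (c a p) : E n →ₗ[ℝ] E n) ≠ ⊥ := by
    intro h3
    exact h1 ((LinearMap.isUnit_iff_ker_eq_bot _).2 h3 |>.map LinearMap.det)
  obtain ⟨v, hv, hv0⟩ := (Submodule.ne_bot_iff _).1 h2
  exact kp_inj hc hp hi hv0 (by simpa using hv)

include hf in
theorem pt {q : X} {x : E n} (hx : x ∈ (c' q).target) :
    C.π ((c' q).symm x) ∈ (c (C.π q)).source ∧ c (C.π q) (C.π ((c' q).symm x)) = x := by
  obtain ⟨h1, h2⟩ := hf.eq q _ ((c' q).map_target hx)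
  exact ⟨h1, by rw [← h2, (c' q).right_inv hx]⟩

include hf hβ in
theorem kp_pt {q : X} {x : E n} {γ : Γ} {i : I} {z : E n} (hx : x ∈ (c' q).target)
    (hz : γ • C.ψ i z = (c' q).symm x) :
    C.π ((c' q).symm x) ∈ Set.range (B.β i) ∧ kp B (C.π q) i x = z := by
  obtain ⟨h1, h2⟩ := pt hf hx
  have h3 : C.π ((c' q).symm x) = B.β i z := by rw [← hz, π_smul, hβ]
  refine ⟨⟨z, h3.symm⟩, ?_⟩
  have h4 := kp_apply B i h1
  rw [h2] at h4
  rw [h4, h3, βi_β]

theorem isOpen_rg (C : Cov n M X Γ I) (γ : Γ) (i : I) :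
    IsOpen (Set.range fun y => γ • C.ψ i y) := (Int.isOpenEmbedding_chart C γ i).isOpen_range

/-- the part of the chart at `q` in the chart `γ • ψ i` -/
def S (C : Cov n M X Γ I) (c' : X → J.Ch n X) (q : X) (a : Γ × I) : Set (E n) :=
  (c' q).target ∩ (c' q).symm ⁻¹' (Set.range fun y => a.1 • C.ψ a.2 y)

theorem isOpen_S (q : X) (a : Γ × I) : IsOpen (S C c' q a) :=
  (c' q).symm.isOpen_inter_preimage (isOpen_rg C a.1 a.2)

include hf hβ in
theorem S_spec {q : X} {a : Γ × I} {x : E n} (hx : x ∈ S C c' q a) :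
    a.1 • C.ψ a.2 (kp B (C.π q) a.2 x) = (c' q).symm x := by
  obtain ⟨h1, z, hz⟩ := hx
  rw [(kp_pt hβ hf h1 hz).2]
  exact hz

theorem exists_S {q : X} {x : E n} (hx : x ∈ (c' q).target) : ∃ a, x ∈ S C c' q a := by
  obtain ⟨γ, i, y, -, h⟩ := Vale.Agent.P223.X.exists_chart C ((c' q).symm x)
  exact ⟨(γ, i), hx, y, h⟩

include hc hf hβ in
/-- smooth functions -/
theorem smAt {u : X → ℝ} (hu : C.Ck ∞ u) {q : X} {x : E n} (hx : x ∈ (c' q).target) :
    ContDiffAt ℝ ∞ (fun x => u ((c' q).symm x)) x := by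
  obtain ⟨a, ha⟩ := exists_S (C := C) hx
  obtain ⟨h1, h2⟩ := pt hf hx
  obtain ⟨h1', z, hz⟩ := id ha
  obtain ⟨h3, h4⟩ := kp_pt hβ hf hx hz
  have h5 := contDiffAt_kp B hc h1 h3
  rw [h2] at h5
  have h6 : ContDiffAt ℝ ∞ (fun x => C.rep u a.1 a.2 (kp B (C.π q) a.2 x)) x :=
    ((hu a.1 a.2).contDiffAt).comp x h5
  refine h6.congr_of_eventuallyEq ?_
  filter_upwards [(isOpen_S q a).mem_nhds ha] with x' hx'
  unfold Cov.rep
  rw [S_spec hβ hf hx']

include hc hf hβ in
theorem sm {u : X → ℝ} (hu : C.Ck ∞ u) : J.Sm c' u := fun _ _ hx =>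
  (smAt hc hβ hf hu hx).contDiffWithinAt

include hc hf hβ hg in
/-- energy density -/
theorem gsq_eq {u : X → ℝ} (hu : C.Ck ∞ u) (q : X) :
    J.gsq (g (C.π q)) (fun x => u ((c' q).symm x)) (c' q q) = gsX C (B.G g) u q := by
  have hq : (c' q).symm (c' q q) = q := (c' q).left_inv (hf.mem q)
  have hx : c' q q ∈ (c' q).target := (c' q).map_source (hf.mem q)
  have hz : C.pg q • C.ψ (C.pi q) (C.py q) = (c' q).symm (c' q q) := by
    rw [hq]; exact (C.cover q).choose_spec.choose_spec.choose_spec.2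
  obtain ⟨h1, h2⟩ := pt hf hx
  obtain ⟨h3, h4⟩ := kp_pt hβ hf hx hz
  have hS : c' q q ∈ S C c' q (C.pg q, C.pi q) := ⟨hx, C.py q, hz⟩
  have h5 := contDiffAt_kp B hc h1 h3
  have h6 := det_jac_ne hc h1 h3
  have h7 := g_jac hc hg h1 h3
  rw [h2] at h5 h6 h7
  have h8 : Differentiable ℝ (C.rep u (C.pg q) (C.pi q)) :=
    (hu _ _).differentiable (by simp)
  have h9 := Bas2.gradSq_comp (G := g (C.π q)) (G' := B.G g (C.pi q)) h5 h6 h7
    (f := C.rep u (C.pg q) (C.pi q)) (h8 _)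
  have h10 : (fun x => u ((c' q).symm x)) =ᶠ[𝓝 (c' q q)]
      fun x => C.rep u (C.pg q) (C.pi q) (kp B (C.π q) (C.pi q) x) := by
    filter_upwards [(isOpen_S q _).mem_nhds hS] with x' hx'
    unfold Cov.rep
    rw [S_spec hβ hf hx']
  have h11 : J.gsq (g (C.π q)) (fun x => u ((c' q).symm x)) (c' q q) =
      gradSq (g (C.π q)) (fun x => u ((c' q).symm x)) (c' q q) := rfl
  rw [h11, Bas2.gradSq_congr h10, h9, h4]
  rfl

include hc hf hβ hg in
/-- scalar curvature -/
theorem scal_eq (q : X) : J.scal (g (C.π q)) (c' q q) = Vale.Agent.P223.H66.scX C (B.G g) q := by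
  have hz : C.pg q • C.ψ (C.pi q) (C.py q) = q :=
    (C.cover q).choose_spec.choose_spec.choose_spec.2
  have h1 : C.π q = B.β (C.pi q) (C.py q) := by
    conv_lhs => rw [← hz]
    rw [π_smul, hβ]
  have h2 : C.π q ∈ (c (B.a (C.pi q))).source := by rw [h1]; exact β_mem B _ _
  unfold Vale.Agent.P223.H66.scX
  rw [Bridge.scal_eq, RicU.scal_G B hg, (hf.eq q q (hf.mem q)).2,
    RicU.scal_chart hc hg (C.π q) (B.a (C.pi q)) (C.π q) (hc _).1 h2]
  congr 1
  conv_lhs => rw [h1]
  rw [c_β]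

end

section
variable {n : ℕ} {M X Γ I : Type} [TopologicalSpace M] [TopologicalSpace X] [Group Γ]
    [MulAction Γ X] {c : M → J.Ch n M} {B : Box c I} {C : Cov n M X Γ I}
    {g : M → J.Mtx n} {c' : X → J.Ch n X} [MeasurableSpace X] [BorelSpace X] {μ : Measure X}
  (hc : J.Atl c) (hβ : ∀ i y, C.π (C.ψ i y) = B.β i y) (hg : J.Met c g)
  (hf : J.CovAtl c C.π c') (hμ : VolX C (B.G g) μ)

include hc hf hβ hg hμ in
omit [BorelSpace X] in
theorem vol_aux (q : X) (a : Γ × I) {T : Set (E n)} (hT : T ⊆ S C c' q a)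
    (hm : MeasurableSet T) :
    μ ((c' q).symm '' T) = ∫⁻ x in T, ENNReal.ofReal √(g (C.π q) x).det := by
  set k : E n → E n := kp B (C.π q) a.2 with hk
  have hr : ∀ x ∈ T, C.π ((c' q).symm x) ∈ Set.range (B.β a.2) := fun x hx => by
    obtain ⟨h1, z, hz⟩ := hT hx
    exact (kp_pt hβ hf h1 hz).1
  have hd : ∀ x ∈ T, HasFDerivWithinAt k (fderiv ℝ k x) T x := by
    intro x hx
    obtain ⟨h1, h2⟩ := pt hf (hT hx).1
    have := contDiffAt_kp B hc h1 (hr x hx)
    rw [h2] at this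
    exact (this.differentiableAt (by simp)).hasFDerivAt.hasFDerivWithinAt
  have hinj : Set.InjOn k T := by
    intro x hx x' hx' h
    have h1 := S_spec hβ hf (hT hx)
    have h2 := S_spec hβ hf (hT hx')
    rw [← hk] at h1 h2
    rw [h, h2] at h1
    rw [← (c' q).right_inv (hT hx).1, ← (c' q).right_inv (hT hx').1, h1]
  have hkm : MeasurableSet (k '' T) := measurable_image_of_fderivWithin hm hd hinj
  have h2 : (c' q).symm '' T = (fun y => a.1 • C.ψ a.2 y) '' (k '' T) := by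
    rw [Set.image_image]
    refine Set.image_congr fun x hx => ?_
    exact (S_spec hβ hf (hT hx)).symm
  rw [h2, hμ a.1 a.2 _ hkm, lintegral_image_eq_lintegral_abs_det_fderiv_mul volume hm hd hinj]
  refine setLIntegral_congr_fun hm fun x hx => ?_
  obtain ⟨h3, h4⟩ := pt hf (hT hx).1
  have h5 := gi_g hc hg h3 (hr x hx)
  rw [h4] at h5
  rw [← h5, dens_gi, ← ENNReal.ofReal_mul (abs_nonneg _)]

include hc hf hβ hg hμ in
theorem vol : J.Vol c' (fun q => g (C.π q)) μ := by
  intro q T hT hm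
  obtain ⟨K, hK, hKU⟩ := TopologicalSpace.isOpen_iUnion_countable (S C c' q) (isOpen_S q)
  have : Countable K := hK.to_subtype
  have hcov : (c' q).target = ⋃ a : K, S C c' q a := by
    rw [← Set.biUnion_eq_iUnion (s := K) (t := fun a _ => S C c' q a), hKU]
    ext x
    rw [Set.mem_iUnion]
    exact ⟨fun h => exists_S h, fun ⟨a, ha⟩ => ha.1⟩
  have hsm : MeasurableSet (c' q).source := (c' q).open_source.measurableSet
  have hae : AEMeasurable (c' q) (μ.restrict (c' q).source) :=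
    (c' q).continuousOn.aemeasurable hsm
  set ν₁ : Measure (E n) := (μ.restrict (c' q).source).map (c' q) with hν₁
  set ν₂ : Measure (E n) := volume.withDensity fun x => ENNReal.ofReal √(g (C.π q) x).det with hν₂
  have h1 : ∀ A : Set (E n), MeasurableSet A → A ⊆ (c' q).target →
      ν₁ A = μ ((c' q).symm '' A) := by
    intro A hA hAt
    rw [hν₁, Measure.map_apply_of_aemeasurable hae hA]
    rw [Measure.restrict_apply₀ (hae.nullMeasurableSet_preimage hA)]
    congr 1
    rw [Set.inter_comm, ← (c' q).symm_image_eq_source_inter_preimage hAt]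
  have h2 : ∀ A : Set (E n), MeasurableSet A →
      ν₂ A = ∫⁻ x in A, ENNReal.ofReal √(g (C.π q) x).det := fun A hA =>
    withDensity_apply _ hA
  have h3 : ν₁.restrict (⋃ a : K, S C c' q a) = ν₂.restrict (⋃ a : K, S C c' q a) := by
    rw [Measure.restrict_iUnion_congr]
    intro a
    refine Measure.ext fun A hA => ?_
    have hAS : MeasurableSet (A ∩ S C c' q a) :=
      hA.inter (isOpen_S (C := C) (c' := c') q a).measurableSet
    rw [Measure.restrict_apply hA, Measure.restrict_apply hA, h2 _ hAS,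
      h1 _ hAS (Set.inter_subset_right.trans Set.inter_subset_left)]
    exact vol_aux hc hβ hg hf hμ q a Set.inter_subset_right hAS
  rw [← hcov] at h3
  have h4 := congrArg (fun ν => ν T) h3
  simp only [Measure.restrict_apply hm, Set.inter_eq_left.2 hT] at h4
  rw [h1 T hm hT, h2 T hm] at h4
  exact h4

end

end UY

theorem specUY : Vale.Agent.P223.H66.SpecUY := by
  intro n M X Γ I _ _ _ _ _ _ _ _ _ _ _ c B C g μ a b y hc hβ hg hμ hU u hu
  obtain ⟨c', hf⟩ := UY.exists_covAtl hc C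
  have h := hU X _ C.π c' inferInstance hf _ inferInstance μ (UY.vol hc hβ hg hf hμ) u
    (UY.sm hc hβ hf hu.1) hu.2
  refine h.trans (le_of_eq (integral_congr_ae (ae_of_all _ fun q => ?_)))
  simp only [UY.gsq_eq hc hβ hg hf hu.1 q, UY.scal_eq hc hβ hg hf q]

end Vale.Agent.P223.H691
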