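import Vale.Agent.P223.H691.PWb
import Vale.Agent.P223.H391.SpecPW

/-! The plane wave representation of powers of the resolvent. -/

namespace Vale.Agent.P223.H691

open scoped ContDiff InnerProductSpace Topology
open MeasureTheory Vale.Agent.P223.X
open Vale.Agent.P223.H566 (SpX Core Raw IsCore Cliff Ctx Emb Rsv dir dir_congr dir_smul SpecIntS
  SpecLocal mulR Fr WB nm hp SpecSup Gst)

theorem Rsv.norm_le {n : ℕ} {M X Γ I V H : Type} [TopologicalSpace M] [TopologicalSpace X]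
    [Group Γ] [MulAction Γ X] [T2Space X]
    [MeasurableSpace X] [NormedAddCommGroup V] [InnerProductSpace ℂ V]
    [NormedAddCommGroup H] [InnerProductSpace ℂ H]
    {C : Cov n M X Γ I} {G : I → E n → Matrix (Fin n) (Fin n) ℝ} {K : Cliff n V}
    {S : SpX C G K} {μ : Measure X} {E : Emb S μ H} {m : ℝ} {g p : H →L[ℂ] H} (hm : 1 ≤ m)
    (h : Rsv E m g p) (x : H) : ‖g x‖ ≤ ‖x‖ := by
  obtain ⟨sp, sm, _, _, h1, h2, h5, _⟩ := h.ex
  have h3 := h1 x
  have h4 := h2 x
  rw [h5, smul_apply, norm_smul, Complex.norm_real, Real.norm_of_nonneg (by positivity), add_apply]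
  have h6 : ‖sp x + sm x‖ ≤ ‖sp x‖ + ‖sm x‖ := norm_add_le _ _
  have h7 : m * (‖sp x‖ + ‖sm x‖) ≤ 2 * ‖x‖ := by linarith
  have hm0 : 0 < m := by linarith
  have h8 : ‖sp x‖ + ‖sm x‖ ≤ 2 * ‖x‖ / m := by
    rw [le_div_iff₀ hm0]; linarith
  calc 1 / (2 * m) * ‖sp x + sm x‖ ≤ 1 / (2 * m) * (2 * ‖x‖ / m) := by gcongr; exact h6.trans h8
    _ = ‖x‖ * (1 / (m * m)) := by field_simp
    _ ≤ ‖x‖ * 1 := by
        gcongr
        rw [div_le_one (by positivity)]
        nlinarith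
    _ = ‖x‖ := mul_one _

theorem norm_pow_le {H : Type} [NormedAddCommGroup H] [InnerProductSpace ℂ H] {g : H →L[ℂ] H}
    (h : ∀ x, ‖g x‖ ≤ ‖x‖) (i : ℕ) (x : H) : ‖(g ^ i) x‖ ≤ ‖x‖ := by
  induction i with
  | zero => simp
  | succ i ih =>
    rw [pow_succ', mul_apply_eq_comp]
    exact (h _).trans ih

theorem specPW (hL : SpecLocal) (hI : SpecIntS) (hS : SpecSup) : H391.SpecPW := by
  intro n M X Γ I V H _ _ _ _ _ _ _ _ _ _ _ _ _ _ _ _ c κ hκ k J m g p hn hc hk hJ hm hR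
  classical
  obtain ⟨χ, hχ⟩ := PartX.main n M X Γ I c.C
  obtain ⟨χ', hχ', hχ'0, hχ'le, hχ'2, hχ'3⟩ := exists_cut n
  obtain ⟨F, hF⟩ := decomp c.S hχ hκ hc
  set K := Metric.closedBall (0 : E n) 3 with hKdef
  have hK : IsCompact K := isCompact_closedBall _ _
  have hKn : ∀ y : E n, y ∉ K → 3 < ‖y‖ := fun y hy => by
    rw [hKdef, mem_closedBall_zero_iff, not_le] at hy
    exact hy
  have hs' : ∀ y, y ∉ K → χ' y = 0 := fun y hy => hχ'3 y (hKn y hy).le
  have hs : ∀ γ i y, y ∉ K → ck c.C χ κ γ i y = 0 := fun γ i y hy =>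
    ck_zero hχ γ i (by linarith [hKn y hy])
  have hcc : ∀ γ i y, χ' y * ck c.C χ κ γ i y = ck c.C χ κ γ i y := fun γ i y => by
    by_cases hy : ‖y‖ ≤ 2
    · rw [hχ'2 y hy, one_mul]
    · rw [ck_zero hχ γ i (not_le.1 hy).le, mul_zero]
  choose co hco hres using fun i => locRes c hL i
  set b := stdOrthonormalBasis ℂ V with hb
  have hm0 : 0 < m := by linarith
  have hL' : ∀ γ i, LocRep K (Vale.Agent.P223.H.dens (c.G i)) c.E.e
      (fun φ : Core c.S => (φ : Raw Γ I n V) γ i) (locE c γ i) := fun γ i => locRep c hI hn hK γ i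
  -- representation of the pieces
  have hrep : ∀ γ i, ∃ T : Fin (Module.finrank ℂ V) → H →L[ℂ] H,
      (∀ φ : Core c.S, (g ^ J) (locE c γ i fun y => (ck c.C χ κ γ i y : ℂ) •
        (φ : Raw Γ I n V) γ i y) = ∑ s, T s (c.E.e φ)) ∧
      (∀ s, IntRep volume (fun ξ => (g ^ J) (uu (locE c γ i) χ' b s ξ))
        (vv (Vale.Agent.P223.H.dens (c.G i)) (locE c γ i) (ck c.C χ κ γ i) b s) (T s)) := by
    intro γ i
    obtain ⟨D, hD, h⟩ := nucP (e := c.E.e) b hK (hL' γ i).dens_smooth (hL' γ i).dens_pos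
      (ck_smooth hχ hκ γ i) hχ' (hs γ i) hs' (hcc γ i) (co i) hJ
    obtain ⟨T, h1, h2, _⟩ := h _ (locE c γ i) g 1 _ m hm (hL' γ i) (hres i K hK γ m g p hm0 hR)
      (Real.sqrt_nonneg (∫ y in K, Vale.Agent.P223.H.dens (c.G i) y)) (fun j _ f a ha hf hfa => by
        change ‖(g ^ j) (locE c γ i f)‖ ≤ _
        exact (norm_pow_le (Rsv.norm_le hm hR) j _).trans ((hL' γ i).norm_le_sqrt hf ha hfa))
    rw [one_mul] at h1 h2
    exact ⟨T, h1, h2⟩
  choose T hT1 hT2 using hrep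
  -- the operator
  have hop : ∀ x, (g ^ J * k) x = ∑ i, ∑ γ ∈ F, ∑ s, T γ i s x := by
    have h1 : Continuous fun x => (g ^ J * k) x := (g ^ J * k).continuous
    have h2 : Continuous fun x => ∑ i, ∑ γ ∈ F, ∑ s, T γ i s x :=
      continuous_finsetSum _ fun i _ => continuous_finsetSum _ fun γ _ =>
        continuous_finsetSum _ fun s _ => (T γ i s).continuous
    refine congrFun (c.E.dense.equalizer h1 h2 (funext fun φ => ?_))
    simp only [Function.comp_apply, mul_apply_eq_comp, hk, hF, map_sum]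
    refine Finset.sum_congr rfl fun i _ => Finset.sum_congr rfl fun γ _ => ?_
    rw [← hT1, locE_eq c γ i (mulCS_mem c.S φ γ i (ck_smooth hχ hκ γ i) (ck_hcs hχ γ i))]
  -- all pieces together
  let Q := I × F × Fin (Module.finrank ℂ V)
  have hsig : IntRep (sgm fun _ : Q => (volume : Measure (E n)))
      (fun q : Σ _ : Q, E n => (g ^ J) (uu (locE c q.1.2.1 q.1.1) χ' b q.1.2.2 q.2))
      (fun q : Σ _ : Q, E n => vv (Vale.Agent.P223.H.dens (c.G q.1.1)) (locE c q.1.2.1 q.1.1)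
        (ck c.C χ κ q.1.2.1 q.1.1) b q.1.2.2 q.2) (g ^ J * k) := by
    refine IntRep.sigma (T := fun q : Q => T q.2.1 q.1 q.2.2)
      (u := fun (q : Q) ξ => (g ^ J) (uu (locE c q.2.1 q.1) χ' b q.2.2 ξ))
      (v := fun (q : Q) ξ => vv (Vale.Agent.P223.H.dens (c.G q.1)) (locE c q.2.1 q.1)
        (ck c.C χ κ q.2.1 q.1) b q.2.2 ξ) (fun q => hT2 _ _ _) Summable.of_finite fun x => ?_
    have h1 := hasSum_fintype fun q : Q => T q.2.1 q.1 q.2.2 x
    rw [hop]
    convert h1 using 1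
    rw [Fintype.sum_prod_type]
    refine Finset.sum_congr rfl fun i _ => ?_
    rw [Fintype.sum_prod_type, ← Finset.sum_coe_sort F]
  have hm' : ∀ s, (fun y => (χ' y : ℂ) • b s) ∈ CS K V := fun s =>
    CS.fmul_mem hχ' hs' contDiff_const
  have hmd : ∀ γ i s, (fun y => ((ck c.C χ κ γ i y / Vale.Agent.P223.H.dens (c.G i) y : ℝ) : ℂ) •
      b s) ∈ CS K V := fun γ i s =>
    CS.fmul_mem (f := fun y => ck c.C χ κ γ i y / Vale.Agent.P223.H.dens (c.G i) y)
      ((ck_smooth hχ hκ γ i).div (hL' γ i).dens_smooth fun x => ((hL' γ i).dens_pos x).ne')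
      (fun x hx => by simp only [hs γ i x hx, zero_div]) contDiff_const
  refine ⟨Σ _ : Q, E n, inferInstance, _, _, _, ?_, ?_, hsig.int, fun x y => ?_, ?_⟩
  · refine sgm_sm fun q => Continuous.stronglyMeasurable ?_
    exact (g ^ J).continuous.comp ((hL' q.2.1 q.1).continuous_pw (hm' q.2.2))
  · refine sgm_sm fun q => Continuous.stronglyMeasurable ?_
    exact ((hL' q.2.1 q.1).continuous_pw (hmd q.2.1 q.1 q.2.2)).const_smul _
  · rw [hsig.rep, ← integral_inner (hsig.integrable_smul y)]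
    refine integral_congr_ae (Filter.Eventually.of_forall fun a => ?_)
    simp only [inner_smul_right, mul_comm]
  · -- sup bounds
    intro s w hw hms
    have hwc : Continuous w := Ck_continuous c.C fun γ i => (hw.smooth γ i).of_le (by simp)
    have hw0 := hw.pos
    choose N₁ hN₁ hN₁' using fun (γ : Γ) (i : I) => loc_WB c hI hn hwc hw0 hK γ i
    have hB : ∀ s, SymGe K 0 (fun q : Ph n × E n => (χ' q.2 : ℂ) • b s) := fun s =>
      (Sym.of_fun ((Complex.ofRealCLM.contDiff.comp hχ').smul contDiff_const)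
        fun x hx => by simp [hs' x hx]).ge
    choose D hD hbd using fun (i : I) s => (co i).iterate_bound hK (hB s) J
    choose N₂ hN₂ hN₂' using fun (γ : Γ) (i : I) s => pw_pair c hw0 hK γ i (hmd γ i s)
    refine ⟨fun q => N₁ q.1.2.1 q.1.1 * (D q.1.1 q.1.2.2 *
      ‖((m, q.2) : Ph n)‖ ^ (-((2 * J : ℕ) : ℤ))),
      fun q => ((2 * Real.pi) ^ n)⁻¹ * N₂ q.1.2.1 q.1.1 q.1.2.2, fun q => ?_, fun q => ?_, ?_,
      fun q => ?_, fun q t x ht hx => ?_⟩
    · have := hN₁ q.1.2.1 q.1.1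
      have := hD q.1.1 q.1.2.2
      positivity
    · have := hN₂ q.1.2.1 q.1.1 q.1.2.2
      positivity
    · refine sgm_integrable (fun q => ?_) Summable.of_finite
      exact (((integrable_ph hJ hm0).const_mul (D q.1 q.2.2)).const_mul (N₁ q.2.1 q.1)).mul_const
        (((2 * Real.pi) ^ n)⁻¹ * N₂ q.2.1 q.1 q.2.2)
    · have h1 := hbd q.1.1 q.1.2.2 (m, q.2) hm H (g : H →ₗ[ℂ] H) (locE c q.1.2.1 q.1.1)
        (fun x a => WB c.E w (N₁ q.1.2.1 q.1.1 * a) x) (hres _ K hK _ m g p hm0 hR)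
        (fun x y a b hx hy => by rw [mul_add]; exact WB_add hx hy)
        (fun x a ha hx => by
          have h2 : 0 ≤ N₁ q.1.2.1 q.1.1 * a := mul_nonneg (hN₁ _ _) ha
          refine hS n M X Γ I V H c s w m g p hn hm0 hw (by linarith) hR _ x h2 ?_
          refine WB_mono hw0 hx ?_
          nlinarith)
        (fun f a ha hf hfa => hN₁' _ _ f hf a ha hfa)
      rw [← ContinuousLinearMap.toLinearMap_pow] at h1
      simp only [zero_add] at h1
      have h3 : (-((2 * J : ℕ) : ℤ)) = -(2 * (J : ℤ)) := by push_cast; ring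
      rw [h3]
      exact h1
    · simp only [vv]
      rw [inner_smul_left, norm_mul, Complex.conj_ofReal, Complex.norm_real,
        Real.norm_of_nonneg (by positivity)]
      have h4 := hN₂' q.1.2.1 q.1.1 q.1.2.2 q.2 t x hx
      calc ((2 * Real.pi) ^ n)⁻¹ * _ ≤ ((2 * Real.pi) ^ n)⁻¹ * (t * N₂ q.1.2.1 q.1.1 q.1.2.2) := by
            gcongr
        _ = _ := by ring

end Vale.Agent.P223.H691
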