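import Vale.Agent.P223.H691.NucA
import Vale.Agent.P223.H566.Ops

/-! Block NUC. -/

namespace Vale.Agent.P223.H691

open scoped ContDiff InnerProductSpace Topology
open MeasureTheory Vale.Agent.P223.X
open Vale.Agent.P223.H566 (SpX Core Raw IsCore Cliff Ctx Emb Rsv dir dir_congr dir_smul SpecIntS
  SpecLocal mulR Fr WB nm hp SpecSup Gst Cut OpK SpecDecA SpecNuc Nuc)

theorem exists_cut' (n : ℕ) : ∃ χ : E n → ℝ, ContDiff ℝ ∞ χ ∧ (∀ y, 0 ≤ χ y) ∧ (∀ y, χ y ≤ 1) ∧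
    (∀ y, ‖y‖ ≤ 3 → χ y = 1) ∧ HasCompactSupport χ := by
  let f : ContDiffBump (0 : E n) := ⟨3, 4, by norm_num, by norm_num⟩
  refine ⟨f, f.contDiff, fun y => f.nonneg, fun y => f.le_one, fun y hy => ?_,
    f.hasCompactSupport⟩
  exact f.one_of_mem_closedBall (by simpa using hy)

/-- finite sums -/
theorem Nu.sum {H : Type} [NormedAddCommGroup H] [InnerProductSpace ℂ H] [CompleteSpace H]
    {ι : Type} [Fintype ι] {T : ι → H →L[ℂ] H} {b : ι → ℝ} (h : ∀ i, Nu (T i) (b i)) :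
    Nu (∑ i, T i) (∑ i, b i) := by
  have h1 := (Nu.hasSum h Summable.of_finite (S := ∑ i, T i) fun x => by
    rw [sum_apply]; exact hasSum_fintype _).1
  rwa [tsum_fintype] at h1

theorem specNuc (hL : SpecLocal) (hI : SpecIntS) (hDA : SpecDecA) : SpecNuc := by
  intro n M X Γ I V H _ _ _ _ _ _ _ _ _ _ _ _ _ _ _ _ c ι _ κ k hn hcut hk
  classical
  obtain ⟨χ, hχ⟩ := PartX.main n M X Γ I c.C
  obtain ⟨χ', hχ', hχ'0, hχ'le, hχ'2, hχ'3⟩ := exists_cut n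
  obtain ⟨χ₂, hχ₂, hχ₂0, hχ₂le, hχ₂3, hχ₂c⟩ := exists_cut' n
  choose F hF using fun i => decompT c.S hχ (hcut.sm i) (hcut.supp i)
  set K := Metric.closedBall (0 : E n) 3 with hKdef
  have hK : IsCompact K := isCompact_closedBall _ _
  have hKn : ∀ y : E n, y ∉ K → 3 < ‖y‖ := fun y hy => by
    rw [hKdef, mem_closedBall_zero_iff, not_le] at hy
    exact hy
  have hs' : ∀ y, y ∉ K → χ' y = 0 := fun y hy => hχ'3 y (hKn y hy).le
  have hs : ∀ j γ i y, y ∉ K → ck c.C χ (κ j) γ i y = 0 := fun j γ i y hy =>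
    ck_zero hχ γ i (by linarith [hKn y hy])
  have hcc : ∀ j γ i y, χ' y * ck c.C χ (κ j) γ i y = ck c.C χ (κ j) γ i y := fun j γ i y => by
    by_cases hy : ‖y‖ ≤ 2
    · rw [hχ'2 y hy, one_mul]
    · rw [ck_zero hχ γ i (not_le.1 hy).le, mul_zero]
  choose co hco hres using fun i => locRes c hL i
  set b := stdOrthonormalBasis ℂ V with hb
  have hL' : ∀ γ i, LocRep K (Vale.Agent.P223.H.dens (c.G i)) c.E.e
      (fun φ : Core c.S => (φ : Raw Γ I n V) γ i) (locE c γ i) := fun γ i => locRep c hI hn hK γ i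
  -- the extended family of cutoffs
  let κ₂ : ι ⊕ I → X → ℝ := Sum.elim κ fun i => c.C.ex i χ₂
  have hcut₂ : Cut c.C κ₂ := by
    refine ⟨?_, ?_, ?_, ?_⟩
    · rintro (i | i)
      · exact hcut.sm i
      · exact Ck_ex c.C hχ₂ hχ₂c
    · rintro (i | i)
      · exact hcut.supp i
      · exact Avg.hcs_ex c.C hχ₂c
    · rintro (i | i) x
      · exact hcut.nn i x
      · exact Avg.ex_nonneg c.C i hχ₂0 x
    · rintro (i | i) x
      · exact hcut.le i x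
      · change c.C.ex i χ₂ x ≤ 1
        unfold Cov.ex
        split_ifs
        · exact hχ₂le _
        · exact zero_le_one
  obtain ⟨k₂, w, A, m₀, hk₂, hk₂n, hm₀, hw0, hws, hdec⟩ :=
    hDA n M X Γ I V H c (ι ⊕ I) κ₂ hn hcut₂
  have hkk : ∀ l : Γ × ι, k l = k₂ (l.1, Sum.inl l.2) := by
    intro l
    refine c.E.ext_eq fun φ => ?_
    have hl : c.C.Ck ∞ (fun x => κ l.2 (l.1⁻¹ • x)) := Ck_smul c.C (hcut.sm l.2) l.1⁻¹
    rw [hk.k_e l hl]
    exact (hk₂.k_e (l.1, Sum.inl l.2) hl φ).symm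
  -- local sections are fixed by the new cutoffs
  have hfix : ∀ γ i, ∀ f ∈ CS K V, k₂ (γ, Sum.inr i) (locE c γ i f) = locE c γ i f := by
    intro γ i f hf
    have hl : c.C.Ck ∞ (fun x => κ₂ (Sum.inr i) (γ⁻¹ • x)) :=
      Ck_smul c.C (Ck_ex c.C hχ₂ hχ₂c) γ⁻¹
    rw [locE_eq c γ i (CS.mem566 hK hf), hk₂.k_e (γ, Sum.inr i) hl]
    congr 1
    refine Subtype.ext ?_
    funext γ' j y
    change ((c.C.ex i χ₂ (γ⁻¹ • γ' • c.C.ψ j y) : ℝ) : ℂ) • c.S.loc γ i f γ' j y =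
      c.S.loc γ i f γ' j y
    by_cases hx : ∃ z, f z ≠ 0 ∧ γ' • c.C.ψ j y = γ • c.C.ψ i z
    · obtain ⟨z, hz, hz2⟩ := hx
      rw [hz2, inv_smul_smul, ex_ψ, hχ₂3 z ?_]
      · simp
      · by_contra h3
        refine hz (hf.2 z fun hz3 => h3 ?_)
        rw [hKdef, mem_closedBall_zero_iff] at hz3
        exact hz3
    · rw [c.S.loc_zero fun z hz hz2 => hx ⟨z, hz, hz2⟩, smul_zero]
  -- constants
  choose D hD hnuc using fun (j : ι) (γ : Γ) (i : I) (q : {q : ℕ // n < 2 * q}) =>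
    nucP (C := Core c.S) (e := c.E.e) b hK (hL' 1 i).dens_smooth (hL' 1 i).dens_pos
      (ck_smooth hχ (hcut.sm j) γ i) hχ' (hs j γ i) hs' (hcc j γ i) (co i) q.2
  have total : ∀ (q : ℕ) (hq : n < 2 * q) (m : ℝ) (g p : H →L[ℂ] H), m₀ ≤ m → Rsv c.E m g p →
      ∀ (A₀ : H →L[ℂ] H) (Wt : Γ → I → ℝ), (∀ γ i, 0 ≤ Wt γ i) → (∀ γ i, ∀ r ≤ q, ∀ f a, 0 ≤ a →
        f ∈ CS K V → (∀ x, ‖f x‖ ≤ a) → ‖A₀ ((g ^ r) (locE c γ i f))‖ ≤ Wt γ i * a) →
      ∀ l' : Γ × ι, Nu (A₀ * g ^ q * k l') (∑ i, ∑ γ ∈ F l'.2,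
        D l'.2 γ i ⟨q, hq⟩ * Wt (l'.1 * γ) i * m ^ ((n : ℤ) - (2 * q : ℕ))) := by
    intro q hq m g p hm hR A₀ Wt hWt hA l'
    have hm1 : 1 ≤ m := hm₀.trans hm
    have ex : ∀ i γ, ∃ T : H →L[ℂ] H, Nu T (D l'.2 γ i ⟨q, hq⟩ * Wt (l'.1 * γ) i *
        m ^ ((n : ℤ) - (2 * q : ℕ))) ∧ ∀ φ : Core c.S, (A₀ * g ^ q)
        (locE c (l'.1 * γ) i fun y => (ck c.C χ (κ l'.2) γ i y : ℂ) •
          (φ : Raw Γ I n V) (l'.1 * γ) i y) = T (c.E.e φ) := by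
      intro i γ
      obtain ⟨T, h1, h2, h3⟩ := hnuc l'.2 γ i ⟨q, hq⟩ _ (locE c (l'.1 * γ) i) g A₀
        (Wt (l'.1 * γ) i) m hm1 (hL' (l'.1 * γ) i)
        (hres i K hK (l'.1 * γ) m g p (by linarith) hR) (hWt _ _) (hA _ _)
      refine ⟨∑ s, T s, (Nu.sum fun s => (h2 s).nu).mono h3, fun φ => ?_⟩
      rw [sum_apply]
      exact h1 φ
    choose T hT1 hT2 using ex
    have e1 : A₀ * g ^ q * k l' = ∑ i, ∑ γ ∈ F l'.2, T i γ := by
      refine c.E.ext_eq fun φ => ?_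
      have hl : c.C.Ck ∞ (fun x => κ l'.2 (l'.1⁻¹ • x)) := Ck_smul c.C (hcut.sm l'.2) l'.1⁻¹
      rw [mul_apply_eq_comp, hk.k_e l' hl, hF l'.2 l'.1 hl φ]
      simp only [map_sum, sum_apply]
      refine Finset.sum_congr rfl fun i _ => Finset.sum_congr rfl fun γ _ => ?_
      rw [← hT2, locE_eq c (l'.1 * γ) i
        (mulCS_mem c.S φ (l'.1 * γ) i (ck_smooth hχ (hcut.sm l'.2) γ i) (ck_hcs hχ γ i))]
    rw [e1]
    refine Nu.sum fun i => ?_
    rw [← Finset.sum_coe_sort (F l'.2), ← Finset.sum_coe_sort (F l'.2)]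
    exact Nu.sum fun γ => hT1 i γ
  -- constants
  have hDg : ∀ j γ i q, 0 ≤ D j γ i q := fun j γ i q => hD j γ i q
  set SA : ℕ → ℝ := fun q => ∑ r ∈ Finset.range (q + 1), |A r| with hSA
  have hSA0 : ∀ q, 0 ≤ SA q := fun q => Finset.sum_nonneg fun r _ => abs_nonneg _
  have hSAr : ∀ q, ∀ r ≤ q, |A r| ≤ SA q := fun q r hr =>
    Finset.single_le_sum (f := fun r => |A r|) (fun r _ => abs_nonneg _)
      (Finset.mem_range.2 (Nat.lt_succ_of_le hr))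
  set sq : I → ℝ := fun i => Real.sqrt (∫ y in K, Vale.Agent.P223.H.dens (c.G i) y) with hsq
  have hsq0 : ∀ i, 0 ≤ sq i := fun i => Real.sqrt_nonneg _
  have hlocn : ∀ γ i, ∀ f a, 0 ≤ a → f ∈ CS K V → (∀ x, ‖f x‖ ≤ a) →
      ‖locE c γ i f‖ ≤ sq i * a := fun γ i f a ha hf hfa =>
    (hL' γ i).norm_le_sqrt hf ha hfa
  let DD : ℕ → ℝ := fun q => if h : n < 2 * q then
    ∑ j, ∑ i, ∑ γ ∈ F j, D j γ i ⟨q, h⟩ * SA q * sq i else 0
  let w' : Γ → ℝ := fun g => ∑ j, ∑ i : I, ∑ γ ∈ F j, w (g * γ)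
  have hw' : ∀ g, ∀ j, ∀ i : I, ∀ γ ∈ F j, w (g * γ) ≤ w' g := by
    intro g j i γ hγ
    have h1 : w (g * γ) ≤ ∑ γ ∈ F j, w (g * γ) :=
      Finset.single_le_sum (f := fun γ => w (g * γ)) (fun _ _ => hw0 _) hγ
    have h2 : ∑ γ ∈ F j, w (g * γ) ≤ ∑ _i : I, ∑ γ ∈ F j, w (g * γ) :=
      Finset.single_le_sum (f := fun _ : I => ∑ γ ∈ F j, w (g * γ))
        (fun _ _ => Finset.sum_nonneg fun _ _ => hw0 _) (Finset.mem_univ i)
    have h3 : ∑ _i : I, ∑ γ ∈ F j, w (g * γ) ≤ w' g :=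
      Finset.single_le_sum (f := fun j => ∑ _i : I, ∑ γ ∈ F j, w (g * γ))
        (fun _ _ => Finset.sum_nonneg fun _ _ => Finset.sum_nonneg fun _ _ => hw0 _)
        (Finset.mem_univ j)
    exact h1.trans (h2.trans h3)
  have hw'0 : ∀ g, 0 ≤ w' g := fun g =>
    Finset.sum_nonneg fun _ _ => Finset.sum_nonneg fun _ _ => Finset.sum_nonneg fun _ _ => hw0 _
  have hDDe : ∀ q (hq : n < 2 * q), DD q = ∑ j, ∑ i, ∑ γ ∈ F j, D j γ i ⟨q, hq⟩ * SA q * sq i :=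
    fun q hq => dif_pos hq
  have final : ∀ (q : ℕ) (hq : n < 2 * q) (m t : ℝ), 0 < m → 0 ≤ t → ∀ (l l' : Γ × ι),
      (∑ i, ∑ γ ∈ F l'.2, D l'.2 γ i ⟨q, hq⟩ *
        (SA q * t * w (l.1⁻¹ * (l'.1 * γ)) * sq i) * m ^ ((n : ℤ) - (2 * q : ℕ))) ≤
      DD q * (t * m ^ ((n : ℤ) - (2 * q : ℕ))) * w' (l.1⁻¹ * l'.1) := by
    intro q hq m t hm ht l l'
    have hz : (0 : ℝ) < m ^ ((n : ℤ) - (2 * q : ℕ)) := zpow_pos hm _
    have h1 : ∀ i, ∀ γ ∈ F l'.2, D l'.2 γ i ⟨q, hq⟩ *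
        (SA q * t * w (l.1⁻¹ * (l'.1 * γ)) * sq i) * m ^ ((n : ℤ) - (2 * q : ℕ)) ≤
        (D l'.2 γ i ⟨q, hq⟩ * SA q * sq i) *
          ((t * m ^ ((n : ℤ) - (2 * q : ℕ))) * w' (l.1⁻¹ * l'.1)) := by
      intro i γ hγ
      have h2 := hw' (l.1⁻¹ * l'.1) l'.2 i γ hγ
      rw [mul_assoc l.1⁻¹] at h2
      have h3 := hDg l'.2 γ i ⟨q, hq⟩
      have h4 := hSA0 q
      have h5 := hsq0 i
      calc _ = (D l'.2 γ i ⟨q, hq⟩ * SA q * sq i) * ((t * m ^ ((n : ℤ) - (2 * q : ℕ))) *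
            w (l.1⁻¹ * (l'.1 * γ))) := by ring
        _ ≤ _ := by gcongr
    refine (Finset.sum_le_sum fun i _ => Finset.sum_le_sum fun γ hγ => h1 i γ hγ).trans ?_
    have h6 : ∀ Y : ℝ, ∑ i, ∑ γ ∈ F l'.2, D l'.2 γ i ⟨q, hq⟩ * SA q * sq i * Y =
        (∑ i, ∑ γ ∈ F l'.2, D l'.2 γ i ⟨q, hq⟩ * SA q * sq i) * Y := fun Y => by
      rw [Finset.sum_mul]
      exact Finset.sum_congr rfl fun i _ => (Finset.sum_mul _ _ _).symm
    rw [h6, mul_assoc (DD q), hDDe q hq]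
    refine mul_le_mul_of_nonneg_right ?_ (mul_nonneg (by positivity) (hw'0 _))
    refine Finset.single_le_sum (f := fun j => ∑ i, ∑ γ ∈ F j, D j γ i ⟨q, hq⟩ * SA q * sq i)
      (fun j _ => Finset.sum_nonneg fun i _ => Finset.sum_nonneg fun γ _ => ?_)
      (Finset.mem_univ l'.2)
    exact mul_nonneg (mul_nonneg (hDg _ _ _ _) (hSA0 _)) (hsq0 _)
  refine ⟨w', DD, m₀, hm₀, hw'0, ?_, fun m hm g p hR q hq l l' => ⟨?_, ?_⟩⟩
  · refine summable_sum fun j _ => summable_sum fun i _ => summable_sum fun γ _ => ?_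
    exact (Equiv.mulRight γ).summable_iff.2 hws
  · have hm1 : 1 ≤ m := hm₀.trans hm
    have hm0 : 0 < m := by linarith
    have h1 := total q hq m g p hm hR (k l)
      (fun γ i => SA q * 1 * w (l.1⁻¹ * γ) * sq i)
      (fun γ i => mul_nonneg (mul_nonneg (mul_nonneg (hSA0 _) zero_le_one) (hw0 _)) (hsq0 _))
      (fun γ i r hr f a ha hf hfa => by
        have h2 := (hdec m hm g p hR r (l.1, Sum.inl l.2) (γ, Sum.inr i)).1
        have h3 : k l ((g ^ r) (locE c γ i f)) =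
            (k₂ (l.1, Sum.inl l.2) * g ^ r * k₂ (γ, Sum.inr i)) (locE c γ i f) := by
          rw [hkk l, mul_apply_eq_comp, mul_apply_eq_comp, hfix γ i f hf]
        rw [h3]
        refine (ContinuousLinearMap.le_opNorm _ _).trans ?_
        have h4 : m ^ (-(2 * r : ℝ)) ≤ 1 := by
          refine Real.rpow_le_one_of_one_le_of_nonpos hm1 ?_
          have : (0 : ℝ) ≤ r := Nat.cast_nonneg r
          linarith
        have h5 : 0 ≤ m ^ (-(2 * r : ℝ)) := by positivity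
        have h6 := hw0 (l.1⁻¹ * γ)
        have h7 : A r * m ^ (-(2 * r : ℝ)) * w (l.1⁻¹ * γ) ≤ SA q * 1 * w (l.1⁻¹ * γ) := by
          refine mul_le_mul_of_nonneg_right ?_ h6
          calc A r * m ^ (-(2 * r : ℝ)) ≤ |A r| * m ^ (-(2 * r : ℝ)) := by
                gcongr; exact le_abs_self _
            _ ≤ SA q * 1 := mul_le_mul (hSAr q r hr) h4 h5 (hSA0 q)
        calc _ ≤ (SA q * 1 * w (l.1⁻¹ * γ)) * (sq i * a) :=
              mul_le_mul (h2.trans h7) (hlocn γ i f a ha hf hfa) (norm_nonneg _)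
                (mul_nonneg (mul_nonneg (hSA0 q) zero_le_one) h6)
          _ = _ := by ring) l'
    refine Nu.nuc (h1.mono ((final q hq m 1 hm0 zero_le_one l l').trans (le_of_eq ?_)))
    rw [one_mul, ← Real.rpow_intCast]
    push_cast
    rfl
  · have hm1 : 1 ≤ m := hm₀.trans hm
    have hm0 : 0 < m := by linarith
    have h1 := total q hq m g p hm hR (k l * p)
      (fun γ i => SA q * m⁻¹ * w (l.1⁻¹ * γ) * sq i)
      (fun γ i => mul_nonneg (mul_nonneg (mul_nonneg (hSA0 _) (by positivity)) (hw0 _)) (hsq0 _))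
      (fun γ i r hr f a ha hf hfa => by
        have h2 := (hdec m hm g p hR r (l.1, Sum.inl l.2) (γ, Sum.inr i)).2
        have h3 : (k l * p) ((g ^ r) (locE c γ i f)) =
            (k₂ (l.1, Sum.inl l.2) * (p * g ^ r) * k₂ (γ, Sum.inr i)) (locE c γ i f) := by
          rw [hkk l, mul_apply_eq_comp, mul_apply_eq_comp, mul_apply_eq_comp, mul_apply_eq_comp,
            hfix γ i f hf]
        rw [h3]
        refine (ContinuousLinearMap.le_opNorm _ _).trans ?_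
        have h4 : m ^ (-(2 * r + 1 : ℝ)) ≤ m⁻¹ := by
          rw [← Real.rpow_neg_one]
          refine Real.rpow_le_rpow_of_exponent_le hm1 ?_
          have : (0 : ℝ) ≤ r := Nat.cast_nonneg r
          linarith
        have h5 : 0 ≤ m ^ (-(2 * r + 1 : ℝ)) := by positivity
        have h6 := hw0 (l.1⁻¹ * γ)
        have h7 : A r * m ^ (-(2 * r + 1 : ℝ)) * w (l.1⁻¹ * γ) ≤ SA q * m⁻¹ * w (l.1⁻¹ * γ) := by
          refine mul_le_mul_of_nonneg_right ?_ h6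
          calc A r * m ^ (-(2 * r + 1 : ℝ)) ≤ |A r| * m ^ (-(2 * r + 1 : ℝ)) := by
                gcongr; exact le_abs_self _
            _ ≤ SA q * m⁻¹ := mul_le_mul (hSAr q r hr) h4 h5 (hSA0 q)
        calc _ ≤ (SA q * m⁻¹ * w (l.1⁻¹ * γ)) * (sq i * a) :=
              mul_le_mul (h2.trans h7) (hlocn γ i f a ha hf hfa) (norm_nonneg _)
                (mul_nonneg (mul_nonneg (hSA0 q) (by positivity)) h6)
          _ = _ := by ring) l'
    rw [← mul_assoc (k l)]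
    refine Nu.nuc (h1.mono ((final q hq m m⁻¹ hm0 (by positivity) l l').trans (le_of_eq ?_)))
    have h8 : m⁻¹ * m ^ ((n : ℤ) - (2 * q : ℕ)) = m ^ ((n : ℝ) - 2 * q - 1) := by
      rw [Real.rpow_sub_one hm0.ne', ← Real.rpow_intCast]
      push_cast
      rw [div_eq_mul_inv, mul_comm]
    rw [h8]

end Vale.Agent.P223.H691
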