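import Vale.Agent.P223.H691.NucP
import Vale.Agent.P223.H691.SpecTC

/-! Local sections on the covering as elements of `H`. -/

namespace Vale.Agent.P223.H691

open scoped ContDiff InnerProductSpace Topology
open MeasureTheory Vale.Agent.P223.X
open Vale.Agent.P223.H566 (SpX Core Raw IsCore Cliff Ctx Emb Rsv dir dir_congr dir_smul SpecIntS
  SpecLocal mulR)

section
variable {n : ℕ} {M X Γ I : Type} [TopologicalSpace M] [TopologicalSpace X] [Group Γ]
    [MulAction Γ X] {V : Type} [NormedAddCommGroup V] [InnerProductSpace ℂ V]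
    {C : Cov n M X Γ I} {G : I → E n → Matrix (Fin n) (Fin n) ℝ} {K : Cliff n V}
    (S : SpX C G K)

/-- a section vanishing outside of a chart is local -/
theorem loc_of_vanish {φ : Raw Γ I n V} (hφ : IsCore S φ) (γ₀ : Γ) (i₀ : I)
    (hv : ∀ γ j y, γ • C.ψ j y ∉ Set.range (fun z => γ₀ • C.ψ i₀ z) → φ γ j y = 0) :
    φ = S.loc γ₀ i₀ (φ γ₀ i₀) := by
  funext γ j y
  by_cases h : γ • C.ψ j y ∈ Set.range (fun z => γ₀ • C.ψ i₀ z)
  · obtain ⟨z, hz⟩ := h
    rw [S.loc_of hz.symm]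
    exact hφ.compat γ₀ γ i₀ j z y hz
  · rw [hv γ j y h]
    unfold SpX.loc
    rw [if_neg h]

theorem dir_zero_of {G : E n → Matrix (Fin n) (Fin n) ℝ} {β : E n → Matrix (Fin n) (Fin n) ℝ}
    {φ : E n → V} {y : E n} (h : φ =ᶠ[𝓝 y] fun _ => 0) : dir K G β φ y = 0 := by
  rw [dir_congr K h]
  have h5 := dir_smul (G := G) (β := β) (φ := fun _ => (0 : V)) (y := y) K
    (differentiableAt_const _) (0 : ℂ)
  simpa using h5

theorem hcs_dir {G : E n → Matrix (Fin n) (Fin n) ℝ} {β : E n → Matrix (Fin n) (Fin n) ℝ}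
    {φ : E n → V} (h : HasCompactSupport φ) : HasCompactSupport (dir K G β φ) := by
  refine HasCompactSupport.intro h.isCompact fun x hx => ?_
  refine dir_zero_of ?_
  exact notMem_tsupport_iff_eventuallyEq.1 hx

/-- the Dirac operator as an operator on compactly supported functions in a chart -/
noncomputable def dirCS (i : I) (b : H566.CS n V) : H566.CS n V :=
  ⟨dir K (G i) (S.β i) b, H566.contDiff_dir K (S.met.smooth i) (S.met.pos i) (S.fr i).smooth b.2.1,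
    hcs_dir b.2.2⟩

variable [T2Space X]

theorem DC_lC (γ : Γ) (i : I) (b : H566.CS n V) : S.DC (S.lC γ i b) = S.lC γ i (dirCS S i b) := by
  have hcore : IsCore S (S.D (S.loc γ i b)) := (S.isCore_loc γ i b.2.1 b.2.2).D
  have h1 := loc_of_vanish S hcore γ i ?_
  · refine Subtype.ext ?_
    change S.D (S.loc γ i b) = S.loc γ i (dir K (G i) (S.β i) b)
    rw [h1]
    congr 1
    funext y
    change dir K (G i) (S.β i) (S.loc γ i b γ i) y = _
    congr 1
    funext z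
    exact S.loc_self γ i z
  · intro γ' j y hy
    have hK : IsCompact ((fun z => γ • C.ψ i z) '' tsupport (b : E n → V)) :=
      b.2.2.isCompact.image (Bas3.chart_emb C γ i).continuous
    have h3 : ∀ γ' i' y, γ' • C.ψ i' y ∉ (fun z => γ • C.ψ i z) '' tsupport (b : E n → V) →
        S.loc γ i b γ' i' y = 0 := fun γ' i' y hy =>
      S.loc_zero fun z hz h => hy ⟨z, subset_tsupport _ hz, h.symm⟩
    have hn : γ' • C.ψ j y ∉ (fun z => γ • C.ψ i z) '' tsupport (b : E n → V) := by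
      rintro ⟨z, _, hz⟩
      exact hy ⟨z, hz⟩
    exact dir_zero_of ((S.isCore_loc γ i b.2.1 b.2.2).ev hK h3 hn)

omit [T2Space X] in
theorem mulCS_mem (φ : Core S) (γ : Γ) (i : I) {χ : E n → ℝ} (hχ : ContDiff ℝ ∞ χ)
    (hc : HasCompactSupport χ) :
    (fun y => (χ y : ℂ) • (φ : Raw Γ I n V) γ i y) ∈ H566.CS n V :=
  ⟨(Complex.ofRealCLM.contDiff.comp hχ).smul (φ.2.smooth γ i), by
    refine HasCompactSupport.intro hc fun x hx => ?_
    simp [image_eq_zero_of_notMem_tsupport hx]⟩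

theorem mC_lC (γ : Γ) (i : I) {f : X → ℝ} (hf : C.Ck ∞ f) {χ : E n → ℝ} (hχ : ContDiff ℝ ∞ χ)
    (hc : HasCompactSupport χ) (h1 : ∀ y, f (γ • C.ψ i y) = χ y)
    (hv : ∀ x, x ∉ Set.range (fun z => γ • C.ψ i z) → f x = 0) (φ : Core S) :
    S.mC f hf φ = S.lC γ i ⟨_, mulCS_mem S φ γ i hχ hc⟩ := by
  refine Subtype.ext ?_
  have h2 := loc_of_vanish S (φ.2.mul hf) γ i fun γ' j y hy => by
    unfold mulR
    rw [hv _ hy]; simp
  refine h2.trans ?_
  change S.loc γ i (mulR C f φ γ i) = S.loc γ i _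
  congr 1
  funext y
  unfold mulR
  rw [h1]

end

section
variable {n : ℕ} {M X Γ I V H : Type} [TopologicalSpace M] [TopologicalSpace X] [Group Γ]
  [MulAction Γ X] [T2Space X]
  [MeasurableSpace X] [NormedAddCommGroup V] [InnerProductSpace ℂ V]
  [NormedAddCommGroup H] [InnerProductSpace ℂ H]
  (c : Ctx n M X Γ I V H)

open Classical in
/-- local sections as elements of `H` -/
noncomputable def locE (γ : Γ) (i : I) (f : E n → V) : H :=
  if h : f ∈ H566.CS n V then c.E.e (c.S.lC γ i ⟨f, h⟩) else 0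

theorem locE_eq (γ : Γ) (i : I) {f : E n → V} (h : f ∈ H566.CS n V) :
    locE c γ i f = c.E.e (c.S.lC γ i ⟨f, h⟩) := dif_pos h

theorem locE_coe (γ : Γ) (i : I) (b : H566.CS n V) :
    locE c γ i b = c.E.e (c.S.lC γ i b) := locE_eq c γ i b.2

theorem CS.mem566 {K : Set (E n)} (hK : IsCompact K) {f : E n → V} (hf : f ∈ CS K V) :
    f ∈ H566.CS n V := ⟨hf.1, CS.hcs hK hf⟩

theorem locRep [Fintype I] [ConnectedSpace X] [T2Space M] [BorelSpace X]
    [FiniteDimensional ℂ V] (hI : SpecIntS) (hn : 1 ≤ n) {K : Set (E n)} (hK : IsCompact K)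
    (γ : Γ) (i : I) : LocRep K (Vale.Agent.P223.H.dens (c.G i)) c.E.e
      (fun φ : Core c.S => (φ : Raw Γ I n V) γ i) (locE c γ i) := by
  obtain ⟨h1, h2, h3, h4, h5, h6⟩ := hI n M X Γ I V c.C c.G c.K c.S c.μ hn c.vol
  have hip : ∀ f ∈ CS K V, ∀ φ : Core c.S, ⟪locE c γ i f, c.E.e φ⟫_ℂ =
      ∫ y, (Vale.Agent.P223.H.dens (c.G i) y : ℂ) * ⟪f y, (φ : Raw Γ I n V) γ i y⟫_ℂ := by
    intro f hf φ
    rw [locE_eq c γ i (CS.mem566 hK hf), c.E.ip]
    exact (h4 γ i ⟨f, CS.mem566 hK hf⟩ φ).2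
  refine ⟨hK, c.E.dense, Vale.Agent.P223.H.IBP.contDiff_dens (EqX.metT1 (c.S.met.smooth i) (c.S.met.pos i)),
    Int.dens_pos c.S.met i, fun φ => φ.2.smooth γ i, hip, fun f hf => ?_⟩
  have h7 := hip f hf (c.S.lC γ i ⟨f, CS.mem566 hK hf⟩)
  rw [← locE_eq, inner_self_eq_norm_sq_to_K] at h7
  have h8 : ∀ y, (c.S.lC γ i ⟨f, CS.mem566 hK hf⟩ : Raw Γ I n V) γ i y = f y := fun y =>
    c.S.loc_self γ i y
  simp only [h8, inner_self_eq_norm_sq_to_K] at h7
  have h9 : ((‖locE c γ i f‖ ^ 2 : ℝ) : ℂ) =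
      ((∫ y, Vale.Agent.P223.H.dens (c.G i) y * ‖f y‖ ^ 2 : ℝ) : ℂ) := by
    rw [← integral_complex_ofReal]
    push_cast
    exact h7
  exact_mod_cast h9

end

end Vale.Agent.P223.H691
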