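import Vale.Agent.P223.H691.CtxL

/-! The resolvent on local sections. -/

namespace Vale.Agent.P223.H691

open scoped ContDiff InnerProductSpace Topology
open MeasureTheory Vale.Agent.P223.X
open Vale.Agent.P223.H566 (SpX Core Raw IsCore Cliff Ctx Emb Rsv dir dir_congr dir_smul SpecIntS
  SpecLocal mulR Fr)

section
variable {n : ℕ} {V : Type} [NormedAddCommGroup V] [InnerProductSpace ℂ V]
  [FiniteDimensional ℂ V]

/-- the coefficients of `-D²` in a chart -/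
theorem exists_coef (hL : SpecLocal) (K : Cliff n V) {G β : E n → Matrix (Fin n) (Fin n) ℝ}
    (h1 : ∀ i j, ContDiff ℝ ∞ (fun x => G x i j)) (h2 : ∀ x, (G x).PosDef) (h3 : Fr G β) :
    ∃ co : Coef n V, (co.g = fun y => (G y)⁻¹) ∧ ∀ φ : E n → V, ContDiff ℝ ∞ φ → ∀ y,
      co.L φ y = -dir K G β (dir K G β φ) y := by
  obtain ⟨_, _, _, _, _, _, B, A, hB, hA, h⟩ := hL n V K G β h1 h2 h3
  refine ⟨⟨fun y => (G y)⁻¹, B, A, fun j k => Bas2.sm_inv h1 h2 j k, fun x => (h2 x).inv, hB, hA⟩,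
    rfl, fun φ hφ y => ?_⟩
  rw [h φ hφ y]
  simp only [Coef.L, pv, Complex.coe_smul]
  rfl

end

section
variable {n : ℕ} {M X Γ I V H : Type} [TopologicalSpace M] [TopologicalSpace X] [Group Γ]
  [MulAction Γ X] [T2Space X]
  [MeasurableSpace X] [NormedAddCommGroup V] [InnerProductSpace ℂ V]
  [NormedAddCommGroup H] [InnerProductSpace ℂ H]

theorem Rsv.res {C : Cov n M X Γ I} {G : I → E n → Matrix (Fin n) (Fin n) ℝ} {K : Cliff n V}
    {S : SpX C G K} {μ : Measure X} {E : Emb S μ H} {m : ℝ} {g p : H →L[ℂ] H} (hm : 0 < m)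
    (h : Rsv E m g p) (φ : Core S) :
    g (E.e (((m ^ 2 : ℝ) : ℂ) • φ - S.DC (S.DC φ))) = E.e φ := by
  obtain ⟨sp, sm, h1, h2, _, _, h5, _⟩ := h.ex
  have e1 := h1 ((m : ℂ) • φ - S.DC φ)
  have e2 := h2 ((m : ℂ) • φ + S.DC φ)
  have e3 : (m : ℂ) • ((m : ℂ) • φ - S.DC φ) + S.DC ((m : ℂ) • φ - S.DC φ) =
      ((m ^ 2 : ℝ) : ℂ) • φ - S.DC (S.DC φ) := by
    rw [map_sub, map_smul, smul_sub, smul_smul]
    push_cast
    rw [pow_two]
    abel
  have e4 : (m : ℂ) • ((m : ℂ) • φ + S.DC φ) - S.DC ((m : ℂ) • φ + S.DC φ) =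
      ((m ^ 2 : ℝ) : ℂ) • φ - S.DC (S.DC φ) := by
    rw [map_add, map_smul, smul_add, smul_smul]
    push_cast
    rw [pow_two]
    abel
  rw [e3] at e1
  rw [e4] at e2
  rw [h5, smul_apply, add_apply, e1, e2, ← map_add]
  have e5 : (m : ℂ) • φ - S.DC φ + ((m : ℂ) • φ + S.DC φ) = ((2 * m : ℝ) : ℂ) • φ := by
    push_cast
    rw [two_mul, add_smul]
    abel
  rw [e5, map_smul, smul_smul, ← Complex.ofReal_mul]
  have e6 : 1 / (2 * m) * (2 * m) = 1 := by field_simp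
  rw [e6, Complex.ofReal_one, one_smul]

variable (c : Ctx n M X Γ I V H)

theorem locRes [FiniteDimensional ℂ V] (hL : SpecLocal) (i : I) :
    ∃ co : Coef n V, (co.g = fun y => (c.G i y)⁻¹) ∧ ∀ (K : Set (E n)), IsCompact K →
      ∀ (γ : Γ) (m : ℝ) (g p : H →L[ℂ] H), 0 < m → Rsv c.E m g p →
      co.Res K m (g : H →ₗ[ℂ] H) (locE c γ i) := by
  obtain ⟨co, h1, h2⟩ := exists_coef hL c.K (c.S.met.smooth i) (c.S.met.pos i) (c.S.fr i)
  refine ⟨co, h1, fun K hK γ m g p hm hR => ⟨fun f f' hf hf' => ?_, fun f hf => ?_⟩⟩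
  · rw [locE_eq c γ i (CS.mem566 hK hf), locE_eq c γ i (CS.mem566 hK hf'),
      locE_eq c γ i (CS.mem566 hK ((CS K V).add_mem hf hf')), ← map_add, ← map_add]
    rfl
  · set b : H566.CS n V := ⟨f, CS.mem566 hK hf⟩ with hb
    have e1 : (fun x => (m ^ 2) • f x + co.L f x) =
        (((((m ^ 2 : ℝ) : ℂ) • b - dirCS c.S i (dirCS c.S i b)) : H566.CS n V) : E n → V) := by
      funext x
      rw [h2 f hf.1 x, ← Complex.coe_smul]
      exact (sub_eq_add_neg _ _).symm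
    rw [e1, locE_coe, locE_eq c γ i (CS.mem566 hK hf), map_sub, map_smul, ← DC_lC, ← DC_lC]
    exact Rsv.res hm hR _

end

end Vale.Agent.P223.H691
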