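import Vale.Agent.P223.H691.Iter
import Mathlib.Analysis.Distribution.SchwartzSpace.Fourier

/-! Fourier inversion on `ℝ^n`. -/

namespace Vale.Agent.P223.H691

open scoped ContDiff FourierTransform InnerProductSpace
open Complex MeasureTheory

section
variable {n : ℕ} {V : Type} [NormedAddCommGroup V] [NormedSpace ℂ V]

/-- Fourier transform -/
noncomputable def ft (f : E n → V) (k : E n) : V := ∫ y, ew (-k) y • f y

/-- the function on Euclidean space -/
def eu (f : E n → V) (z : EuclideanSpace ℝ (Fin n)) : V := f (WithLp.ofLp z)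

theorem contDiff_eu {f : E n → V} (hf : ContDiff ℝ ∞ f) : ContDiff ℝ ∞ (eu f) :=
  hf.comp (PiLp.continuousLinearEquiv 2 ℝ (fun _ : Fin n => ℝ)).contDiff

omit [NormedSpace ℂ V] in
theorem hasCompactSupport_eu {f : E n → V} (hf : HasCompactSupport f) :
    HasCompactSupport (eu f) :=
  hf.comp_homeomorph (PiLp.homeomorph 2 (fun _ : Fin n => ℝ))

theorem chi_eq (w : EuclideanSpace ℝ (Fin n)) (y : E n) :
    (Real.fourierChar (inner ℝ w (WithLp.toLp 2 y)) : ℂ) =
      ew ((2 * Real.pi) • WithLp.ofLp w) y := by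
  rw [Real.fourierChar_apply, ew]
  congr 1
  simp only [EuclideanSpace.inner_eq_star_dotProduct, dt, dotProduct, Pi.smul_apply,
    smul_eq_mul, star_trivial]
  push_cast
  rw [mul_comm, Finset.mul_sum]
  congr 1
  refine Finset.sum_congr rfl fun i _ => ?_
  ring

theorem ew_neg (k y : E n) : ew (-k) y = (ew k y)⁻¹ := by
  unfold ew dt
  rw [← Complex.exp_neg]
  congr 1
  simp

theorem fourier_eu (f : E n → V) (w : EuclideanSpace ℝ (Fin n)) :
    𝓕 (eu f) w = ft f ((2 * Real.pi) • WithLp.ofLp w) := by
  rw [Real.fourier_eq, ft, ← (PiLp.volume_preserving_toLp (Fin n)).integral_comp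
    (MeasurableEquiv.toLp 2 (Fin n → ℝ)).measurableEmbedding]
  refine integral_congr_ae (Filter.Eventually.of_forall fun y => ?_)
  simp only [eu]
  rw [Circle.smul_def, ew_neg, ← chi_eq, real_inner_comm, AddChar.map_neg_eq_inv]
  simp

theorem ft_integrable {f : E n → V} (hf : ContDiff ℝ ∞ f) (hc : HasCompactSupport f) :
    Integrable (ft f) := by
  have h1 : Integrable (𝓕 (eu f)) := by
    have := (𝓕 ((hasCompactSupport_eu hc).toSchwartzMap (contDiff_eu hf))).integrable
      (μ := volume)
    rwa [SchwartzMap.fourier_coe] at this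
  have h2 : Integrable fun y : E n => ft f ((2 * Real.pi) • y) := by
    have h3 := (PiLp.volume_preserving_toLp (Fin n)).integrable_comp h1.aestronglyMeasurable |>.2 h1
    refine h3.congr (Filter.Eventually.of_forall fun y => ?_)
    simp only [Function.comp_apply]
    rw [fourier_eu]
  exact (integrable_comp_smul_iff volume (ft f) (by positivity)).1 h2

variable [CompleteSpace V]

/-- Fourier inversion -/
theorem ft_inv {f : E n → V} (hf : ContDiff ℝ ∞ f) (hc : HasCompactSupport f) (x : E n) :
    f x = (((2 * Real.pi) ^ n)⁻¹ : ℝ) • ∫ k, ew k x • ft f k := by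
  have h1 : Integrable (𝓕 (eu f)) := by
    have := (𝓕 ((hasCompactSupport_eu hc).toSchwartzMap (contDiff_eu hf))).integrable
      (μ := volume)
    rwa [SchwartzMap.fourier_coe] at this
  have h0 : Integrable (eu f) :=
    (contDiff_eu hf).continuous.integrable_of_hasCompactSupport (hasCompactSupport_eu hc)
  have h2 := h0.fourierInv_fourier_eq h1 (contDiff_eu hf).continuous.continuousAt
    (v := WithLp.toLp 2 x)
  have h3 : eu f (WithLp.toLp 2 x) = f x := rfl
  rw [h3, Real.fourierInv_eq] at h2
  rw [← h2, ← (PiLp.volume_preserving_toLp (Fin n)).integral_comp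
    (MeasurableEquiv.toLp 2 (Fin n → ℝ)).measurableEmbedding]
  have h4 := Measure.integral_comp_smul (μ := (volume : Measure (E n)))
    (fun k => ew k x • ft f k) (2 * Real.pi)
  have h5 : |((2 * Real.pi) ^ Module.finrank ℝ (E n))⁻¹| = ((2 * Real.pi) ^ n)⁻¹ := by
    rw [abs_of_pos (by positivity)]
    simp
  rw [h5] at h4
  rw [← h4]
  refine integral_congr_ae (Filter.Eventually.of_forall fun y => ?_)
  simp only
  rw [fourier_eu, Circle.smul_def, real_inner_comm, real_inner_comm, chi_eq]

end

end Vale.Agent.P223.H691
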