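import Vale.Agent.P223.H691.ITDef
import Vale.Agent.P223.H691.UYW
import Vale.Agent.P223.H441.WCov
import Vale.Agent.P223.H850.CfC

/-! The operator `-Δ + κ`: from manifolds to coverings `Cov`. -/

namespace Vale.Agent.P223.H691

open scoped ContDiff Topology ENNReal Matrix
open MeasureTheory Vale.Agent.P223.H Vale.Agent.P223.X
open BoxB MetU MiniU

section
variable {n : ℕ} {M X Γ I : Type} [TopologicalSpace M] [TopologicalSpace X] [Group Γ]
    [MulAction Γ X]

/-- `|v|² ≤ ρ ∫ |(-Δ + κ)^N v|²` for invariant functions on `X` (`v = u N`, and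
`u (N - j) = (-Δ + κ)^j v`). -/
def DoSX [MeasurableSpace M] (C : Cov n M X Γ I) (G : I → E n → Matrix (Fin n) (Fin n) ℝ)
    (ν : Measure M) (κ : ℝ) (N : ℕ) (ρ : M → ℝ) : Prop :=
  ∀ u : ℕ → X → ℝ, (∀ j ≤ N, C.Ck 2 (u j)) → (∀ j ≤ N, ∀ (γ : Γ) x, u j (γ • x) = u j x) →
    (∀ j < N, ∀ x, κ * u (j + 1) x - lapX C G (u (j + 1)) x = u j x) →
    ∀ x, u N x ^ 2 ≤ ρ (C.π x) * ∫ m, C.dn (u 0) m ^ 2 ∂ν

end

section loc
variable {n : ℕ} {G G' : E n → Matrix (Fin n) (Fin n) ℝ} {φ : E n → E n} {U U' : Set (E n)}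
  {x : E n}

theorem hess_comp2 (hG : IsMetricOn Set.univ G) (hG' : IsMetricOn U' G') (hU' : IsOpen U')
    (hc : Chg U Set.univ U' φ G G') (hx : x ∈ U) {f : E n → ℝ} (hf : ContDiffOn ℝ 2 f U') :
    Bridge.hess G (fun y => f (φ y)) x =
      (jac φ x)ᵀ * Bridge.hess G' f (φ x) * jac φ x := by
  have hfd : ∀ z ∈ U', DifferentiableAt ℝ f z := fun z hz =>
    (hf.contDiffAt (hU'.mem_nhds hz)).differentiableAt (by simp)
  have hpd : ∀ e, ∀ z ∈ U', DifferentiableAt ℝ (fun y => H.pd e f y) z := fun e z hz => by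
    have h1 : ContDiffAt ℝ 1 (fun y => fderiv ℝ f y) z :=
      (hf.contDiffAt (hU'.mem_nhds hz)).fderiv_right (m := 1) (by norm_num)
    exact (h1.clm_apply contDiffAt_const).differentiableAt (by simp)
  have hφ := hc.smooth x hx
  have hxU := hc.maps x hx
  have hjd : ∀ e j, DifferentiableAt ℝ (fun y => jac φ y e j) x := fun e j =>
    (sm_jac hφ e j).diff
  have hcd : ∀ e, DifferentiableAt ℝ (fun y => H.pd e f (φ y)) x := fun e =>
    (hpd e _ hxU).comp x (hφ.differentiableAt (by simp))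
  ext i j
  have r1 : ((jac φ x)ᵀ * Bridge.hess G' f (φ x) * jac φ x) i j =
      ∑ m, ∑ l, jac φ x l i * Bridge.hess G' f (φ x) l m * jac φ x m j := by
    simp only [Matrix.mul_apply, Matrix.transpose_apply, Finset.sum_mul]
  rw [r1]
  unfold Bridge.hess
  have e1 : (fun y => H.pd j (fun z => f (φ z)) y) =ᶠ[𝓝 x]
      fun y => ∑ e, H.pd e f (φ y) * jac φ y e j := by
    filter_upwards [hc.isOpen.mem_nhds hx] with y hy
    exact P223.pd_comp (hc.smooth y hy) (hfd _ (hc.maps y hy)) j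
  have e2 : H.pd i (fun y => H.pd j (fun z => f (φ z)) y) x =
      ∑ e, ((∑ l, H.pd l (fun z => H.pd e f z) (φ x) * jac φ x l i) * jac φ x e j +
        H.pd e f (φ x) * hes φ x e i j) := by
    have e1' : H.pd i (fun y => H.pd j (fun z => f (φ z)) y) x =
        H.pd i (fun y => ∑ e, H.pd e f (φ y) * jac φ y e j) x := by
      have := e1.fderiv_eq (𝕜 := ℝ)
      unfold H.pd at this ⊢
      rw [this]
    rw [e1', Bridge.pd_sum fun e _ => (hcd e).fun_mul (hjd e j)]
    refine Finset.sum_congr rfl fun e _ => ?_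
    rw [Bridge.pd_mul (hcd e) (hjd e j)]
    congr 1
    congr 1
    exact P223.pd_comp (h := fun z => H.pd e f z) hφ (hpd e _ hxU) i
  have e3 : ∑ k, H.chr G x k i j * H.pd k (fun z => f (φ z)) x =
      ∑ e, H.pd e f (φ x) * ((∑ l, ∑ m, jac φ x l i * jac φ x m j * H.chr G' (φ x) e l m) +
        hes φ x e i j) := by
    have ct := fun e => christoffel_trans hG (Set.mem_univ x) hG' hU' hxU hφ
      (hc.ev hx) e i j
    calc _ = ∑ k, ∑ e, H.chr G x k i j * (H.pd e f (φ x) * jac φ x e k) := by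
          refine Finset.sum_congr rfl fun k _ => ?_
          rw [← Finset.mul_sum]
          congr 1
          exact P223.pd_comp hφ (hfd _ hxU) k
      _ = ∑ e, H.pd e f (φ x) * ∑ k, jac φ x e k * H.chr G x k i j := by
          rw [Finset.sum_comm]
          refine Finset.sum_congr rfl fun e _ => ?_
          rw [Finset.mul_sum]
          refine Finset.sum_congr rfl fun k _ => by ring
      _ = _ := by
          refine Finset.sum_congr rfl fun e _ => ?_
          rw [show (∑ k, jac φ x e k * H.chr G x k i j) = _ from ct e]; rfl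
  rw [e2, e3]
  simp only [Finset.sum_add_distrib, mul_add]
  rw [add_sub_add_right_eq_sub]
  have r2 : ∑ e, H.pd e f (φ x) * ∑ l, ∑ m, jac φ x l i * jac φ x m j * H.chr G' (φ x) e l m =
      ∑ m, ∑ l, jac φ x l i * (∑ k, H.chr G' (φ x) k l m * H.pd k f (φ x)) * jac φ x m j := by
    calc _ = ∑ e, ∑ m, ∑ l, H.pd e f (φ x) *
            (jac φ x l i * jac φ x m j * H.chr G' (φ x) e l m) := by
          refine Finset.sum_congr rfl fun e _ => ?_
          rw [Finset.sum_comm, Finset.mul_sum]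
          refine Finset.sum_congr rfl fun m _ => ?_
          rw [Finset.mul_sum]
      _ = ∑ m, ∑ e, ∑ l, H.pd e f (φ x) *
            (jac φ x l i * jac φ x m j * H.chr G' (φ x) e l m) := Finset.sum_comm
      _ = _ := by
          refine Finset.sum_congr rfl fun m _ => ?_
          rw [Finset.sum_comm]
          refine Finset.sum_congr rfl fun l _ => ?_
          rw [Finset.mul_sum, Finset.sum_mul]
          refine Finset.sum_congr rfl fun e _ => by ring
  rw [r2, ← Finset.sum_sub_distrib]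
  refine Finset.sum_congr rfl fun m _ => ?_
  rw [Finset.sum_mul, ← Finset.sum_sub_distrib]
  refine Finset.sum_congr rfl fun l _ => by ring

theorem lap_comp2 (hG : IsMetricOn Set.univ G) (hG' : IsMetricOn U' G') (hU' : IsOpen U')
    (hc : Chg U Set.univ U' φ G G') (hx : x ∈ U) (hA : (jac φ x).det ≠ 0)
    {f : E n → ℝ} (hf : ContDiffOn ℝ 2 f U') : lap G (fun y => f (φ y)) x = lap G' f (φ x) := by
  have e : ∀ (G : E n → Matrix (Fin n) (Fin n) ℝ) (f : E n → ℝ) (x : E n),
      lap G f x = ((G x)⁻¹ * (Bridge.hess G f x)ᵀ).trace := by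
    intro G f x
    simp only [lap, Matrix.trace, Matrix.diag_apply, Matrix.mul_apply, Matrix.transpose_apply]
    rfl
  rw [e, e, hess_comp2 hG hG' hU' hc hx hf,
    ← Vale.Agent.P223.X.Bas2.Ginv_trans hA (hc.compat x hx)]
  simp only [Matrix.transpose_mul, Matrix.transpose_transpose]
  have : (G x)⁻¹ * ((jac φ x)ᵀ * ((Bridge.hess G' f (φ x))ᵀ * jac φ x)) =
      ((G x)⁻¹ * (jac φ x)ᵀ * (Bridge.hess G' f (φ x))ᵀ) * jac φ x := by
    simp only [Matrix.mul_assoc]
  rw [this, Matrix.trace_mul_comm]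
  simp only [Matrix.mul_assoc]

end loc

section
variable {n : ℕ} {M X Γ I : Type} [TopologicalSpace M] [TopologicalSpace X] [Group Γ]
    [MulAction Γ X] {c : M → J.Ch n M} {B : Box c I} {C : Cov n M X Γ I} {g : M → J.Mtx n}

theorem covId (hc : J.Atl c) : J.CovAtl c (id : M → M) c where
  cov := fun x => (show IsEvenlyCovered (id : M → M) x Unit from
    ⟨inferInstance, Set.univ, Set.mem_univ x, isOpen_univ, isOpen_univ,
      (Homeomorph.prodPUnit _).symm, fun _ => rfl⟩).to_isEvenlyCovered_preimage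
  surj := Function.surjective_id
  mem q := (hc q).1
  eq _ _ hp := ⟨hp, rfl⟩

variable (hc : J.Atl c) (hβ : ∀ i y, C.π (C.ψ i y) = B.β i y) (hg : J.Met c g)

include hc hβ hg in
/-- the Laplacian in the charts of `M` and in the boxes -/
theorem lap_M {u : M → ℝ} (hu : J.C2 c u) (γ : Γ) (i : I) (y : E n) :
    lap (B.G g i) (C.rep (fun x => u (C.π x)) γ i) y =
      J.lapl (g (C.π (γ • C.ψ i y))) (fun x => u ((c (C.π (γ • C.ψ i y))).symm x))
        (c (C.π (γ • C.ψ i y)) (C.π (γ • C.ψ i y))) := by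
  have hf := covId hc
  have hm := MetU.metX hc hβ hg
  have hF : ∀ x, (id : M → M) (C.π x) = C.π x := fun _ => rfl
  set a : Γ × I := (γ, i) with ha
  have hev : C.rep (fun x => u (C.π x)) γ i =ᶠ[𝓝 y]
      fun z => (fun x => u ((c (H441.PP C.π C a y)).symm x))
        (H441.ta B i (id (H441.PP C.π C a y)) z) := by
    filter_upwards [(H441.chg_cov hc hβ hf hg C.π hF (H441.PP C.π C a y) a).isOpen.mem_nhds
      (hf.mem (H441.PP C.π C a y))] with z hz
    exact H441.rep_cov hβ hf C.π hF _ a hz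
  have hta : H441.ta B i (id (H441.PP C.π C a y)) y =
      c (H441.PP C.π C a y) (H441.PP C.π C a y) :=
    (H441.mem_ta hf (hf.mem (H441.PP C.π C a y)) (H441.f_PP hβ C.π hF a y)).2.symm
  have hjd : (jac (H441.ta B i (id (H441.PP C.π C a y))) y).det ≠ 0 :=
    (H441.det_ta hc (H441.mem_ta hf (hf.mem (H441.PP C.π C a y))
      (H441.f_PP hβ C.π hF a y)).1).ne'
  have h1 := H441.chg_cov hc hβ hf hg C.π hF (H441.PP C.π C a y) a
  rw [Bas2.lap_congr hev]
  refine (lap_comp2 (Bas2.metOn hm i)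
    (H441.metOn_cov hf hg (H441.PP C.π C a y)) (c _).open_target h1
    (show y ∈ H441.Uq C.π C c (H441.PP C.π C a y) a from hf.mem _) hjd
    (hu (H441.PP C.π C a y))).trans ?_
  rw [hta]
  rfl

include hβ in
/-- `C²` functions on `M` -/
theorem ck_of_c2 {u : M → ℝ} (hu : J.C2 c u) : C.Ck 2 (fun x => u (C.π x)) := by
  intro γ i
  rw [contDiff_iff_contDiffAt]
  intro y
  have e : C.rep (fun x => u (C.π x)) γ i =
      fun z => (fun x => u ((c (B.a i)).symm x)) (B.x i z) := by
    funext z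
    show u (C.π (γ • C.ψ i z)) = u ((c (B.a i)).symm (B.x i z))
    rw [π_smul, hβ]
    rfl
  rw [e]
  exact ((hu (B.a i)).contDiffAt ((c (B.a i)).open_target.mem_nhds (B.sub i y))).comp y
    (contDiff_infty.1 (contDiff_x B i) 2).contDiffAt

include hc hβ in
theorem c2_dn {F : X → ℝ} (hF : C.Ck 2 F) (hi : ∀ (γ : Γ) x, F (γ • x) = F x) :
    J.C2 c (C.dn F) := by
  intro a x hx
  refine ContDiffAt.contDiffWithinAt ?_
  set p : M := (c a).symm x with hp
  have hps : p ∈ (c a).source := (c a).map_target hx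
  have hcx : c a p = x := (c a).right_inv hx
  set i := ix B p with hi'
  have hpi : p ∈ Set.range (B.β i) := ix_spec B p
  have d1 := contDiffAt_kp B hc hps hpi
  rw [hcx] at d1
  have d2 : ContDiffAt ℝ 2 (fun x => C.rep F 1 i (kp B a i x)) x :=
    ((hF 1 i).contDiffAt).comp x (contDiffAt_infty.1 d1 2)
  refine d2.congr_of_eventuallyEq ?_
  have h3 := eventually_mem hps (isOpen_range_β B i) hpi
  rw [hcx] at h3
  filter_upwards [h3] with x' hx'
  have h4 : (c a).symm x' ∈ (c a).source := (c a).map_target hx'.1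
  have h5 : kp B a i x' = βi B i ((c a).symm x') := by
    have := kp_apply B i h4
    rwa [(c a).right_inv hx'.1] at this
  rw [h5]
  conv_lhs => rw [← β_βi B hx'.2, ← hβ, IntM.dn_eq C hi]
  show _ = F ((1 : Γ) • C.ψ i _)
  rw [one_smul]

include hc hβ hg in
/-- The bound on `X`. -/
theorem doSX [MeasurableSpace M] {ν : Measure M} {κ : ℝ} {N : ℕ} {ρ : M → ℝ}
    (h : J.DoS c g ν κ N ρ) : DoSX C (B.G g) ν κ N ρ := by
  have hm := MetU.metX hc hβ hg
  intro u hu hi hs x
  have e : ∀ j ≤ N, (fun x => C.dn (u j) (C.π x)) = u j := fun j hj =>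
    funext fun x => Final.dn_eq C (hi j hj) x
  have h1 := h (fun j => C.dn (u j)) (fun j hj => c2_dn hc hβ (hu j hj) (hi j hj))
    (fun j hj p => ?_) (C.π x)
  · simpa only [show C.dn (u N) (C.π x) = u N x from Final.dn_eq C (hi N le_rfl) x] using h1
  · obtain ⟨z, rfl⟩ := C.surj p
    obtain ⟨γ, i, y, -, rfl⟩ := Vale.Agent.P223.X.exists_chart C z
    have h2 := hs j hj (γ • C.ψ i y)
    have h3 := lap_M (γ := γ) (i := i) (y := y) hc hβ hg
      (c2_dn hc hβ (hu (j + 1) hj) (hi (j + 1) hj))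
    rw [e (j + 1) hj] at h3
    rw [Bas2.lapX_eq hm (hu (j + 1) hj), h3] at h2
    rw [show C.dn (u (j + 1)) (C.π (γ • C.ψ i y)) = u (j + 1) (γ • C.ψ i y) from
      Final.dn_eq C (hi (j + 1) hj) _, show C.dn (u j) (C.π (γ • C.ψ i y)) =
      u j (γ • C.ψ i y) from Final.dn_eq C (hi j hj.le) _, ← h2]
    ring

end

end Vale.Agent.P223.H691
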