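import Vale.Agent.P223.H441.WDef

/-! Definitions for the statements: the operator `-Δ + κ`. -/

namespace Vale.Agent.P223.J

open MeasureTheory

/-- `u` is of class `C²`. -/
def C2 {n : ℕ} {M : Type} [TopologicalSpace M] (c : M → Ch n M) (u : M → ℝ) : Prop :=
  ∀ a, ContDiffOn ℝ 2 (fun x => u ((c a).symm x)) (c a).target

/-- `-Δ v + κ v = w`. -/
def Slv {n : ℕ} {M : Type} [TopologicalSpace M] (c : M → Ch n M) (g : M → Mtx n) (κ : ℝ)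
    (v w : M → ℝ) : Prop :=
  ∀ p, -lapl (g p) (fun x => v ((c p).symm x)) (c p p) + κ * v p = w p

/-- `|v|² ≤ ρ ∫ |(-Δ + κ)^N v|²` (`v = u N`, and `u (N - j) = (-Δ + κ)^j v`). -/
def DoS {n : ℕ} {M : Type} [TopologicalSpace M] [MeasurableSpace M] (c : M → Ch n M)
    (g : M → Mtx n) (ν : Measure M) (κ : ℝ) (N : ℕ) (ρ : M → ℝ) : Prop :=
  ∀ u : ℕ → M → ℝ, (∀ j ≤ N, C2 c (u j)) → (∀ j < N, Slv c g κ (u (j + 1)) (u j)) →
    ∀ p, u N p ^ 2 ≤ ρ p * ∫ q, u 0 q ^ 2 ∂ν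

end Vale.Agent.P223.J
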