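import Vale.Agent.P223.H691.ITDef

/-! The operator `-Δ + κ`: scaling. -/

namespace Vale.Agent.P223.H691

open scoped ContDiff Topology ENNReal Matrix
open MeasureTheory

section loc
variable {n : ℕ} (κ : ℝ)

theorem inv_smulM (hκ : κ ≠ 0) (A : Matrix (Fin n) (Fin n) ℝ) : (κ • A)⁻¹ = κ⁻¹ • A⁻¹ := by
  by_cases h : IsUnit A.det
  · have := invertibleOfNonzero hκ
    rw [Matrix.inv_smul A κ h, invOf_eq_inv]
  · have h' : ¬ IsUnit (κ • A).det := by
      rw [Matrix.det_smul]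
      intro h2
      exact h (isUnit_of_mul_isUnit_right h2)
    rw [Matrix.nonsing_inv_apply_not_isUnit _ h, Matrix.nonsing_inv_apply_not_isUnit _ h',
      smul_zero]

theorem pd_mulc (i : Fin n) (f : J.E n → ℝ) (x : J.E n) :
    J.pd i (fun y => κ * f y) x = κ * J.pd i f x := by
  have h := congrArg (fun F => F x) (fderiv_const_smul_field (𝕜 := ℝ) (f := f) κ)
  unfold J.pd
  have h' : fderiv ℝ (fun y => κ * f y) x = κ • fderiv ℝ f x := h
  rw [h']
  rfl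

theorem chr_scale (hκ : κ ≠ 0) (G : J.Mtx n) (x : J.E n) (k i j : Fin n) :
    J.chr (fun y => κ • G y) x k i j = J.chr G x k i j := by
  unfold J.chr
  rw [inv_smulM κ hκ]
  congr 1
  refine Finset.sum_congr rfl fun l _ => ?_
  have e : ∀ a b : Fin n, (fun y => (κ • G y) a b) = fun y => κ * G y a b := fun a b => rfl
  rw [e, e, e, pd_mulc, pd_mulc, pd_mulc, Matrix.smul_apply, smul_eq_mul]
  field_simp

theorem ric_scale (hκ : κ ≠ 0) (G : J.Mtx n) (x : J.E n) (i j : Fin n) :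
    J.ric (fun y => κ • G y) x i j = J.ric G x i j := by
  unfold J.ric
  simp only [chr_scale κ hκ]

theorem scal_scale (hκ : κ ≠ 0) (G : J.Mtx n) (x : J.E n) :
    J.scal (fun y => κ • G y) x = κ⁻¹ * J.scal G x := by
  unfold J.scal
  rw [inv_smulM κ hκ, Finset.mul_sum]
  refine Finset.sum_congr rfl fun i _ => ?_
  rw [Finset.mul_sum]
  refine Finset.sum_congr rfl fun j _ => ?_
  rw [ric_scale κ hκ, Matrix.smul_apply, smul_eq_mul, mul_assoc]

theorem lapl_scale (hκ : κ ≠ 0) (G : J.Mtx n) (u : J.E n → ℝ) (x : J.E n) :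
    J.lapl (fun y => κ • G y) u x = κ⁻¹ * J.lapl G u x := by
  unfold J.lapl
  rw [inv_smulM κ hκ, Finset.mul_sum]
  refine Finset.sum_congr rfl fun i _ => ?_
  rw [Finset.mul_sum]
  refine Finset.sum_congr rfl fun j _ => ?_
  simp only [chr_scale κ hκ, Matrix.smul_apply, smul_eq_mul]
  ring

theorem lapl_mulc (G : J.Mtx n) (u : J.E n → ℝ) (x : J.E n) :
    J.lapl G (fun y => κ * u y) x = κ * J.lapl G u x := by
  unfold J.lapl
  rw [Finset.mul_sum]
  refine Finset.sum_congr rfl fun i _ => ?_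
  rw [Finset.mul_sum]
  refine Finset.sum_congr rfl fun j _ => ?_
  have e : (fun z => J.pd j (fun y => κ * u y) z) = fun z => κ * J.pd j u z :=
    funext fun z => pd_mulc κ j u z
  have e2 : ∑ k, J.chr G x k i j * J.pd k (fun y => κ * u y) x =
      κ * ∑ k, J.chr G x k i j * J.pd k u x := by
    rw [Finset.mul_sum]
    refine Finset.sum_congr rfl fun k _ => ?_
    rw [pd_mulc]
    ring
  rw [e, pd_mulc, e2]
  ring

end loc

section
variable {n : ℕ} {M : Type} [TopologicalSpace M] {c : M → J.Ch n M} {g : M → J.Mtx n} {κ : ℝ}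

/-- the metric `κ g` -/
def sg (κ : ℝ) (g : M → J.Mtx n) : M → J.Mtx n := fun a x => κ • g a x

theorem bil_smul (κ : ℝ) (A : Matrix (Fin n) (Fin n) ℝ) (v w : J.E n) :
    J.bil (κ • A) v w = κ * J.bil A v w := by
  unfold J.bil
  rw [Finset.mul_sum]
  refine Finset.sum_congr rfl fun i _ => ?_
  rw [Finset.mul_sum]
  refine Finset.sum_congr rfl fun j _ => ?_
  rw [Matrix.smul_apply, smul_eq_mul]
  ring

theorem met_sg (hκ : 0 < κ) (hg : J.Met c g) : J.Met c (sg κ g) := by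
  intro a p hp
  obtain ⟨h1, h2, h3⟩ := hg a p hp
  refine ⟨fun i j => contDiffAt_const.mul (h1 i j), h2.smul hκ, fun b hb v w => ?_⟩
  have h4 := h3 b hb v w
  show J.bil (κ • g a (c a p)) v w = J.bil (κ • g b (c b p)) _ _
  rw [bil_smul, bil_smul, h4]

theorem vol_sg [MeasurableSpace M] {ν : Measure M} (hκ : 0 < κ) (hν : J.Vol c g ν) :
    J.Vol c (sg κ g) (ENNReal.ofReal (κ ^ ((n : ℝ) / 2)) • ν) := by
  intro a T hT hm
  rw [Measure.smul_apply, hν a T hT hm, smul_eq_mul, ← lintegral_const_mul' _ _ (by simp)]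
  refine lintegral_congr fun x => ?_
  have h1 : (κ : ℝ) ^ ((n : ℝ) / 2) = √(κ ^ n) := by
    rw [Real.sqrt_eq_rpow, ← Real.rpow_natCast, ← Real.rpow_mul hκ.le]
    congr 1
    ring
  show ENNReal.ofReal (κ ^ ((n : ℝ) / 2)) * ENNReal.ofReal √(g a x).det =
    ENNReal.ofReal √(κ • g a x).det
  rw [Matrix.det_smul, Fintype.card_fin, ← ENNReal.ofReal_mul (by positivity), h1,
    ← Real.sqrt_mul (by positivity)]

theorem scal_sg (hκ : κ ≠ 0) (p : M) :
    J.scal (sg κ g p) (c p p) = κ⁻¹ * J.scal (g p) (c p p) := scal_scale κ hκ (g p) _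

theorem c2_mulc {u : M → ℝ} (r : ℝ) (hu : J.C2 c u) : J.C2 c (fun p => r * u p) := fun a =>
  contDiffOn_const.mul (hu a)

theorem doS_sg [MeasurableSpace M] {ν : Measure M} {N : ℕ} {ρ : M → ℝ} (hκ : 0 < κ)
    (h : J.DoS c g ν κ N ρ) : J.DoS c (sg κ g) (ENNReal.ofReal (κ ^ ((n : ℝ) / 2)) • ν) 1 N
      (fun p => κ ^ (2 * N) * (κ ^ ((n : ℝ) / 2))⁻¹ * ρ p) := by
  intro u hu hs p
  have h1 := h (fun j p => κ ^ (N - j) * u j p) (fun j hj => c2_mulc _ (hu j hj))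
    (fun j hj q => ?_) p
  · simp only [Nat.sub_self, pow_zero, one_mul, Nat.sub_zero] at h1
    refine h1.trans (le_of_eq ?_)
    have h2 : ∫ q, (κ ^ N * u 0 q) ^ 2 ∂ν = κ ^ (2 * N) * ∫ q, u 0 q ^ 2 ∂ν := by
      rw [← integral_const_mul]
      refine integral_congr_ae (ae_of_all _ fun q => ?_)
      simp only
      ring
    rw [h2, integral_smul_measure, ENNReal.toReal_ofReal (by positivity), smul_eq_mul]
    have h3 : (κ : ℝ) ^ ((n : ℝ) / 2) ≠ 0 := (Real.rpow_pos_of_pos hκ _).ne'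
    field_simp
  · have h2 := hs j hj q
    have h3 : J.lapl (sg κ g q) (fun x => u (j + 1) ((c q).symm x)) (c q q) =
        κ⁻¹ * J.lapl (g q) (fun x => u (j + 1) ((c q).symm x)) (c q q) :=
      lapl_scale κ hκ.ne' (g q) _ _
    rw [h3] at h2
    show -J.lapl (g q) (fun x => κ ^ (N - (j + 1)) * u (j + 1) ((c q).symm x)) (c q q) +
      κ * (κ ^ (N - (j + 1)) * u (j + 1) q) = κ ^ (N - j) * u j q
    rw [lapl_mulc, ← h2]
    have h4 : N - j = N - (j + 1) + 1 := by omega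
    rw [h4, pow_succ]
    field_simp

omit [TopologicalSpace M] in
theorem int_sg [MeasurableSpace M] {ν : Measure M} {N : ℕ} {ρ : M → ℝ} (hκ : 0 < κ) :
    ∫ p, κ ^ (2 * N) * (κ ^ ((n : ℝ) / 2))⁻¹ * ρ p
      ∂(ENNReal.ofReal (κ ^ ((n : ℝ) / 2)) • ν) = κ ^ (2 * N) * ∫ p, ρ p ∂ν := by
  have h3 : (κ : ℝ) ^ ((n : ℝ) / 2) ≠ 0 := (Real.rpow_pos_of_pos hκ _).ne'
  rw [integral_smul_measure, integral_const_mul, ENNReal.toReal_ofReal (by positivity),
    smul_eq_mul]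
  field_simp

/-- from `κ = 1` to all `κ > 0` -/
theorem scale_H [MeasurableSpace M] {N : ℕ} {A : ℝ}
    (h : ∀ (g : M → J.Mtx n) (ν : Measure M) (ρ : M → ℝ), J.Met c g → J.Vol c g ν →
      (∀ p, -1 ≤ J.scal (g p) (c p p)) → Continuous ρ → (∀ p, 0 ≤ ρ p) → J.DoS c g ν 1 N ρ →
      J.sv c ≤ ENNReal.ofReal (A * ∫ p, ρ p ∂ν))
    {ν : Measure M} {ρ : M → ℝ} (hκ : 0 < κ) (hg : J.Met c g) (hν : J.Vol c g ν)
    (hs : ∀ p, -κ ≤ J.scal (g p) (c p p)) (hρ : Continuous ρ) (hρ0 : ∀ p, 0 ≤ ρ p)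
    (hd : J.DoS c g ν κ N ρ) :
    J.sv c ≤ ENNReal.ofReal (A * (κ ^ (2 * N) * ∫ p, ρ p ∂ν)) := by
  have h1 := h (sg κ g) _ (fun p => κ ^ (2 * N) * (κ ^ ((n : ℝ) / 2))⁻¹ * ρ p) (met_sg hκ hg)
    (vol_sg hκ hν) (fun p => ?_) (continuous_const.mul hρ) (fun p => ?_) (doS_sg hκ hd)
  · rwa [int_sg hκ] at h1
  · rw [scal_sg hκ.ne']
    have h2 := mul_le_mul_of_nonneg_left (hs p) (inv_nonneg.2 hκ.le)
    rwa [mul_neg, inv_mul_cancel₀ hκ.ne'] at h2
  · have := hρ0 p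
    positivity

end

end Vale.Agent.P223.H691
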