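import Vale.Agent.P223.H691.Plane

/-! Resolvents applied to plane waves times symbols. -/

namespace Vale.Agent.P223.H691

open scoped ContDiff
open Complex

section
variable {n : ℕ} {V : Type} [NormedAddCommGroup V] [NormedSpace ℂ V]

/-- Smooth functions which vanish outside of `K`. -/
def CS (K : Set (E n)) (V : Type) [NormedAddCommGroup V] [NormedSpace ℂ V] :
    Submodule ℂ (E n → V) where
  carrier := {f | ContDiff ℝ ∞ f ∧ ∀ x, x ∉ K → f x = 0}
  add_mem' := fun {f g} hf hg => ⟨hf.1.add hg.1, fun x hx => by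
    simp only [Pi.add_apply]; rw [hf.2 x hx, hg.2 x hx, add_zero]⟩
  zero_mem' := ⟨contDiff_const, fun _ _ => rfl⟩
  smul_mem' := fun c f hf => ⟨hf.1.const_smul c, fun x hx => by
    simp only [Pi.smul_apply]; rw [hf.2 x hx, smul_zero]⟩

variable {K : Set (E n)} {r : ℤ} {B B' : Ph n × E n → V}

/-- The function `e_k B(μ, k, ·)`. -/
noncomputable def el (B : Ph n × E n → V) (p : Ph n) : E n → V := pw p.2 fun y => B (p, y)

theorem SymGe.mem (h : SymGe K r B) {p : Ph n} (hp : p ≠ 0) : el B p ∈ CS K V := by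
  refine ⟨contDiff_pw _ (h.contDiff_x hp), fun x hx => ?_⟩
  show ew p.2 x • B (p, x) = 0
  rw [h.supp hp hx, smul_zero]

theorem el_add (p : Ph n) : el (B + B') p = el B p + el B' p := by
  funext x
  unfold el pw
  simp only [Pi.add_apply, smul_add]

theorem el_congr {p : Ph n} (h : ∀ x, B (p, x) = B' (p, x)) : el B p = el B' p := by
  funext x
  unfold el pw
  simp only [h]

theorem norm_el (p : Ph n) (x : E n) : ‖el B p x‖ = ‖B (p, x)‖ := norm_pw _ _ _

/-- `L` maps smooth functions supported in `K` to such functions. -/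
theorem Coef.L_mem (c : Coef n V) (hK : IsClosed K) {f : E n → V} (hf : f ∈ CS K V) :
    c.L f ∈ CS K V := by
  constructor
  · unfold Coef.L
    have h1 : ∀ j, ContDiff ℝ ∞ (pv j f) := fun j => contDiff_pv hf.1 j
    have h2 : ∀ j l, ContDiff ℝ ∞ (pv j (pv l f)) := fun j l => contDiff_pv (h1 l) j
    have bil : ContDiff ℝ ∞ (fun z : (V →L[ℂ] V) × V => z.1 z.2) := by
      have : IsBoundedBilinearMap ℝ (fun z : (V →L[ℂ] V) × V => z.1 z.2) :=
        { add_left := fun x₁ x₂ y => rfl
          smul_left := fun c x y => rfl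
          add_right := fun x y₁ y₂ => map_add _ _ _
          smul_right := fun c x y => by simp
          bound := ⟨1, one_pos, fun x y => by rw [one_mul]; exact x.le_opNorm y⟩ }
      exact this.contDiff
    refine ((ContDiff.sum fun j _ => ContDiff.sum fun l _ => ?_).add
      (ContDiff.sum fun j _ => ?_)).add ?_ |>.neg
    · exact (c.g_smooth j l).smul (h2 j l)
    · exact bil.comp ((c.E_smooth j).prodMk (h1 j))
    · exact bil.comp (c.F_smooth.prodMk hf.1)
  · intro x hx
    have hz : ∀ u : E n → V, u =ᶠ[nhds x] (fun _ => 0) → ∀ j, pv j u =ᶠ[nhds x] fun _ => 0 := by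
      intro u hu j
      have := hu.fderiv (𝕜 := ℝ)
      filter_upwards [this] with y hy
      unfold pv
      rw [hy]
      simp
    have h0 : f =ᶠ[nhds x] fun _ => 0 := by
      filter_upwards [hK.isOpen_compl.mem_nhds hx] with y hy
      exact hf.2 y hy
    unfold Coef.L
    have h1 : ∀ j, pv j f x = 0 := fun j => (hz f h0 j).self_of_nhds
    have h2 : ∀ j l, pv j (pv l f) x = 0 := fun j l => (hz _ (hz f h0 l) j).self_of_nhds
    simp only [h1, h2, h0.self_of_nhds, smul_zero, map_zero, Finset.sum_const_zero, add_zero,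
      neg_zero]

/-- Iterates of `-T`. -/
noncomputable def Coef.S (c : Coef n V) (B : Ph n × E n → V) : ℕ → Ph n × E n → V
  | 0 => B
  | j + 1 => fun q => -c.T (c.S B j) q

theorem Coef.S_ge (c : Coef n V) (hK : IsClosed K) (h : SymGe K r B) (j : ℕ) :
    SymGe K (r + j) (c.S B j) := by
  induction j with
  | zero => simpa [Coef.S] using h
  | succ j ih =>
    have := (ih.T hK c).neg
    refine this.mono ?_
    push_cast
    omega

theorem Coef.L_add (c : Coef n V) {f g : E n → V} (hf : ContDiff ℝ ∞ f) (hg : ContDiff ℝ ∞ g) :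
    c.L (f + g) = c.L f + c.L g := by
  have e : ∀ j, pv j (f + g) = pv j f + pv j g := fun j =>
    pv_add (hf.differentiable (by simp)) (hg.differentiable (by simp)) j
  have e2 : ∀ j l, pv j (pv l f + pv l g) = pv j (pv l f) + pv j (pv l g) := fun j l =>
    pv_add ((contDiff_pv hf l).differentiable (by simp))
      ((contDiff_pv hg l).differentiable (by simp)) j
  funext x
  unfold Coef.L
  simp only [e, e2, Pi.add_apply, smul_add, map_add, Finset.sum_add_distrib]
  abel

/-- One resolvent: there is `B₁` of higher order with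
`(μ² + L) (e_k (h B + B₁)) = e_k (B - R)`, `R` of order at least `N`. -/
theorem Coef.step (c : Coef n V) (hK : IsClosed K) (h : SymGe K r B) (N : ℤ) :
    ∃ B₁ R : Ph n × E n → V, SymGe K (r + 3) B₁ ∧ SymGe K N R ∧ ∀ p : Ph n, p ≠ 0 →
      (fun x => (p.1 ^ 2) • el (c.mh B + B₁) p x + c.L (el (c.mh B + B₁) p) x) =
        el B p - el R p := by
  have key : ∀ J : ℕ, ∃ B₁, SymGe K (r + 3) B₁ ∧ ∀ p : Ph n, p ≠ 0 →
      (fun x => (p.1 ^ 2) • el (c.mh B + B₁) p x + c.L (el (c.mh B + B₁) p) x) =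
        el B p - el (c.S B (J + 1)) p := by
    intro J
    induction J with
    | zero =>
      refine ⟨0, SymGe.zero, fun p hp => ?_⟩
      funext x
      have := c.L_mh h hp x
      rw [add_zero]
      simp only [Pi.sub_apply, el]
      rw [this]
      simp only [pw, Coef.S, smul_add, smul_neg, sub_neg_eq_add]
    | succ J ih =>
      obtain ⟨B₁, h1, h2⟩ := ih
      have hS : SymGe K (r + (J + 1 : ℕ)) (c.S B (J + 1)) := c.S_ge hK h (J + 1)
      have hm : SymGe K (r + 3) (c.mh (c.S B (J + 1))) := (hS.mh c).mono (by push_cast; omega)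
      refine ⟨B₁ + c.mh (c.S B (J + 1)), h1.add hm, fun p hp => ?_⟩
      have e1 : el (c.mh B + (B₁ + c.mh (c.S B (J + 1)))) p =
          el (c.mh B + B₁) p + el (c.mh (c.S B (J + 1))) p := by
        rw [← add_assoc, el_add]
      have m1 : SymGe K (r + 2) (c.mh B + B₁) := (h.mh c).add (h1.mono (by omega))
      rw [e1, c.L_add (m1.mem hp).1 (hm.mem hp).1]
      funext x
      have e2 := congrFun (h2 p hp) x
      have e3 := c.L_mh hS hp x
      simp only [Pi.add_apply, Pi.sub_apply, smul_add] at e2 ⊢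
      have e4 : (p.1 ^ 2) • el (c.mh (c.S B (J + 1))) p x + c.L (el (c.mh (c.S B (J + 1))) p) x =
          el (c.S B (J + 1)) p x - el (c.S B (J + 1 + 1)) p x := by
        refine e3.trans ?_
        simp only [pw, el, Coef.S, smul_add, smul_neg, sub_neg_eq_add]
      calc p.1 ^ 2 • el (c.mh B + B₁) p x + p.1 ^ 2 • el (c.mh (c.S B (J + 1))) p x +
            (c.L (el (c.mh B + B₁) p) x + c.L (el (c.mh (c.S B (J + 1))) p) x)
          = (p.1 ^ 2 • el (c.mh B + B₁) p x + c.L (el (c.mh B + B₁) p) x) +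
            (p.1 ^ 2 • el (c.mh (c.S B (J + 1))) p x + c.L (el (c.mh (c.S B (J + 1))) p) x) := by
              abel
        _ = _ := by rw [e2, e4]; abel
  obtain ⟨B₁, h1, h2⟩ := key (N - r).toNat
  refine ⟨B₁, _, h1, (c.S_ge hK h _).mono ?_, h2⟩
  have := Int.self_le_toNat (N - r)
  push_cast
  omega

/-- The relation between a resolvent and `loc`: `G (loc ((μ² + L) f)) = loc f`. -/
def Coef.Res (c : Coef n V) (K : Set (E n)) {H : Type} [AddCommGroup H] [Module ℂ H] (μ : ℝ)
    (G : H →ₗ[ℂ] H) (loc : (E n → V) → H) : Prop :=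
  (∀ f g, f ∈ CS K V → g ∈ CS K V → loc (f + g) = loc f + loc g) ∧
  ∀ f, f ∈ CS K V → G (loc (fun x => (μ ^ 2) • f x + c.L f x)) = loc f

theorem Coef.step_res (c : Coef n V) (hK : IsClosed K) (h : SymGe K r B) (N : ℤ) :
    ∃ B₁ R : Ph n × E n → V, SymGe K (r + 3) B₁ ∧ SymGe K N R ∧ ∀ p : Ph n, p ≠ 0 →
      ∀ (H : Type) [AddCommGroup H] [Module ℂ H] (G : H →ₗ[ℂ] H) (loc : (E n → V) → H),
        c.Res K p.1 G loc →
        G (loc (el B p)) = loc (el (c.mh B) p) + loc (el B₁ p) + G (loc (el R p)) := by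
  obtain ⟨B₁, R, h1, h2, h3⟩ := c.step hK h N
  refine ⟨B₁, R, h1, h2, fun p hp H _ _ G loc hG => ?_⟩
  have m1 : SymGe K (r + 2) (c.mh B + B₁) := (h.mh c).add (h1.mono (by omega))
  have m2 : el (c.mh B) p ∈ CS K V := (h.mh c).mem hp
  have m3 : el B₁ p ∈ CS K V := h1.mem hp
  have e1 := hG.2 _ (m1.mem hp)
  rw [h3 p hp] at e1
  have e2 : el B p = (el B p - el R p) + el R p := by abel
  rw [e2, hG.1 _ _ ((CS K V).sub_mem (h.mem hp) (h2.mem hp)) (h2.mem hp), map_add, e1, el_add,
    hG.1 _ _ m2 m3]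

/-- Powers of the resolvent applied to plane waves. -/
theorem Coef.iterate (c : Coef n V) (hK : IsClosed K) (h : SymGe K r B) (N : ℤ) (m : ℕ) :
    ∃ (B₁ : Ph n × E n → V) (R : ℕ → Ph n × E n → V), SymGe K (r + 2 * m + 1) B₁ ∧
      (∀ i, SymGe K N (R i)) ∧ ∀ p : Ph n, p ≠ 0 →
      ∀ (H : Type) [AddCommGroup H] [Module ℂ H] (G : H →ₗ[ℂ] H) (loc : (E n → V) → H),
        c.Res K p.1 G loc →
        (G ^ m) (loc (el B p)) = loc (el (c.mh^[m] B) p) + loc (el B₁ p) +
          ∑ i ∈ Finset.range m, (G ^ (i + 1)) (loc (el (R i) p)) := by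
  have hm : ∀ m : ℕ, SymGe K (r + 2 * m) (c.mh^[m] B) := by
    intro m
    induction m with
    | zero => simpa using h
    | succ m ih =>
      rw [Function.iterate_succ_apply']
      exact (ih.mh c).mono (by push_cast; omega)
  induction m with
  | zero =>
    refine ⟨0, fun _ => 0, SymGe.zero, fun _ => SymGe.zero, fun p hp H _ _ G loc hG => ?_⟩
    have h0 : loc (el (0 : Ph n × E n → V) p) = 0 := by
      have z : el (0 : Ph n × E n → V) p = 0 := by
        funext x; simp [el, pw]
      have := hG.1 0 0 (CS K V).zero_mem (CS K V).zero_mem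
      rw [add_zero] at this
      rw [z]
      exact left_eq_add.1 this
    simp [h0]
  | succ m ih =>
    obtain ⟨B₁, R, h1, h2, h3⟩ := ih
    have hs : SymGe K (r + 2 * m) (c.mh^[m] B + B₁) := (hm m).add (h1.mono (by omega))
    obtain ⟨B₂, R', h4, h5, h6⟩ := c.step_res hK hs N
    refine ⟨c.mh B₁ + B₂, fun i => Nat.casesOn i R' R, ?_, ?_, fun p hp H _ _ G loc hG => ?_⟩
    · exact ((h1.mh c).mono (by push_cast; omega)).add (h4.mono (by push_cast; omega))
    · intro i
      cases i with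
      | zero => exact h5
      | succ i => exact h2 i
    · have hadd := hG.1
      rw [pow_succ', Module.End.mul_apply, h3 p hp H G loc hG, map_add, ← hadd _ _
        ((hm m).mem hp) (h1.mem hp), ← el_add, h6 p hp H G loc hG, map_sum]
      have e1 : loc (el (c.mh (c.mh^[m] B + B₁)) p) + loc (el B₂ p) =
          loc (el (c.mh^[m + 1] B) p) + loc (el (c.mh B₁ + B₂) p) := by
        have e2 : c.mh (c.mh^[m] B + B₁) = c.mh^[m + 1] B + c.mh B₁ := by
          rw [Function.iterate_succ_apply']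
          funext q
          simp only [Coef.mh, Pi.add_apply, smul_add]
        have m4 : SymGe K (r + 2 * m + 3) (c.mh B₁) := (h1.mh c).mono (by omega)
        have m5 := hm (m + 1)
        rw [e2, el_add, el_add, hadd _ _ (m5.mem hp) (m4.mem hp),
          hadd _ _ (m4.mem hp) (h4.mem hp)]
        abel
      rw [e1, Finset.sum_range_succ']
      simp only [Nat.rec_zero, zero_add, pow_one]
      have e3 : ∀ i, G ((G ^ (i + 1)) (loc (el (R i) p))) = (G ^ (i + 1 + 1)) (loc (el (R i) p)) :=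
        fun i => by rw [pow_succ' G (i + 1), Module.End.mul_apply]
      simp only [e3]
      abel

/-- Transfer of estimates: `P x a` means that `x` is bounded by `a` in some sense. -/
theorem Coef.iterate_bound' (c : Coef n V) (hK : IsCompact K) (h : SymGe K r B) (m : ℕ) :
    ∃ C : ℝ, 0 ≤ C ∧ ∀ p : Ph n, 1 ≤ p.1 →
      ∀ (H : Type) [AddCommGroup H] [Module ℂ H] (G : H →ₗ[ℂ] H) (loc : (E n → V) → H)
        (P : H → ℝ → Prop), c.Res K p.1 G loc →
        (∀ x y a b, P x a → P y b → P (x + y) (a + b)) →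
        (∀ i ≤ m, ∀ f a, 0 ≤ a → f ∈ CS K V → (∀ x, ‖f x‖ ≤ a) → P ((G ^ i) (loc f)) a) →
        P ((G ^ m) (loc (el B p))) (C * ‖p‖ ^ (-(r + 2 * m))) := by
  obtain ⟨B₁, R, h1, h2, h3⟩ := c.iterate hK.isClosed h (r + 2 * m) m
  have hm : ∀ m : ℕ, SymGe K (r + 2 * m) (c.mh^[m] B) := by
    intro m
    induction m with
    | zero => simpa using h
    | succ m ih =>
      rw [Function.iterate_succ_apply']
      exact (ih.mh c).mono (by push_cast; omega)
  obtain ⟨C₀, hC₀, b0⟩ := (hm m).bound hK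
  obtain ⟨C₁, hC₁, b1⟩ := (h1.mono (r' := r + 2 * m) (by omega)).bound hK
  choose D hD b2 using fun i => (h2 i).bound hK
  refine ⟨C₀ + C₁ + ∑ i ∈ Finset.range m, D i, add_nonneg (add_nonneg hC₀ hC₁)
    (Finset.sum_nonneg fun i _ => hD i), fun p hp H _ _ G loc P hG hadd hloc => ?_⟩
  have hp1 : 1 ≤ ‖p‖ := by
    refine hp.trans ?_
    exact (le_abs_self _).trans (norm_fst_le p)
  have hp0 : p ≠ 0 := by
    rintro rfl
    simp at hp1
    linarith
  have hz : (0 : ℝ) ≤ ‖p‖ ^ (-(r + 2 * m : ℤ)) := zpow_nonneg (norm_nonneg _) _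
  rw [h3 p hp0 H G loc hG, add_mul, add_mul, Finset.sum_mul]
  have hsum : ∀ J : ℕ, J ≤ m → P (∑ i ∈ Finset.range J, (G ^ (i + 1)) (loc (el (R i) p)))
      (∑ i ∈ Finset.range J, D i * ‖p‖ ^ (-(r + 2 * m : ℤ))) := by
    intro J
    induction J with
    | zero =>
      intro _
      have z := hloc 0 (Nat.zero_le _) 0 0 le_rfl (CS K V).zero_mem (fun x => by simp)
      have z2 := hG.1 0 0 (CS K V).zero_mem (CS K V).zero_mem
      rw [add_zero] at z2
      rw [left_eq_add.1 z2] at z
      simpa using z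
    | succ J ih =>
      intro hJ
      rw [Finset.sum_range_succ, Finset.sum_range_succ]
      refine hadd _ _ _ _ (ih (by omega)) ?_
      refine hloc (J + 1) hJ _ _ (mul_nonneg (hD J) hz) ((h2 J).mem hp0) fun x => ?_
      rw [norm_el]
      exact b2 J p x hp1
  refine hadd _ _ _ _ (hadd _ _ _ _ ?_ ?_) (hsum m le_rfl)
  · have := hloc 0 (Nat.zero_le _) _ _ (mul_nonneg hC₀ hz) ((hm m).mem hp0) fun x => by
      rw [norm_el]
      exact b0 p x hp1
    simpa using this
  · have := hloc 0 (Nat.zero_le _) _ _ (mul_nonneg hC₁ hz) (h1.mem hp0) fun x => by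
      rw [norm_el]
      exact b1 p x hp1
    simpa using this

/-- Transfer of estimates: `P x a` means that `x` is bounded by `a` in some sense. -/
theorem Coef.iterate_bound (c : Coef n V) (hK : IsCompact K) (h : SymGe K r B) (m : ℕ) :
    ∃ C : ℝ, 0 ≤ C ∧ ∀ p : Ph n, 1 ≤ p.1 →
      ∀ (H : Type) [AddCommGroup H] [Module ℂ H] (G : H →ₗ[ℂ] H) (loc : (E n → V) → H)
        (P : H → ℝ → Prop), c.Res K p.1 G loc →
        (∀ x y a b, P x a → P y b → P (x + y) (a + b)) → (∀ x a, 0 ≤ a → P x a → P (G x) a) →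
        (∀ f a, 0 ≤ a → f ∈ CS K V → (∀ x, ‖f x‖ ≤ a) → P (loc f) a) →
        P ((G ^ m) (loc (el B p))) (C * ‖p‖ ^ (-(r + 2 * m))) := by
  obtain ⟨C, hC, h1⟩ := c.iterate_bound' hK h m
  refine ⟨C, hC, fun p hp H _ _ G loc P hG hadd hGP hloc =>
    h1 p hp H G loc P hG hadd fun i _ => ?_⟩
  induction i with
  | zero => intro f a ha hf hfa; simpa using hloc f a ha hf hfa
  | succ i ih =>
    intro f a ha hf hfa
    rw [pow_succ', Module.End.mul_apply]
    exact hGP _ _ ha (ih (by omega) f a ha hf hfa)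

end

end Vale.Agent.P223.H691
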