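import Vale.Agent.P223.MathlibUsed
import Mathlib.Analysis.InnerProductSpace.Adjoint
import Mathlib.Analysis.InnerProductSpace.l2Space
import Mathlib.MeasureTheory.Integral.DominatedConvergence
import Mathlib.MeasureTheory.Integral.Bochner.Basic
import Mathlib.MeasureTheory.Function.StronglyMeasurable.Inner
import Mathlib.MeasureTheory.Function.L2Space

/-! Nuclear operators on a Hilbert space: integrals of operators of rank one, and their trace. -/

namespace Vale.Agent.P223.H691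

open scoped InnerProductSpace
open MeasureTheory

section
variable {H : Type} [NormedAddCommGroup H] [InnerProductSpace ℂ H]
  {α : Type} [MeasurableSpace α] {ν : Measure α}

/-- `T x = ∫ ⟪v, x⟫ u` -/
structure IntRep (ν : Measure α) (u v : α → H) (T : H →L[ℂ] H) : Prop where
  mu : AEStronglyMeasurable u ν
  mv : AEStronglyMeasurable v ν
  int : Integrable (fun a => ‖u a‖ * ‖v a‖) ν
  rep : ∀ x, T x = ∫ a, ⟪v a, x⟫_ℂ • u a ∂ν

variable {u v : α → H} {T : H →L[ℂ] H}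

theorem IntRep.integrable_smul (h : IntRep ν u v T) (x : H) :
    Integrable (fun a => ⟪v a, x⟫_ℂ • u a) ν := by
  refine (h.int.mul_const ‖x‖).mono' ((h.mv.inner aestronglyMeasurable_const).smul h.mu) ?_
  filter_upwards with a
  rw [norm_smul]
  have := norm_inner_le_norm (𝕜 := ℂ) (v a) x
  calc ‖⟪v a, x⟫_ℂ‖ * ‖u a‖ ≤ (‖v a‖ * ‖x‖) * ‖u a‖ := by gcongr
    _ = ‖u a‖ * ‖v a‖ * ‖x‖ := by ring

theorem IntRep.integrable_inner (h : IntRep ν u v T) (x y : H) :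
    Integrable (fun a => ⟪v a, x⟫_ℂ * ⟪y, u a⟫_ℂ) ν := by
  refine (h.int.mul_const (‖x‖ * ‖y‖)).mono' ((h.mv.inner aestronglyMeasurable_const).mul
    (aestronglyMeasurable_const.inner h.mu)) ?_
  filter_upwards with a
  rw [norm_mul]
  have h1 := norm_inner_le_norm (𝕜 := ℂ) (v a) x
  have h2 := norm_inner_le_norm (𝕜 := ℂ) y (u a)
  calc ‖⟪v a, x⟫_ℂ‖ * ‖⟪y, u a⟫_ℂ‖ ≤ (‖v a‖ * ‖x‖) * (‖y‖ * ‖u a‖) := by gcongr
    _ = ‖u a‖ * ‖v a‖ * (‖x‖ * ‖y‖) := by ring

theorem IntRep.integrable_trace (h : IntRep ν u v T) :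
    Integrable (fun a => ⟪v a, u a⟫_ℂ) ν := by
  refine h.int.mono' (h.mv.inner h.mu) ?_
  filter_upwards with a
  have h1 := norm_inner_le_norm (𝕜 := ℂ) (v a) (u a)
  linarith [mul_comm ‖u a‖ ‖v a‖]

theorem sum_inner_mul_le {J : Type} {b : J → H} (hb : Orthonormal ℂ b) (s : Finset J) (x y : H) :
    ∑ j ∈ s, ‖⟪x, b j⟫_ℂ * ⟪b j, y⟫_ℂ‖ ≤ ‖x‖ * ‖y‖ := by
  have h1 := hb.sum_inner_products_le x (s := s)
  have h2 := hb.sum_inner_products_le y (s := s)
  have e1 : ∀ j, ‖⟪x, b j⟫_ℂ * ⟪b j, y⟫_ℂ‖ = ‖⟪b j, x⟫_ℂ‖ * ‖⟪b j, y⟫_ℂ‖ := fun j => by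
    rw [norm_mul, norm_inner_symm]
  simp only [e1]
  refine abs_le_of_sq_le_sq' ?_ (by positivity) |>.2
  calc (∑ j ∈ s, ‖⟪b j, x⟫_ℂ‖ * ‖⟪b j, y⟫_ℂ‖) ^ 2
      ≤ (∑ j ∈ s, ‖⟪b j, x⟫_ℂ‖ ^ 2) * ∑ j ∈ s, ‖⟪b j, y⟫_ℂ‖ ^ 2 :=
        Finset.sum_mul_sq_le_sq_mul_sq _ _ _
    _ ≤ ‖x‖ ^ 2 * ‖y‖ ^ 2 := by
        refine mul_le_mul h1 h2 (Finset.sum_nonneg fun _ _ => by positivity) (by positivity)
    _ = (‖x‖ * ‖y‖) ^ 2 := by ring

variable [CompleteSpace H]

/-- The trace of a nuclear operator. -/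
theorem IntRep.hasSum_trace (h : IntRep ν u v T) {J : Type} (b : HilbertBasis J ℂ H) :
    HasSum (fun j => ⟪b j, T (b j)⟫_ℂ) (∫ a, ⟪v a, u a⟫_ℂ ∂ν) := by
  classical
  -- matrix elements
  have e0 : ∀ j, ⟪b j, T (b j)⟫_ℂ = ∫ a, ⟪v a, b j⟫_ℂ * ⟪b j, u a⟫_ℂ ∂ν := by
    intro j
    rw [h.rep, ← integral_inner (h.integrable_smul (b j))]
    refine integral_congr_ae ?_
    filter_upwards with a
    rw [inner_smul_right]
  obtain ⟨u', hu', huu⟩ := h.mu
  obtain ⟨c, hc, hcc⟩ := hu'.isSeparable_range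
  -- the relevant indices
  set S : Set J := ⋃ x ∈ c, {j | ⟪b j, x⟫_ℂ ≠ 0} with hS
  have hSc : S.Countable := by
    refine hc.biUnion fun x _ => ?_
    have := (b.orthonormal.inner_products_summable x).countable_support
    refine this.mono fun j hj => ?_
    simp only [Function.mem_support, ne_eq, OfNat.ofNat_ne_zero, not_false_eq_true,
      pow_eq_zero_iff, norm_eq_zero]
    exact hj
  have hz : ∀ j, j ∉ S → ∀ a, ⟪b j, u' a⟫_ℂ = 0 := by
    intro j hj a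
    have hcl : IsClosed {x : H | ⟪b j, x⟫_ℂ = 0} :=
      isClosed_eq (continuous_const.inner continuous_id) continuous_const
    have hsub : c ⊆ {x : H | ⟪b j, x⟫_ℂ = 0} := by
      intro x hx
      by_contra hne
      exact hj (Set.mem_biUnion hx hne)
    exact (closure_minimal hsub hcl) (hcc ⟨a, rfl⟩)
  have hz' : ∀ j, j ∉ S → ⟪b j, T (b j)⟫_ℂ = 0 := by
    intro j hj
    rw [e0]
    refine integral_eq_zero_of_ae ?_
    filter_upwards [huu] with a ha
    rw [ha, hz j hj a, mul_zero]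
    rfl
  rw [← hasSum_subtype_iff_of_support_subset (s := S)]
  swap
  · intro j hj
    by_contra hne
    exact hj (hz' j hne)
  have : Countable S := hSc.to_subtype
  have h1 : ∀ j : S, Integrable (fun a => ⟪v a, b j⟫_ℂ * ⟪b j, u a⟫_ℂ) ν := fun j =>
    h.integrable_inner _ _
  have h2 : Summable fun j : S => ∫ a, ‖⟪v a, b j⟫_ℂ * ⟪b j, u a⟫_ℂ‖ ∂ν := by
    refine summable_of_sum_le (c := ∫ a, ‖u a‖ * ‖v a‖ ∂ν)
      (fun j => integral_nonneg fun a => norm_nonneg _) fun s => ?_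
    rw [← integral_finsetSum _ fun j _ => (h1 j).norm]
    refine integral_mono_ae (integrable_finsetSum _ fun j _ => (h1 j).norm) h.int ?_
    filter_upwards with a
    have ho : Orthonormal ℂ fun j : S => b j := b.orthonormal.comp _ Subtype.val_injective
    exact (sum_inner_mul_le ho s (v a) (u a)).trans (le_of_eq (mul_comm _ _))
  have h3 := hasSum_integral_of_summable_integral_norm h1 h2
  have e1 : ∫ a, ∑' j : S, ⟪v a, b j⟫_ℂ * ⟪b j, u a⟫_ℂ ∂ν = ∫ a, ⟪v a, u a⟫_ℂ ∂ν := by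
    refine integral_congr_ae ?_
    filter_upwards [huu] with a ha
    have h4 := b.hasSum_inner_mul_inner (v a) (u a)
    rw [← hasSum_subtype_iff_of_support_subset (s := S)] at h4
    · exact h4.tsum_eq
    · intro j hj
      by_contra hne
      refine hj ?_
      simp only
      rw [ha, hz j hne a, mul_zero]
  rw [e1] at h3
  have e3 : (fun j : S => ⟪b j, T (b j)⟫_ℂ)
      = fun j : S => ∫ a, ⟪v a, b j⟫_ℂ * ⟪b j, u a⟫_ℂ ∂ν := funext fun j => e0 j
  change HasSum (fun j : S => ⟪b j, T (b j)⟫_ℂ) _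
  rw [e3]
  exact h3

theorem IntRep.left (h : IntRep ν u v T) (A : H →L[ℂ] H) :
    IntRep ν (fun a => A (u a)) v (A * T) where
  mu := A.continuous.comp_aestronglyMeasurable h.mu
  mv := h.mv
  int := by
    refine (h.int.const_mul ‖A‖).mono' ((A.continuous.comp_aestronglyMeasurable h.mu).norm.mul
      h.mv.norm) ?_
    filter_upwards with a
    rw [Real.norm_of_nonneg (by positivity)]
    calc ‖A (u a)‖ * ‖v a‖ ≤ (‖A‖ * ‖u a‖) * ‖v a‖ := by gcongr; exact A.le_opNorm _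
      _ = ‖A‖ * (‖u a‖ * ‖v a‖) := by ring
  rep x := by
    rw [mul_apply_eq_comp, h.rep, ← A.integral_comp_comm (h.integrable_smul x)]
    simp only [map_smul]

theorem IntRep.right (h : IntRep ν u v T) (A : H →L[ℂ] H) :
    IntRep ν u (fun a => A.adjoint (v a)) (T * A) where
  mu := h.mu
  mv := A.adjoint.continuous.comp_aestronglyMeasurable h.mv
  int := by
    refine (h.int.const_mul ‖A.adjoint‖).mono' (h.mu.norm.mul
      (A.adjoint.continuous.comp_aestronglyMeasurable h.mv).norm) ?_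
    filter_upwards with a
    rw [Real.norm_of_nonneg (by positivity)]
    calc ‖u a‖ * ‖A.adjoint (v a)‖ ≤ ‖u a‖ * (‖A.adjoint‖ * ‖v a‖) := by
          gcongr; exact A.adjoint.le_opNorm _
      _ = ‖A.adjoint‖ * (‖u a‖ * ‖v a‖) := by ring
  rep x := by
    rw [mul_apply_eq_comp, h.rep]
    simp only [ContinuousLinearMap.adjoint_inner_left]

/-- `T` is a finite sum of integrals of operators of rank one, with nuclear norm at most `c`. -/
def NucLe (ν : Measure α) (T : H →L[ℂ] H) (c : ℝ) : Prop :=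
  ∃ (m : ℕ) (u v : Fin m → α → H) (S : Fin m → H →L[ℂ] H),
    (∀ i, IntRep ν (u i) (v i) (S i)) ∧ T = ∑ i, S i ∧ ∑ i, ∫ a, ‖u i a‖ * ‖v i a‖ ∂ν ≤ c

theorem IntRep.nucLe (h : IntRep ν u v T) : NucLe ν T (∫ a, ‖u a‖ * ‖v a‖ ∂ν) :=
  ⟨1, fun _ => u, fun _ => v, fun _ => T, fun _ => h, by simp, by simp⟩

theorem NucLe.mono {c c' : ℝ} (h : NucLe ν T c) (hc : c ≤ c') : NucLe ν T c' := by
  obtain ⟨m, u, v, S, h1, h2, h3⟩ := h
  exact ⟨m, u, v, S, h1, h2, h3.trans hc⟩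

theorem NucLe.zero : NucLe ν (0 : H →L[ℂ] H) 0 :=
  ⟨0, fun _ _ => 0, fun _ _ => 0, fun _ => 0, fun i => i.elim0, by simp, by simp⟩

theorem NucLe.add {T' : H →L[ℂ] H} {c c' : ℝ} (h : NucLe ν T c) (h' : NucLe ν T' c') :
    NucLe ν (T + T') (c + c') := by
  obtain ⟨m, u, v, S, h1, h2, h3⟩ := h
  obtain ⟨m', u', v', S', h1', h2', h3'⟩ := h'
  refine ⟨m + m', Fin.append u u', Fin.append v v', Fin.append S S', fun i => ?_, ?_, ?_⟩
  · refine Fin.addCases (fun i => ?_) (fun i => ?_) i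
    · simp only [Fin.append_left]
      exact h1 i
    · simp only [Fin.append_right]
      exact h1' i
  · rw [Fin.sum_univ_add]
    simp only [Fin.append_left, Fin.append_right]
    rw [h2, h2']
  · rw [Fin.sum_univ_add]
    simp only [Fin.append_left, Fin.append_right]
    exact add_le_add h3 h3'

theorem NucLe.nonneg {c : ℝ} (h : NucLe ν T c) : 0 ≤ c := by
  obtain ⟨m, u, v, S, h1, h2, h3⟩ := h
  exact (Finset.sum_nonneg fun i _ => integral_nonneg fun a => by positivity).trans h3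

theorem NucLe.left {c : ℝ} (h : NucLe ν T c) (A : H →L[ℂ] H) : NucLe ν (A * T) (‖A‖ * c) := by
  obtain ⟨m, u, v, S, h1, h2, h3⟩ := h
  refine ⟨m, fun i a => A (u i a), v, fun i => A * S i, fun i => (h1 i).left A, ?_, ?_⟩
  · rw [h2, Finset.mul_sum]
  · refine le_trans ?_ (mul_le_mul_of_nonneg_left h3 (norm_nonneg A))
    rw [Finset.mul_sum]
    refine Finset.sum_le_sum fun i _ => ?_
    rw [← integral_const_mul]
    refine integral_mono_ae ((h1 i).left A).int ((h1 i).int.const_mul _) ?_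
    filter_upwards with a
    calc ‖A (u i a)‖ * ‖v i a‖ ≤ (‖A‖ * ‖u i a‖) * ‖v i a‖ := by gcongr; exact A.le_opNorm _
      _ = ‖A‖ * (‖u i a‖ * ‖v i a‖) := by ring

theorem NucLe.right {c : ℝ} (h : NucLe ν T c) (A : H →L[ℂ] H) : NucLe ν (T * A) (‖A‖ * c) := by
  obtain ⟨m, u, v, S, h1, h2, h3⟩ := h
  refine ⟨m, u, fun i a => A.adjoint (v i a), fun i => S i * A, fun i => (h1 i).right A, ?_, ?_⟩
  · rw [h2, Finset.sum_mul]
  · refine le_trans ?_ (mul_le_mul_of_nonneg_left h3 (norm_nonneg A))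
    rw [Finset.mul_sum]
    refine Finset.sum_le_sum fun i _ => ?_
    rw [← integral_const_mul]
    refine integral_mono_ae ((h1 i).right A).int ((h1 i).int.const_mul _) ?_
    filter_upwards with a
    have : ‖A.adjoint‖ = ‖A‖ := ContinuousLinearMap.adjoint.norm_map A
    calc ‖u i a‖ * ‖A.adjoint (v i a)‖ ≤ ‖u i a‖ * (‖A.adjoint‖ * ‖v i a‖) := by
          gcongr; exact A.adjoint.le_opNorm _
      _ = ‖A‖ * (‖u i a‖ * ‖v i a‖) := by rw [this]; ring

theorem NucLe.smul {c : ℝ} (h : NucLe ν T c) (z : ℂ) : NucLe ν (z • T) (‖z‖ * c) := by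
  have h1 := h.left (z • (1 : H →L[ℂ] H))
  rw [smul_mul_assoc, one_mul] at h1
  refine h1.mono (mul_le_mul_of_nonneg_right ?_ h.nonneg)
  refine ContinuousLinearMap.opNorm_le_bound _ (norm_nonneg z) fun x => ?_
  simp [norm_smul]

/-- A Hilbert basis. -/
noncomputable def hb (H : Type) [NormedAddCommGroup H] [InnerProductSpace ℂ H] [CompleteSpace H] :
    HilbertBasis (exists_hilbertBasis ℂ H).choose ℂ H := (exists_hilbertBasis ℂ H).choose_spec.choose

/-- The trace. -/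
noncomputable def tr (T : H →L[ℂ] H) : ℂ := ∑' j, ⟪hb H j, T (hb H j)⟫_ℂ

theorem IntRep.tr_eq (h : IntRep ν u v T) : tr T = ∫ a, ⟪v a, u a⟫_ℂ ∂ν :=
  (h.hasSum_trace (hb H)).tsum_eq

theorem NucLe.hasSum {c : ℝ} (h : NucLe ν T c) :
    HasSum (fun j => ⟪hb H j, T (hb H j)⟫_ℂ) (tr T) := by
  obtain ⟨m, u, v, S, h1, h2, h3⟩ := h
  have h4 : HasSum (fun j => ∑ i, ⟪hb H j, S i (hb H j)⟫_ℂ) (∑ i, ∫ a, ⟪v i a, u i a⟫_ℂ ∂ν) :=
    hasSum_sum fun i _ => (h1 i).hasSum_trace (hb H)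
  have h5 : (fun j => ⟪hb H j, T (hb H j)⟫_ℂ) = fun j => ∑ i, ⟪hb H j, S i (hb H j)⟫_ℂ := by
    funext j
    rw [h2, sum_apply, inner_sum]
  rw [tr, h5]
  exact h4.summable.hasSum

theorem tr_add {T' : H →L[ℂ] H} {c c' : ℝ} (h : NucLe ν T c) (h' : NucLe ν T' c') :
    tr (T + T') = tr T + tr T' := by
  refine ((h.add h').hasSum).unique ?_
  have := h.hasSum.add h'.hasSum
  simpa only [add_apply, inner_add_right] using this

theorem tr_smul {c : ℝ} (h : NucLe ν T c) (z : ℂ) : tr (z • T) = z * tr T := by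
  refine ((h.smul z).hasSum).unique ?_
  have := h.hasSum.mul_left z
  simpa only [smul_apply, inner_smul_right] using this

theorem tr_eq_sum {m : ℕ} {u v : Fin m → α → H} {S : Fin m → H →L[ℂ] H}
    (h1 : ∀ i, IntRep ν (u i) (v i) (S i)) :
    tr (∑ i, S i) = ∑ i, ∫ a, ⟪v i a, u i a⟫_ℂ ∂ν := by
  have h4 : HasSum (fun j => ∑ i, ⟪hb H j, S i (hb H j)⟫_ℂ) (∑ i, ∫ a, ⟪v i a, u i a⟫_ℂ ∂ν) :=
    hasSum_sum fun i _ => (h1 i).hasSum_trace (hb H)
  rw [tr, ← h4.tsum_eq]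
  refine tsum_congr fun j => ?_
  rw [sum_apply, inner_sum]

theorem NucLe.norm_tr_le {c : ℝ} (h : NucLe ν T c) : ‖tr T‖ ≤ c := by
  obtain ⟨m, u, v, S, h1, h2, h3⟩ := h
  rw [h2, tr_eq_sum h1]
  refine (norm_sum_le _ _).trans (le_trans (Finset.sum_le_sum fun i _ => ?_) h3)
  refine (norm_integral_le_integral_norm _).trans ?_
  refine integral_mono_ae (h1 i).integrable_trace.norm (h1 i).int ?_
  filter_upwards with a
  exact (norm_inner_le_norm (𝕜 := ℂ) (v i a) (u i a)).trans (le_of_eq (mul_comm _ _))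

/-- The trace property. -/
theorem NucLe.tr_comm {c : ℝ} (h : NucLe ν T c) (A : H →L[ℂ] H) : tr (A * T) = tr (T * A) := by
  obtain ⟨m, u, v, S, h1, h2, h3⟩ := h
  rw [h2, Finset.mul_sum, Finset.sum_mul, tr_eq_sum fun i => (h1 i).left A,
    tr_eq_sum fun i => (h1 i).right A]
  refine Finset.sum_congr rfl fun i _ => integral_congr_ae ?_
  filter_upwards with a
  rw [ContinuousLinearMap.adjoint_inner_left]

end

end Vale.Agent.P223.H691
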