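import Vale.Agent.P223.H691.Fou
import Vale.Agent.P223.H691.TC

/-! Localised operators are integrals of operators of rank one. -/

namespace Vale.Agent.P223.H691

open scoped ContDiff InnerProductSpace
open Complex MeasureTheory

/-! ### existence -/
section
variable {H : Type} [NormedAddCommGroup H] [InnerProductSpace ℂ H] [CompleteSpace H]
  {α : Type} [MeasurableSpace α] {ν : Measure α}

omit [CompleteSpace H] in
theorem exists_intRep {u v : α → H} (mu : AEStronglyMeasurable u ν)
    (mv : AEStronglyMeasurable v ν) (int : Integrable (fun a => ‖u a‖ * ‖v a‖) ν) :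
    ∃ T : H →L[ℂ] H, IntRep ν u v T := by
  have hi : ∀ x, Integrable (fun a => ⟪v a, x⟫_ℂ • u a) ν := by
    intro x
    refine (int.mul_const ‖x‖).mono' ((mv.inner aestronglyMeasurable_const).smul mu) ?_
    filter_upwards with a
    rw [norm_smul]
    have := norm_inner_le_norm (𝕜 := ℂ) (v a) x
    calc ‖⟪v a, x⟫_ℂ‖ * ‖u a‖ ≤ (‖v a‖ * ‖x‖) * ‖u a‖ := by gcongr
      _ = ‖u a‖ * ‖v a‖ * ‖x‖ := by ring
  refine ⟨LinearMap.mkContinuous
    { toFun := fun x => ∫ a, ⟪v a, x⟫_ℂ • u a ∂ν
      map_add' := fun x y => by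
        rw [← integral_add (hi x) (hi y)]
        simp only [inner_add_right, add_smul]
      map_smul' := fun c x => by
        rw [RingHom.id_apply, ← integral_smul]
        simp only [inner_smul_right, smul_smul] } (∫ a, ‖u a‖ * ‖v a‖ ∂ν) fun x => ?_,
    mu, mv, int, fun x => rfl⟩
  change ‖∫ a, ⟪v a, x⟫_ℂ • u a ∂ν‖ ≤ _
  rw [← integral_mul_const]
  refine norm_integral_le_of_norm_le (int.mul_const _) ?_
  filter_upwards with a
  rw [norm_smul]
  have := norm_inner_le_norm (𝕜 := ℂ) (v a) x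
  calc ‖⟪v a, x⟫_ℂ‖ * ‖u a‖ ≤ (‖v a‖ * ‖x‖) * ‖u a‖ := by gcongr
    _ = ‖u a‖ * ‖v a‖ * ‖x‖ := by ring

end

section
variable {n : ℕ} {V : Type} [NormedAddCommGroup V] [InnerProductSpace ℂ V]
  {H : Type} [NormedAddCommGroup H] [InnerProductSpace ℂ H] {C : Type}

/-- `loc` describes functions supported in `K` as elements of `H`; `rep c` is the local expression
of the element `e c` of a dense set. -/
structure LocRep (K : Set (E n)) (dens : E n → ℝ) (e : C → H) (rep : C → E n → V)
    (loc : (E n → V) → H) : Prop where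
  compact : IsCompact K
  dense : DenseRange e
  dens_smooth : ContDiff ℝ ∞ dens
  dens_pos : ∀ y, 0 < dens y
  rep_smooth : ∀ c, ContDiff ℝ ∞ (rep c)
  inner : ∀ f ∈ CS K V, ∀ c, ⟪loc f, e c⟫_ℂ = ∫ y, (dens y : ℂ) * ⟪f y, rep c y⟫_ℂ
  norm : ∀ f ∈ CS K V, ‖loc f‖ ^ 2 = ∫ y, dens y * ‖f y‖ ^ 2

variable {K : Set (E n)} {dens : E n → ℝ} {e : C → H} {rep : C → E n → V}
  {loc : (E n → V) → H}

theorem CS.hcs (hK : IsCompact K) {f : E n → V} (hf : f ∈ CS K V) : HasCompactSupport f :=
  HasCompactSupport.intro hK fun x hx => hf.2 x hx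

theorem LocRep.ext (h : LocRep K dens e rep loc) {x y : H}
    (hxy : ∀ c, ⟪x, e c⟫_ℂ = ⟪y, e c⟫_ℂ) : x = y := by
  refine ext_inner_right ℂ fun z => ?_
  have h1 : Continuous fun z : H => ⟪x, z⟫_ℂ := continuous_const.inner continuous_id
  have h2 : Continuous fun z : H => ⟪y, z⟫_ℂ := continuous_const.inner continuous_id
  exact congrFun (h.dense.equalizer h1 h2 (funext hxy)) z

theorem LocRep.ext' (h : LocRep K dens e rep loc) {x y : H}
    (hxy : ∀ c, ⟪e c, x⟫_ℂ = ⟪e c, y⟫_ℂ) : x = y :=
  h.ext fun c => by rw [← inner_conj_symm, hxy, inner_conj_symm]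

theorem LocRep.inner' (h : LocRep K dens e rep loc) {f : E n → V} (hf : f ∈ CS K V) (c : C) :
    ⟪e c, loc f⟫_ℂ = ∫ y, (dens y : ℂ) * ⟪rep c y, f y⟫_ℂ := by
  rw [← inner_conj_symm, h.inner f hf, ← integral_conj]
  simp only [map_mul, conj_ofReal, inner_conj_symm]

theorem LocRep.integrable_inner (h : LocRep K dens e rep loc) {f : E n → V} (hf : f ∈ CS K V)
    (c : C) : Integrable fun y => (dens y : ℂ) * ⟪f y, rep c y⟫_ℂ := by
  refine Continuous.integrable_of_hasCompactSupport ?_ ?_
  · exact (continuous_ofReal.comp h.dens_smooth.continuous).mul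
      (hf.1.continuous.inner (h.rep_smooth c).continuous)
  · refine HasCompactSupport.intro h.compact fun x hx => ?_
    rw [hf.2 x hx, inner_zero_left, mul_zero]

theorem LocRep.integrable_inner' (h : LocRep K dens e rep loc) {f : E n → V} (hf : f ∈ CS K V)
    (c : C) : Integrable fun y => (dens y : ℂ) * ⟪rep c y, f y⟫_ℂ := by
  refine Continuous.integrable_of_hasCompactSupport ?_ ?_
  · exact (continuous_ofReal.comp h.dens_smooth.continuous).mul
      ((h.rep_smooth c).continuous.inner hf.1.continuous)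
  · refine HasCompactSupport.intro h.compact fun x hx => ?_
    rw [hf.2 x hx, inner_zero_right, mul_zero]

theorem LocRep.add (h : LocRep K dens e rep loc) {f g : E n → V} (hf : f ∈ CS K V)
    (hg : g ∈ CS K V) : loc (f + g) = loc f + loc g := by
  refine h.ext fun c => ?_
  rw [inner_add_left, h.inner _ ((CS K V).add_mem hf hg), h.inner _ hf, h.inner _ hg,
    ← integral_add (h.integrable_inner hf c) (h.integrable_inner hg c)]
  simp only [Pi.add_apply, inner_add_left, mul_add]

theorem LocRep.smul (h : LocRep K dens e rep loc) {f : E n → V} (hf : f ∈ CS K V) (a : ℂ) :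
    loc (a • f) = a • loc f := by
  refine h.ext fun c => ?_
  rw [inner_smul_left, h.inner _ ((CS K V).smul_mem a hf), h.inner _ hf, ← integral_const_mul]
  simp only [Pi.smul_apply, inner_smul_left]
  congr 1
  funext y
  ring

theorem LocRep.sub (h : LocRep K dens e rep loc) {f g : E n → V} (hf : f ∈ CS K V)
    (hg : g ∈ CS K V) : loc (f - g) = loc f - loc g := by
  have h1 : f - g = f + (-1 : ℂ) • g := by rw [neg_smul, one_smul, sub_eq_add_neg]
  rw [h1, h.add hf ((CS K V).smul_mem _ hg), h.smul hg, neg_smul, one_smul, sub_eq_add_neg]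

theorem LocRep.norm_le (h : LocRep K dens e rep loc) :
    ∃ A, 0 ≤ A ∧ ∀ f ∈ CS K V, ∀ a, 0 ≤ a → (∀ x, ‖f x‖ ≤ a) → ‖loc f‖ ≤ A * a := by
  have hd : IntegrableOn dens K := h.dens_smooth.continuous.continuousOn.integrableOn_compact
    h.compact
  have h0 : 0 ≤ ∫ y in K, dens y := setIntegral_nonneg h.compact.measurableSet
    fun y _ => (h.dens_pos y).le
  refine ⟨Real.sqrt (∫ y in K, dens y), Real.sqrt_nonneg _, fun f hf a ha hfa => ?_⟩
  have h1 := h.norm f hf
  have h2 : ∫ y, dens y * ‖f y‖ ^ 2 = ∫ y in K, dens y * ‖f y‖ ^ 2 := by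
    rw [setIntegral_eq_integral_of_forall_compl_eq_zero]
    intro x hx
    rw [hf.2 x hx]; simp
  have h3 : ∫ y in K, dens y * ‖f y‖ ^ 2 ≤ ∫ y in K, dens y * a ^ 2 := by
    refine integral_mono_ae ?_ (hd.mul_const _) ?_
    · refine ContinuousOn.integrableOn_compact h.compact ?_
      exact (h.dens_smooth.continuous.mul (hf.1.continuous.norm.pow 2)).continuousOn
    · filter_upwards with y
      have := h.dens_pos y
      have := hfa y
      gcongr
  rw [h2] at h1
  rw [integral_mul_const] at h3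
  have h4 : ‖loc f‖ ^ 2 ≤ (Real.sqrt (∫ y in K, dens y) * a) ^ 2 := by
    rw [h1, mul_pow, Real.sq_sqrt h0]
    exact h3
  exact abs_le_of_sq_le_sq h4 (by positivity) |>.trans' (le_abs_self _)

theorem CS.pw_mem {f : E n → V} (hf : f ∈ CS K V) (k : E n) : pw k f ∈ CS K V := by
  refine ⟨contDiff_pw _ hf.1, fun x hx => ?_⟩
  show ew k x • f x = 0
  rw [hf.2 x hx, smul_zero]

theorem LocRep.norm_pw (h : LocRep K dens e rep loc) {f : E n → V} (hf : f ∈ CS K V) (k : E n) :
    ‖loc (pw k f)‖ = ‖loc f‖ := by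
  have h1 := h.norm _ (CS.pw_mem hf k)
  simp only [H691.norm_pw] at h1
  rw [← h.norm f hf] at h1
  exact (sq_eq_sq₀ (norm_nonneg _) (norm_nonneg _)).1 h1

theorem continuous_dt : Continuous fun q : E n × E n => dt q.1 q.2 := by
  unfold dt; fun_prop

theorem continuous_ew : Continuous fun q : E n × E n => ew q.1 q.2 := by
  have := continuous_dt (n := n)
  unfold ew; fun_prop

theorem LocRep.continuous_pw (h : LocRep K dens e rep loc) {f : E n → V} (hf : f ∈ CS K V) :
    Continuous fun k => loc (pw k f) := by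
  refine continuous_iff_continuousAt.2 fun k₀ => ?_
  refine tendsto_iff_norm_sub_tendsto_zero.2 ?_
  have h1 : ∀ k, ‖loc (pw k f) - loc (pw k₀ f)‖ =
      Real.sqrt (∫ y, dens y * ‖(ew k y - ew k₀ y) • f y‖ ^ 2) := by
    intro k
    have m1 := CS.pw_mem hf k
    have m2 := CS.pw_mem hf k₀
    have h2 := h.norm _ ((CS K V).sub_mem m1 m2)
    have h3 : ∀ y, (pw k f - pw k₀ f) y = (ew k y - ew k₀ y) • f y := fun y => by
      simp only [Pi.sub_apply, pw, sub_smul]
    simp only [h3] at h2
    rw [← h2, ← h.sub m1 m2, Real.sqrt_sq (norm_nonneg _)]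
  simp only [h1]
  have h5 : Real.sqrt (∫ y, dens y * ‖(ew k₀ y - ew k₀ y) • f y‖ ^ 2) = 0 := by simp
  rw [← h5]
  refine (Real.continuous_sqrt.tendsto _).comp ?_
  refine ContinuousAt.tendsto (f := fun k => ∫ y, dens y * ‖(ew k y - ew k₀ y) • f y‖ ^ 2) ?_
  refine continuousAt_of_dominated (bound := fun y => dens y * (4 * ‖f y‖ ^ 2)) ?_ ?_ ?_ ?_
  · refine Filter.Eventually.of_forall fun k => ?_
    have c1 : Continuous fun y => ew k y := continuous_ew.comp (by fun_prop :
      Continuous fun y : E n => (k, y))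
    have c2 : Continuous fun y => ew k₀ y := continuous_ew.comp (by fun_prop :
      Continuous fun y : E n => (k₀, y))
    exact (h.dens_smooth.continuous.mul
      (((c1.sub c2).smul hf.1.continuous).norm.pow 2)).aestronglyMeasurable
  · refine Filter.Eventually.of_forall fun k => ?_
    filter_upwards with y
    have hp := h.dens_pos y
    rw [Real.norm_of_nonneg (by positivity), norm_smul, mul_pow]
    have h6 : ‖ew k y - ew k₀ y‖ ≤ 2 := by
      refine (norm_sub_le _ _).trans ?_
      rw [norm_ew, norm_ew]; norm_num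
    have h7 : ‖ew k y - ew k₀ y‖ ^ 2 ≤ 4 := by nlinarith [norm_nonneg (ew k y - ew k₀ y)]
    gcongr
  · refine Continuous.integrable_of_hasCompactSupport ?_ ?_
    · exact h.dens_smooth.continuous.mul (continuous_const.mul (hf.1.continuous.norm.pow 2))
    · refine HasCompactSupport.intro h.compact fun x hx => ?_
      rw [hf.2 x hx]; simp
  · filter_upwards with y
    have c1 : Continuous fun k => ew k y := continuous_ew.comp (by fun_prop :
      Continuous fun k : E n => (k, y))
    fun_prop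

end

/-! ### the formula -/
section
variable {n : ℕ} {V : Type} [NormedAddCommGroup V] [InnerProductSpace ℂ V]
  {H : Type} [NormedAddCommGroup H] [InnerProductSpace ℂ H] [CompleteSpace H] {C : Type}
  {K : Set (E n)} {dens : E n → ℝ} {e : C → H} {rep : C → E n → V}
  {loc : (E n → V) → H}

theorem CS.fmul_mem {f : E n → ℝ} (hf : ContDiff ℝ ∞ f) (hs : ∀ x, x ∉ K → f x = 0)
    {g : E n → V} (hg : ContDiff ℝ ∞ g) : (fun y => (f y : ℂ) • g y) ∈ CS K V :=
  ⟨(ofRealCLM.contDiff.comp hf).smul hg, fun x hx => by simp only [hs x hx, ofReal_zero, zero_smul]⟩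

variable {ι : Type} [Fintype ι] (b : OrthonormalBasis ι ℂ V)

/-- Fourier expansion of `loc f` -/
theorem LocRep.expand [FiniteDimensional ℂ V] (h : LocRep K dens e rep loc) {χ' : E n → ℝ}
    (hχ' : ContDiff ℝ ∞ χ')
    (hs' : ∀ x, x ∉ K → χ' x = 0) {f : E n → V} (hf : f ∈ CS K V)
    (hff : ∀ x, (χ' x : ℂ) • f x = f x) :
    loc f = (((2 * Real.pi) ^ n)⁻¹ : ℝ) •
      ∫ k, ∑ s, ⟪b s, ft f k⟫_ℂ • loc (pw k fun y => (χ' y : ℂ) • b s) := by
  have hfi : Integrable (ft f) := ft_integrable hf.1 (CS.hcs h.compact hf)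
  have hm : ∀ s, (fun y => (χ' y : ℂ) • b s) ∈ CS K V := fun s =>
    CS.fmul_mem hχ' hs' contDiff_const
  have hint : ∀ s, Integrable fun k => ⟪b s, ft f k⟫_ℂ • loc (pw k fun y => (χ' y : ℂ) • b s) := by
    intro s
    have h1 : Integrable fun k => ⟪b s, ft f k⟫_ℂ := hfi.const_inner (b s)
    refine (h1.norm.mul_const ‖loc (fun y => (χ' y : ℂ) • b s)‖).mono'
      (h1.aestronglyMeasurable.smul (h.continuous_pw (hm s)).aestronglyMeasurable) ?_
    filter_upwards with k
    rw [norm_smul, h.norm_pw (hm s)]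
  refine h.ext' fun c => ?_
  have e1 : ⟪e c, (((2 * Real.pi) ^ n)⁻¹ : ℝ) •
      ∫ k, ∑ s, ⟪b s, ft f k⟫_ℂ • loc (pw k fun y => (χ' y : ℂ) • b s)⟫_ℂ =
      (((2 * Real.pi) ^ n)⁻¹ : ℝ) * ∫ k, ∫ y, (dens y : ℂ) *
        ⟪rep c y, ew k y • (χ' y : ℂ) • ft f k⟫_ℂ := by
    rw [← Complex.coe_smul, inner_smul_right,
      ← integral_inner (integrable_finsetSum _ fun s _ => hint s)]
    congr 2
    funext k
    rw [inner_sum]
    simp only [inner_smul_right, h.inner' (CS.pw_mem (hm _) k) c]
    have e2 : ∀ s, ⟪b s, ft f k⟫_ℂ * ∫ y, (dens y : ℂ) *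
        ⟪rep c y, pw k (fun y => (χ' y : ℂ) • b s) y⟫_ℂ =
        ∫ y, ⟪b s, ft f k⟫_ℂ * ((dens y : ℂ) *
        ⟪rep c y, pw k (fun y => (χ' y : ℂ) • b s) y⟫_ℂ) := fun s =>
      (integral_const_mul _ _).symm
    simp only [e2]
    rw [← integral_finsetSum]
    · congr 1
      funext y
      have e3 : ft f k = ∑ s, ⟪b s, ft f k⟫_ℂ • b s := (b.sum_repr' _).symm
      conv_rhs => rw [e3]
      simp only [inner_sum, inner_smul_right, pw, Finset.mul_sum]
      refine Finset.sum_congr rfl fun s _ => ?_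
      ring
    · intro s _
      refine Integrable.const_mul ?_ _
      exact h.integrable_inner' (CS.pw_mem (hm s) k) c
  rw [e1, h.inner' hf, integral_integral_swap]
  · rw [← integral_const_mul]
    congr 1
    funext y
    have e4 : ∀ k, (dens y : ℂ) * ⟪rep c y, ew k y • (χ' y : ℂ) • ft f k⟫_ℂ =
        ((dens y : ℂ) * (χ' y : ℂ)) * ⟪rep c y, ew k y • ft f k⟫_ℂ := by
      intro k
      rw [inner_smul_right, inner_smul_right, inner_smul_right]
      ring
    have hi : Integrable fun k => ew k y • ft f k := by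
      refine hfi.norm.mono' ?_ ?_
      · refine Continuous.aestronglyMeasurable ?_ |>.smul hfi.aestronglyMeasurable
        exact continuous_ew.comp (by fun_prop : Continuous fun k : E n => (k, y))
      · filter_upwards with k
        rw [norm_smul, norm_ew, one_mul]
    simp only [e4]
    rw [integral_const_mul, integral_inner hi]
    have e5 := ft_inv hf.1 (CS.hcs h.compact hf) y
    have e6 : ∫ k, ew k y • ft f k = (((2 * Real.pi) ^ n : ℝ) : ℂ) • f y := by
      rw [e5, Complex.coe_smul, smul_smul, mul_inv_cancel₀ (by positivity), one_smul]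
    have e7 : ((((2 * Real.pi) ^ n)⁻¹ : ℝ) : ℂ) * (((2 * Real.pi) ^ n : ℝ) : ℂ) = 1 := by
      rw [← ofReal_mul, inv_mul_cancel₀ (by positivity), ofReal_one]
    rw [e6, inner_smul_right]
    conv_lhs => rw [← hff y, inner_smul_right]
    linear_combination (-(dens y : ℂ) * χ' y * ⟪rep c y, f y⟫_ℂ) * e7
  · -- integrability
    have h1 : Integrable fun y => (dens y * |χ' y|) * ‖rep c y‖ := by
      refine Continuous.integrable_of_hasCompactSupport ?_ ?_
      · exact (h.dens_smooth.continuous.mul hχ'.continuous.abs).mul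
          (h.rep_smooth c).continuous.norm
      · refine HasCompactSupport.intro h.compact fun x hx => ?_
        rw [hs' x hx]; simp
    refine (hfi.norm.mul_prod h1).mono' ?_ ?_
    · have c1 : Continuous fun q : E n × E n => (dens q.2 : ℂ) := by
        exact continuous_ofReal.comp (h.dens_smooth.continuous.comp continuous_snd)
      have c2 : Continuous fun q : E n × E n => (χ' q.2 : ℂ) := by
        exact continuous_ofReal.comp (hχ'.continuous.comp continuous_snd)
      have c3 : Continuous fun q : E n × E n => rep c q.2 :=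
        (h.rep_smooth c).continuous.comp continuous_snd
      refine c1.aestronglyMeasurable.mul (c3.aestronglyMeasurable.inner
        (continuous_ew.aestronglyMeasurable.smul (c2.aestronglyMeasurable.smul ?_)))
      exact hfi.aestronglyMeasurable.comp_fst
    · filter_upwards with q
      have hp := h.dens_pos q.2
      simp only [Function.uncurry]
      rw [norm_mul]
      have h2 := norm_inner_le_norm (𝕜 := ℂ) (rep c q.2) (ew q.1 q.2 • (χ' q.2 : ℂ) • ft f q.1)
      rw [norm_smul, norm_smul, norm_ew, one_mul, Complex.norm_real, Real.norm_eq_abs] at h2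
      rw [Complex.norm_real, Real.norm_of_nonneg hp.le]
      calc dens q.2 * ‖⟪rep c q.2, ew q.1 q.2 • (χ' q.2 : ℂ) • ft f q.1⟫_ℂ‖
          ≤ dens q.2 * (‖rep c q.2‖ * (|χ' q.2| * ‖ft f q.1‖)) := by gcongr
        _ = ‖ft f q.1‖ * (dens q.2 * |χ' q.2| * ‖rep c q.2‖) := by ring

/-- The left vectors. -/
noncomputable def vv (dens : E n → ℝ) (loc : (E n → V) → H) (χ : E n → ℝ) (b : ι → V) (s : ι)
    (k : E n) : H :=
  ((((2 * Real.pi) ^ n)⁻¹ : ℝ) : ℂ) • loc (pw k fun y => ((χ y / dens y : ℝ) : ℂ) • b s)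

/-- The right vectors. -/
noncomputable def uu (loc : (E n → V) → H) (χ' : E n → ℝ) (b : ι → V) (s : ι) (k : E n) : H :=
  loc (pw k fun y => (χ' y : ℂ) • b s)

/-- Multiplication by `χ` followed by an operator `A` which decays on plane waves is nuclear. -/
theorem LocRep.nuclear' [FiniteDimensional ℂ V] (h : LocRep K dens e rep loc) {χ χ' : E n → ℝ}
    (hχ : ContDiff ℝ ∞ χ) (hχ' : ContDiff ℝ ∞ χ') (hs : ∀ x, x ∉ K → χ x = 0)
    (hs' : ∀ x, x ∉ K → χ' x = 0) (hχχ : ∀ x, χ' x * χ x = χ x) {A : H →L[ℂ] H}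
    (hA : ∀ s, Integrable fun k => ‖A (uu loc χ' b s k)‖) :
    ∃ T : ι → H →L[ℂ] H, (∀ c, A (loc fun y => (χ y : ℂ) • rep c y) = ∑ s, T s (e c)) ∧
      ∀ s, IntRep volume (fun k => A (uu loc χ' b s k)) (vv dens loc χ b s) (T s) := by
  have hm' : ∀ s, (fun y => (χ' y : ℂ) • b s) ∈ CS K V := fun s =>
    CS.fmul_mem hχ' hs' contDiff_const
  have hm : ∀ s, (fun y => ((χ y / dens y : ℝ) : ℂ) • b s) ∈ CS K V := fun s =>
    CS.fmul_mem (hχ.div h.dens_smooth fun x => (h.dens_pos x).ne')
      (fun x hx => by rw [Pi.div_apply, hs x hx, zero_div]) contDiff_const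
  have cu : ∀ s, Continuous fun k => A (uu loc χ' b s k) := fun s =>
    A.continuous.comp (h.continuous_pw (hm' s))
  have cv : ∀ s, Continuous (vv dens loc χ b s) := fun s =>
    (h.continuous_pw (hm s)).const_smul _
  have nv : ∀ s k, ‖vv dens loc χ b s k‖ = ‖vv dens loc χ b s 0‖ := fun s k => by
    unfold vv
    rw [norm_smul, norm_smul, h.norm_pw (hm s), h.norm_pw (hm s)]
  have ex : ∀ s, ∃ T : H →L[ℂ] H,
      IntRep volume (fun k => A (uu loc χ' b s k)) (vv dens loc χ b s) T := fun s => by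
    refine exists_intRep (cu s).aestronglyMeasurable (cv s).aestronglyMeasurable ?_
    simp only [nv s]
    exact (hA s).mul_const _
  choose T hT using ex
  refine ⟨T, fun c => ?_, hT⟩
  have hf : (fun y => (χ y : ℂ) • rep c y) ∈ CS K V := CS.fmul_mem hχ hs (h.rep_smooth c)
  have e1 := h.expand b hχ' hs' hf fun x => by
    rw [smul_smul, ← ofReal_mul, hχχ]
  have hfi := ft_integrable hf.1 (CS.hcs h.compact hf)
  rw [e1, ← Complex.coe_smul, map_smul, ← A.integral_comp_comm]
  swap
  · refine integrable_finsetSum _ fun s _ => ?_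
    have h1 : Integrable fun k => ⟪b s, ft (fun y => (χ y : ℂ) • rep c y) k⟫_ℂ :=
      hfi.const_inner (b s)
    refine (h1.norm.mul_const ‖loc (fun y => (χ' y : ℂ) • b s)‖).mono'
      (h1.aestronglyMeasurable.smul (h.continuous_pw (hm' s)).aestronglyMeasurable) ?_
    filter_upwards with k
    rw [norm_smul, h.norm_pw (hm' s)]
  simp only [map_sum, map_smul]
  rw [integral_finsetSum]
  · rw [Finset.smul_sum]
    refine Finset.sum_congr rfl fun s _ => ?_
    rw [(hT s).rep, ← integral_smul]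
    refine integral_congr_ae (Filter.Eventually.of_forall fun k => ?_)
    simp only [uu, vv]
    rw [inner_smul_left, conj_ofReal, smul_smul]
    congr 2
    rw [h.inner _ (CS.pw_mem (hm s) k), ft,
      ← integral_inner]
    · refine integral_congr_ae (Filter.Eventually.of_forall fun y => ?_)
      simp only [pw, inner_smul_left, inner_smul_right, conj_ofReal]
      have h3 : (starRingEnd ℂ) (ew k y) = ew (-k) y := by
        rw [ew_neg, Complex.inv_def, Complex.normSq_eq_norm_sq, norm_ew]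
        simp
      rw [h3, ofReal_div]
      have h4 : (dens y : ℂ) ≠ 0 := by exact_mod_cast (h.dens_pos y).ne'
      field_simp
    · have c1 : Continuous fun y => ew (-k) y := continuous_ew.comp (by fun_prop :
        Continuous fun y : E n => (-k, y))
      refine (c1.smul hf.1.continuous).integrable_of_hasCompactSupport ?_
      refine HasCompactSupport.intro h.compact fun x hx => ?_
      simp [hs x hx]
  · intro s _
    have h1 : Integrable fun k => ⟪b s, ft (fun y => (χ y : ℂ) • rep c y) k⟫_ℂ :=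
      hfi.const_inner (b s)
    refine (h1.norm.mul_const (‖A‖ * ‖loc (fun y => (χ' y : ℂ) • b s)‖)).mono'
      (h1.aestronglyMeasurable.smul (cu s).aestronglyMeasurable) ?_
    filter_upwards with k
    rw [norm_smul]
    gcongr
    refine (A.le_opNorm _).trans ?_
    rw [h.norm_pw (hm' s)]

/-- Multiplication by `χ` followed by an operator `A` which decays on plane waves is nuclear. -/
theorem LocRep.nuclear [FiniteDimensional ℂ V] (h : LocRep K dens e rep loc) {χ χ' : E n → ℝ}
    (hχ : ContDiff ℝ ∞ χ) (hχ' : ContDiff ℝ ∞ χ') (hs : ∀ x, x ∉ K → χ x = 0)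
    (hs' : ∀ x, x ∉ K → χ' x = 0) (hχχ : ∀ x, χ' x * χ x = χ x) {A M : H →L[ℂ] H}
    (hM : ∀ c, M (e c) = loc fun y => (χ y : ℂ) • rep c y)
    (hA : ∀ s, Integrable fun k => ‖A (uu loc χ' b s k)‖) :
    ∃ T : ι → H →L[ℂ] H, A * M = ∑ s, T s ∧
      ∀ s, IntRep volume (fun k => A (uu loc χ' b s k)) (vv dens loc χ b s) (T s) := by
  obtain ⟨T, h1, h2⟩ := h.nuclear' b hχ hχ' hs hs' hχχ hA
  refine ⟨T, ?_, h2⟩
  have hd := h.dense.equalizer (A * M).continuous (∑ s, T s).continuous ?_
  · exact ContinuousLinearMap.ext fun x => congrFun hd x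
  funext c
  simp only [Function.comp_apply, mul_apply_eq_comp, sum_apply, hM]
  exact h1 c

end

end Vale.Agent.P223.H691
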