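import Vale.Agent.P223.H691.PW

/-! Nuclear norms of localised powers of the resolvent. -/

namespace Vale.Agent.P223.H691

open scoped ContDiff InnerProductSpace Topology
open MeasureTheory Vale.Agent.P223.X
open Vale.Agent.P223.H566 (SpX Core Raw IsCore Cliff Ctx Emb Rsv dir dir_congr dir_smul SpecIntS
  SpecLocal mulR Fr WB nm hp SpecSup Gst Cut OpK SpecDecA SpecNuc Nuc)

section
variable {n : ℕ} {M X Γ I : Type} [TopologicalSpace M] [TopologicalSpace X] [Group Γ]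
    [MulAction Γ X] {V : Type} [NormedAddCommGroup V] [InnerProductSpace ℂ V]
    {C : Cov n M X Γ I} {G : I → E n → Matrix (Fin n) (Fin n) ℝ} {K : Cliff n V}
    (S : SpX C G K) [T2Space X]

/-- decomposition of the multiplication by the translates of `κ` into local pieces -/
theorem decompT [Fintype I] {χ : I → E n → ℝ} (hχ : Part C χ) {κ : X → ℝ} (hκ : C.Ck ∞ κ)
    (hc : HasCompactSupport κ) : ∃ F : Finset Γ, ∀ (γ₀ : Γ)
      (hκ' : C.Ck ∞ (fun x => κ (γ₀⁻¹ • x))) (φ : Core S),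
    S.mC (fun x => κ (γ₀⁻¹ • x)) hκ' φ = ∑ i, ∑ γ ∈ F, S.lC (γ₀ * γ) i
      ⟨_, mulCS_mem S φ (γ₀ * γ) i (ck_smooth hχ hκ γ i) (ck_hcs hχ γ i)⟩ := by
  classical
  obtain ⟨F, hF⟩ := H566.exists_F (C := C) hχ hc.isCompact
  refine ⟨F.image (fun γ => γ⁻¹), fun γ₀ hκ' φ => ?_⟩
  have key : ∀ (γ : Γ) i γ' j y, (S.lC (γ₀ * γ⁻¹) i ⟨_, mulCS_mem S φ (γ₀ * γ⁻¹) i
      (ck_smooth hχ hκ γ⁻¹ i) (ck_hcs hχ γ⁻¹ i)⟩ : Raw Γ I n V) γ' j y =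
      (IBPX.th C χ γ i (γ₀⁻¹ • γ' • C.ψ j y) * κ (γ₀⁻¹ • γ' • C.ψ j y) : ℂ) •
        (φ : Raw Γ I n V) γ' j y := by
    intro γ i γ' j y
    change S.loc (γ₀ * γ⁻¹) i _ γ' j y = _
    by_cases hx : γ • γ₀⁻¹ • γ' • C.ψ j y ∈ Set.range (C.ψ i)
    · obtain ⟨z, hz⟩ := hx
      have hz' : γ' • C.ψ j y = (γ₀ * γ⁻¹) • C.ψ i z := by
        rw [hz, mul_smul, inv_smul_smul, smul_inv_smul]
      have hz2 : γ₀⁻¹ • γ' • C.ψ j y = γ⁻¹ • C.ψ i z := by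
        rw [hz, inv_smul_smul]
      rw [S.loc_of hz', map_smul, ← φ.2.compat (γ₀ * γ⁻¹) γ' i j z y hz'.symm]
      unfold IBPX.th ck
      rw [← hz, ex_ψ, ← hz2]
      push_cast
      rfl
    · rw [S.loc_zero]
      · unfold IBPX.th
        rw [IBPX.ex_of_notMem hx]; simp
      · intro z _ h
        apply hx
        rw [h, mul_smul, inv_smul_smul, smul_inv_smul]
        exact ⟨z, rfl⟩
  refine Subtype.ext ?_
  funext γ' j y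
  have e1 : ((∑ i, ∑ γ ∈ F.image (fun γ => γ⁻¹), S.lC (γ₀ * γ) i ⟨_, mulCS_mem S φ (γ₀ * γ) i
      (ck_smooth hχ hκ γ i) (ck_hcs hχ γ i)⟩ : Core S) : Raw Γ I n V) γ' j y =
      ∑ i, ∑ γ ∈ F.image (fun γ => γ⁻¹), (S.lC (γ₀ * γ) i ⟨_, mulCS_mem S φ (γ₀ * γ) i
      (ck_smooth hχ hκ γ i) (ck_hcs hχ γ i)⟩ : Raw Γ I n V) γ' j y := by
    simp only [AddSubmonoidClass.coe_finsetSum, Finset.sum_apply]
  rw [e1]
  have e2 : ∀ i, ∑ γ ∈ F.image (fun γ => γ⁻¹), (S.lC (γ₀ * γ) i ⟨_, mulCS_mem S φ (γ₀ * γ) i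
      (ck_smooth hχ hκ γ i) (ck_hcs hχ γ i)⟩ : Raw Γ I n V) γ' j y =
      ∑ γ ∈ F, (IBPX.th C χ γ i (γ₀⁻¹ • γ' • C.ψ j y) * κ (γ₀⁻¹ • γ' • C.ψ j y) : ℂ) •
        (φ : Raw Γ I n V) γ' j y := by
    intro i
    rw [Finset.sum_image fun a _ b _ h => inv_injective h]
    exact Finset.sum_congr rfl fun γ _ => key γ i γ' j y
  simp only [e2]
  change mulR C (fun x => κ (γ₀⁻¹ • x)) (φ : Raw Γ I n V) γ' j y = _
  unfold mulR
  by_cases hx : γ₀⁻¹ • γ' • C.ψ j y ∈ tsupport κ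
  · simp only [← Finset.sum_smul, ← Finset.sum_mul]
    have := hF _ hx
    have h4 : ∑ i, ∑ γ ∈ F, (IBPX.th C χ γ i (γ₀⁻¹ • γ' • C.ψ j y) : ℂ) = 1 := by
      exact_mod_cast congrArg (fun r : ℝ => (r : ℂ)) this
    rw [h4, one_mul]
  · have h5 : κ (γ₀⁻¹ • γ' • C.ψ j y) = 0 := image_eq_zero_of_notMem_tsupport hx
    simp [h5]

end

end Vale.Agent.P223.H691
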