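import Vale.Agent.P223.H691.Sym
import Mathlib.Analysis.SpecialFunctions.JapaneseBracket
import Mathlib.MeasureTheory.Measure.Haar.NormedSpace

/-! Scaling of integrals over the phase space. -/

namespace Vale.Agent.P223.H691

open MeasureTheory

section
variable {n : ℕ}

theorem norm_ph_pos {μ : ℝ} (hμ : 0 < μ) (k : E n) : 0 < ‖((μ, k) : Ph n)‖ := by
  have h1 : |μ| ≤ ‖((μ, k) : Ph n)‖ := norm_fst_le ((μ, k) : Ph n)
  rw [abs_of_pos hμ] at h1
  linarith

theorem integrable_ph_one {N : ℕ} (hN : n < N) :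
    Integrable fun k : E n => ‖((1, k) : Ph n)‖ ^ (-(N : ℤ)) := by
  have h1 : Integrable fun k : E n => (1 + ‖k‖) ^ (-(N : ℝ)) := by
    refine integrable_one_add_norm ?_
    simp only [Module.finrank_fintype_fun_eq_card, Fintype.card_fin]
    exact_mod_cast hN
  refine (h1.const_mul (2 ^ N)).mono' ?_ ?_
  · refine Continuous.aestronglyMeasurable ?_
    refine Continuous.zpow₀ (by fun_prop) _ fun k => Or.inl (norm_ph_pos one_pos k).ne'
  · filter_upwards with k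
    have hp := norm_ph_pos one_pos k
    have h2 : ‖k‖ ≤ ‖((1, k) : Ph n)‖ := norm_snd_le ((1, k) : Ph n)
    have h3 : |(1 : ℝ)| ≤ ‖((1, k) : Ph n)‖ := norm_fst_le ((1, k) : Ph n)
    rw [abs_one] at h3
    rw [Real.norm_of_nonneg (by positivity), Real.rpow_neg (by positivity), Real.rpow_natCast,
      zpow_neg, zpow_natCast]
    have h4 : 1 + ‖k‖ ≤ 2 * ‖((1, k) : Ph n)‖ := by linarith
    have h5 : (0 : ℝ) < 1 + ‖k‖ := by positivity
    rw [inv_eq_one_div, div_le_iff₀ (by positivity)]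
    have h6 : (1 + ‖k‖) ^ N ≤ (2 * ‖((1, k) : Ph n)‖) ^ N := by gcongr
    rw [mul_pow] at h6
    have h7 : 2 ^ N * ((1 + ‖k‖) ^ N)⁻¹ * ‖((1, k) : Ph n)‖ ^ N =
        (2 ^ N * ‖((1, k) : Ph n)‖ ^ N) / (1 + ‖k‖) ^ N := by field_simp
    rw [h7, le_div_iff₀ (by positivity)]
    linarith

theorem ph_smul {μ : ℝ} (hμ : 0 < μ) (k : E n) :
    ‖((μ, μ • k) : Ph n)‖ = μ * ‖((1, k) : Ph n)‖ := by
  have : ((μ, μ • k) : Ph n) = μ • ((1, k) : Ph n) := by
    ext <;> simp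
  rw [this, norm_smul, Real.norm_of_nonneg hμ.le]

theorem integrable_ph {N : ℕ} (hN : n < N) {μ : ℝ} (hμ : 0 < μ) :
    Integrable fun k : E n => ‖((μ, k) : Ph n)‖ ^ (-(N : ℤ)) := by
  have h1 := (integrable_ph_one hN).const_mul (μ ^ (-(N : ℤ)))
  refine (integrable_comp_smul_iff volume _ hμ.ne').1 (h1.congr ?_)
  filter_upwards with k
  rw [ph_smul hμ, mul_zpow]

/-- the constant in the next theorem -/
noncomputable def phc (n N : ℕ) : ℝ := ∫ k : E n, ‖((1, k) : Ph n)‖ ^ (-(N : ℤ))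

theorem phc_nonneg (n N : ℕ) : 0 ≤ phc n N := integral_nonneg fun k => by positivity

theorem integral_ph (N : ℕ) {μ : ℝ} (hμ : 0 < μ) :
    ∫ k : E n, ‖((μ, k) : Ph n)‖ ^ (-(N : ℤ)) = μ ^ ((n : ℤ) - N) * phc n N := by
  have h4 := Measure.integral_comp_smul (μ := (volume : Measure (E n)))
    (fun k => ‖((μ, k) : Ph n)‖ ^ (-(N : ℤ))) μ
  simp only [ph_smul hμ, mul_zpow] at h4
  rw [integral_const_mul, abs_of_pos (by positivity)] at h4
  simp only [Module.finrank_fintype_fun_eq_card, Fintype.card_fin, smul_eq_mul] at h4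
  have h5 : ∫ k : E n, ‖((μ, k) : Ph n)‖ ^ (-(N : ℤ)) =
      μ ^ n * (μ ^ (-(N : ℤ)) * ∫ k : E n, ‖((1, k) : Ph n)‖ ^ (-(N : ℤ))) := by
    rw [h4]; field_simp
  rw [h5, phc, ← mul_assoc, sub_eq_add_neg, zpow_add₀ hμ.ne', zpow_natCast]

end

end Vale.Agent.P223.H691
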