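import Vale.Agent.P223.H691.Nuc
import Vale.Agent.P223.H691.Scale

/-! Powers of the resolvent, localised, are nuclear. -/

namespace Vale.Agent.P223.H691

open scoped ContDiff InnerProductSpace
open Complex MeasureTheory

section
variable {n : ℕ} {V : Type} [NormedAddCommGroup V] [InnerProductSpace ℂ V]
  [FiniteDimensional ℂ V]
  {H : Type} [NormedAddCommGroup H] [InnerProductSpace ℂ H] [CompleteSpace H] {C : Type}
  {K : Set (E n)} {dens : E n → ℝ} {e : C → H}

omit [FiniteDimensional ℂ V] [CompleteSpace H] in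
theorem LocRep.norm_le_sqrt {rep : C → E n → V} {loc : (E n → V) → H}
    (h : LocRep K dens e rep loc) {f : E n → V} (hf : f ∈ CS K V) {a : ℝ} (ha : 0 ≤ a)
    (hfa : ∀ x, ‖f x‖ ≤ a) : ‖loc f‖ ≤ Real.sqrt (∫ y in K, dens y) * a := by
  have hd : IntegrableOn dens K := h.dens_smooth.continuous.continuousOn.integrableOn_compact
    h.compact
  have h0 : 0 ≤ ∫ y in K, dens y := setIntegral_nonneg h.compact.measurableSet
    fun y _ => (h.dens_pos y).le
  have h1 := h.norm f hf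
  have h2 : ∫ y, dens y * ‖f y‖ ^ 2 = ∫ y in K, dens y * ‖f y‖ ^ 2 := by
    rw [setIntegral_eq_integral_of_forall_compl_eq_zero]
    intro x hx
    rw [hf.2 x hx]; simp
  have h3 : ∫ y in K, dens y * ‖f y‖ ^ 2 ≤ ∫ y in K, dens y * a ^ 2 := by
    refine integral_mono_ae ?_ (hd.mul_const _) ?_
    · refine ContinuousOn.integrableOn_compact h.compact ?_
      exact (h.dens_smooth.continuous.mul (hf.1.continuous.norm.pow 2)).continuousOn
    · filter_upwards with y
      have := h.dens_pos y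
      have := hfa y
      gcongr
  rw [h2] at h1
  rw [integral_mul_const] at h3
  have h4 : ‖loc f‖ ^ 2 ≤ (Real.sqrt (∫ y in K, dens y) * a) ^ 2 := by
    rw [h1, mul_pow, Real.sq_sqrt h0]
    exact h3
  exact abs_le_of_sq_le_sq h4 (by positivity) |>.trans' (le_abs_self _)

variable {ι : Type} [Fintype ι] (b : OrthonormalBasis ι ℂ V)

theorem nucP (hK : IsCompact K) (hd : ContDiff ℝ ∞ dens) (hd0 : ∀ y, 0 < dens y) {χ χ' : E n → ℝ}
    (hχ : ContDiff ℝ ∞ χ) (hχ' : ContDiff ℝ ∞ χ') (hs : ∀ x, x ∉ K → χ x = 0)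
    (hs' : ∀ x, x ∉ K → χ' x = 0) (hχχ : ∀ x, χ' x * χ x = χ x) (c : Coef n V) {m : ℕ}
    (hm : n < 2 * m) :
    ∃ D : ℝ, 0 ≤ D ∧ ∀ (rep : C → E n → V) (loc : (E n → V) → H) (G A : H →L[ℂ] H)
      (w μ : ℝ), 1 ≤ μ → LocRep K dens e rep loc → c.Res K μ (G : H →ₗ[ℂ] H) loc → 0 ≤ w →
      (∀ i ≤ m, ∀ f a, 0 ≤ a → f ∈ CS K V → (∀ x, ‖f x‖ ≤ a) → ‖A ((G ^ i) (loc f))‖ ≤ w * a) →
      ∃ T : ι → H →L[ℂ] H,
      (∀ c, (A * G ^ m) (loc fun y => (χ y : ℂ) • rep c y) = ∑ s, T s (e c)) ∧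
      (∀ s, IntRep volume (fun k => (A * G ^ m) (uu loc χ' b s k)) (vv dens loc χ b s) (T s)) ∧
      ∑ s, ∫ k, ‖(A * G ^ m) (uu loc χ' b s k)‖ * ‖vv dens loc χ b s k‖ ≤
        D * w * μ ^ ((n : ℤ) - (2 * m : ℕ)) := by
  -- the symbols
  have hB : ∀ s, SymGe K 0 (fun q : Ph n × E n => (χ' q.2 : ℂ) • b s) := fun s =>
    (Sym.of_fun ((ofRealCLM.contDiff.comp hχ').smul contDiff_const)
      fun x hx => by simp [hs' x hx]).ge
  choose D₁ hD₁ hb using fun s => c.iterate_bound' hK (hB s) m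
  -- bound of the left vectors
  have hχd : ContDiff ℝ ∞ fun y => χ y / dens y := hχ.div hd fun x => (hd0 x).ne'
  obtain ⟨B, hB0⟩ : ∃ B, ∀ y, ‖χ y / dens y‖ ≤ B := by
    refine (hχd.continuous.bounded_above_of_compact_support ?_)
    exact HasCompactSupport.intro hK fun x hx => by simp [hs x hx]
  have hB1 : 0 ≤ B := (norm_nonneg _).trans (hB0 0)
  set D₂ := ((2 * Real.pi) ^ n)⁻¹ * (Real.sqrt (∫ y in K, dens y) * B) with hD₂
  have hD₂0 : 0 ≤ D₂ := by positivity
  refine ⟨(∑ s, D₁ s) * D₂ * phc n (2 * m), mul_nonneg (mul_nonneg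
    (Finset.sum_nonneg fun s _ => hD₁ s) hD₂0) (phc_nonneg _ _), ?_⟩
  intro rep loc G A w μ hμ h hG hw hA
  have hμ0 : 0 < μ := by linarith
  have nv : ∀ s k, ‖vv dens loc χ b s k‖ ≤ D₂ := by
    intro s k
    have hm : (fun y => ((χ y / dens y : ℝ) : ℂ) • b s) ∈ CS K V :=
      CS.fmul_mem (f := fun y => χ y / dens y) hχd
        (fun x hx => by simp only [hs x hx, zero_div]) contDiff_const
    rw [vv, norm_smul, h.norm_pw hm, Complex.norm_real, Real.norm_of_nonneg (by positivity), hD₂]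
    refine mul_le_mul_of_nonneg_left (h.norm_le_sqrt hm hB1 fun x => ?_) (by positivity)
    rw [norm_smul, b.norm_eq_one, mul_one, Complex.norm_real]
    exact hB0 x
  have nu : ∀ s k, ‖(A * G ^ m) (uu loc χ' b s k)‖ ≤
      w * D₁ s * ‖((μ, k) : Ph n)‖ ^ (-((2 * m : ℕ) : ℤ)) := by
    intro s k
    have h1 := hb s (μ, k) hμ H (G : H →ₗ[ℂ] H) loc (fun x a => ‖A x‖ ≤ w * a) hG
      (fun x y a b hx hy => by
        rw [map_add, mul_add]
        exact (norm_add_le _ _).trans (add_le_add hx hy))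
      (fun i hi f a ha hf hfa => by
        rw [← ContinuousLinearMap.toLinearMap_pow]
        exact hA i hi f a ha hf hfa)
    rw [← ContinuousLinearMap.toLinearMap_pow] at h1
    rw [mul_apply_eq_comp]
    refine h1.trans (le_of_eq ?_)
    simp only [zero_add]
    push_cast
    ring
  have cu : ∀ s, Continuous fun k => (A * G ^ m) (uu loc χ' b s k) := fun s =>
    (A * G ^ m).continuous.comp (h.continuous_pw (CS.fmul_mem hχ' hs' contDiff_const))
  have hi : ∀ s, Integrable fun k => ‖(A * G ^ m) (uu loc χ' b s k)‖ := by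
    intro s
    refine ((integrable_ph hm hμ0).const_mul (w * D₁ s)).mono' (cu s).norm.aestronglyMeasurable ?_
    filter_upwards with k
    rw [norm_norm]
    exact nu s k
  obtain ⟨T, hT, hTT⟩ := h.nuclear' b hχ hχ' hs hs' hχχ hi
  refine ⟨T, hT, hTT, ?_⟩
  have h5 : ∀ s, ∫ k, ‖(A * G ^ m) (uu loc χ' b s k)‖ * ‖vv dens loc χ b s k‖ ≤
      w * D₁ s * D₂ * (μ ^ ((n : ℤ) - (2 * m : ℕ)) * phc n (2 * m)) := by
    intro s
    rw [← integral_ph (2 * m) hμ0, ← integral_const_mul]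
    refine integral_mono_ae (hTT s).int ((integrable_ph hm hμ0).const_mul _) ?_
    filter_upwards with k
    calc ‖(A * G ^ m) (uu loc χ' b s k)‖ * ‖vv dens loc χ b s k‖
        ≤ (w * D₁ s * ‖((μ, k) : Ph n)‖ ^ (-((2 * m : ℕ) : ℤ))) * D₂ := by
          have h7 := nu s k
          have h8 := nv s k
          have h9 : 0 ≤ w * D₁ s * ‖((μ, k) : Ph n)‖ ^ (-((2 * m : ℕ) : ℤ)) :=
            (norm_nonneg _).trans h7
          exact mul_le_mul h7 h8 (norm_nonneg _) h9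
      _ = _ := by ring
  refine (Finset.sum_le_sum fun s _ => h5 s).trans (le_of_eq ?_)
  rw [← Finset.sum_mul, ← Finset.sum_mul, ← Finset.mul_sum]
  ring

end

end Vale.Agent.P223.H691
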