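import Vale.Agent.P223.H691.CtxR
import Vale.Agent.P223.H566.IntS
import Mathlib.Analysis.Calculus.BumpFunction.FiniteDimension

/-! Preparations for the plane wave representation. -/

namespace Vale.Agent.P223.H691

open scoped ContDiff InnerProductSpace Topology
open MeasureTheory Vale.Agent.P223.X
open Vale.Agent.P223.H566 (SpX Core Raw IsCore Cliff Ctx Emb Rsv dir dir_congr dir_smul SpecIntS
  SpecLocal mulR Fr WB nm hp)

/-! ### cutoff functions -/

theorem exists_cut (n : ℕ) : ∃ χ : E n → ℝ, ContDiff ℝ ∞ χ ∧ (∀ y, 0 ≤ χ y) ∧ (∀ y, χ y ≤ 1) ∧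
    (∀ y, ‖y‖ ≤ 2 → χ y = 1) ∧ ∀ y, 3 ≤ ‖y‖ → χ y = 0 := by
  let f : ContDiffBump (0 : E n) := ⟨2, 3, by norm_num, by norm_num⟩
  refine ⟨f, f.contDiff, fun y => f.nonneg, fun y => f.le_one, fun y hy => ?_, fun y hy => ?_⟩
  · exact f.one_of_mem_closedBall (by simpa using hy)
  · exact f.zero_of_le_dist (by simpa using hy)

/-! ### strong measurability -/

theorem sgm_sm {ι : Type} [Countable ι] {α : ι → Type} [∀ i, MeasurableSpace (α i)]
    {F : Type} [NormedAddCommGroup F] {f : (Σ i, α i) → F}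
    (h : ∀ i, StronglyMeasurable (fun a => f ⟨i, a⟩)) : StronglyMeasurable f := by
  borelize F
  refine stronglyMeasurable_iff_measurable_separable.2 ⟨fun s hs => ?_, ?_⟩
  · refine MeasurableSpace.measurableSet_iInf.2 fun j => ?_
    exact (h j).measurable hs
  · have : Set.range f = ⋃ i, Set.range fun a => f ⟨i, a⟩ := by
      ext x
      simp [Set.mem_iUnion, Sigma.exists]
    rw [this]
    exact TopologicalSpace.IsSeparable.iUnion fun i => (h i).isSeparable_range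

section
variable {n : ℕ} {M X Γ I : Type} [TopologicalSpace M] [TopologicalSpace X] [Group Γ]
    [MulAction Γ X] {V : Type} [NormedAddCommGroup V] [InnerProductSpace ℂ V]
    {C : Cov n M X Γ I} {G : I → E n → Matrix (Fin n) (Fin n) ℝ} {K : Cliff n V}
    (S : SpX C G K) [T2Space X]

/-- the product of a function of the partition of unity and `κ` in the chart `γ • ψ i` -/
noncomputable def ck (C : Cov n M X Γ I) (χ : I → E n → ℝ) (κ : X → ℝ) (γ : Γ) (i : I)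
    (y : E n) : ℝ := χ i y * κ (γ • C.ψ i y)

omit [T2Space X] in
theorem ck_smooth {χ : I → E n → ℝ} [Fintype I] (hχ : Part C χ) {κ : X → ℝ} (hκ : C.Ck ∞ κ)
    (γ : Γ) (i : I) : ContDiff ℝ ∞ (ck C χ κ γ i) := (hχ.smooth i).mul (hκ γ i)

omit [T2Space X] in
theorem ck_zero {χ : I → E n → ℝ} [Fintype I] (hχ : Part C χ) {κ : X → ℝ}
    (γ : Γ) (i : I) {y : E n} (hy : 2 ≤ ‖y‖) : ck C χ κ γ i y = 0 := by
  unfold ck
  rw [hχ.supp i y hy, zero_mul]

omit [T2Space X] in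
theorem ck_hcs {χ : I → E n → ℝ} [Fintype I] (hχ : Part C χ) {κ : X → ℝ}
    (γ : Γ) (i : I) : HasCompactSupport (ck C χ κ γ i) :=
  HasCompactSupport.intro (isCompact_closedBall (0 : E n) 2) fun y hy =>
    ck_zero hχ γ i (by simpa using (lt_of_not_ge fun h => hy (by simpa using h)).le)

/-- decomposition of the multiplication by `κ` into local pieces -/
theorem decomp [Fintype I] {χ : I → E n → ℝ} (hχ : Part C χ) {κ : X → ℝ} (hκ : C.Ck ∞ κ)
    (hc : HasCompactSupport κ) : ∃ F : Finset Γ, ∀ φ : Core S,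
    S.mC κ hκ φ = ∑ i, ∑ γ ∈ F, S.lC γ i ⟨_, mulCS_mem S φ γ i (ck_smooth hχ hκ γ i)
      (ck_hcs hχ γ i)⟩ := by
  classical
  obtain ⟨F, hF⟩ := H566.exists_F (C := C) hχ hc.isCompact
  refine ⟨F.image (fun γ => γ⁻¹), fun φ => ?_⟩
  have key : ∀ (γ : Γ) i γ' j y, (S.lC γ⁻¹ i ⟨_, mulCS_mem S φ γ⁻¹ i (ck_smooth hχ hκ γ⁻¹ i)
      (ck_hcs hχ γ⁻¹ i)⟩ : Raw Γ I n V) γ' j y =
      (IBPX.th C χ γ i (γ' • C.ψ j y) * κ (γ' • C.ψ j y) : ℂ) • (φ : Raw Γ I n V) γ' j y := by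
    intro γ i γ' j y
    change S.loc γ⁻¹ i _ γ' j y = _
    by_cases hx : γ • γ' • C.ψ j y ∈ Set.range (C.ψ i)
    · obtain ⟨z, hz⟩ := hx
      have hz' : γ' • C.ψ j y = γ⁻¹ • C.ψ i z := by rw [hz, inv_smul_smul]
      rw [S.loc_of hz', map_smul, ← φ.2.compat γ⁻¹ γ' i j z y hz'.symm]
      unfold IBPX.th ck
      rw [← hz', ← hz, ex_ψ]
      push_cast
      rfl
    · rw [S.loc_zero]
      · unfold IBPX.th
        rw [IBPX.ex_of_notMem hx]; simp
      · intro z _ h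
        apply hx
        rw [h, smul_inv_smul]
        exact ⟨z, rfl⟩
  refine Subtype.ext ?_
  funext γ' j y
  have e1 : ((∑ i, ∑ γ ∈ F.image (fun γ => γ⁻¹), S.lC γ i ⟨_, mulCS_mem S φ γ i
      (ck_smooth hχ hκ γ i) (ck_hcs hχ γ i)⟩ : Core S) : Raw Γ I n V) γ' j y =
      ∑ i, ∑ γ ∈ F.image (fun γ => γ⁻¹), (S.lC γ i ⟨_, mulCS_mem S φ γ i
      (ck_smooth hχ hκ γ i) (ck_hcs hχ γ i)⟩ : Raw Γ I n V) γ' j y := by
    simp only [AddSubmonoidClass.coe_finsetSum, Finset.sum_apply]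
  rw [e1]
  have e2 : ∀ i, ∑ γ ∈ F.image (fun γ => γ⁻¹), (S.lC γ i ⟨_, mulCS_mem S φ γ i
      (ck_smooth hχ hκ γ i) (ck_hcs hχ γ i)⟩ : Raw Γ I n V) γ' j y =
      ∑ γ ∈ F, (IBPX.th C χ γ i (γ' • C.ψ j y) * κ (γ' • C.ψ j y) : ℂ) •
        (φ : Raw Γ I n V) γ' j y := by
    intro i
    rw [Finset.sum_image fun a _ b _ h => inv_injective h]
    exact Finset.sum_congr rfl fun γ _ => key γ i γ' j y
  simp only [e2]
  change mulR C κ (φ : Raw Γ I n V) γ' j y = _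
  unfold mulR
  by_cases hx : γ' • C.ψ j y ∈ tsupport κ
  · simp only [← Finset.sum_smul, ← Finset.sum_mul]
    have := hF _ hx
    have h4 : ∑ i, ∑ γ ∈ F, (IBPX.th C χ γ i (γ' • C.ψ j y) : ℂ) = 1 := by
      exact_mod_cast congrArg (fun r : ℝ => (r : ℂ)) this
    rw [h4, one_mul]
  · rw [image_eq_zero_of_notMem_tsupport hx]; simp

end

end Vale.Agent.P223.H691
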