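import Vale.Agent.P223.H691.PWa

/-! Sup bounds for local sections. -/

namespace Vale.Agent.P223.H691

open scoped ContDiff InnerProductSpace Topology
open MeasureTheory Vale.Agent.P223.X
open Vale.Agent.P223.H566 (SpX Core Raw IsCore Cliff Ctx Emb Rsv dir dir_congr dir_smul SpecIntS
  SpecLocal mulR Fr WB nm hp)

section
variable {n : ℕ} {M X Γ I V H : Type} [TopologicalSpace M] [TopologicalSpace X] [Group Γ]
  [MulAction Γ X]
  [MeasurableSpace X] [NormedAddCommGroup V] [InnerProductSpace ℂ V]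
  [NormedAddCommGroup H] [InnerProductSpace ℂ H]
  (c : Ctx n M X Γ I V H) {w : X → ℝ}

theorem int_w_nonneg (hw : ∀ x, 0 < w x) (φ : Raw Γ I n V) : 0 ≤ ∫ x, w x * nm c.C φ x ∂c.μ :=
  integral_nonneg fun x => mul_nonneg (hw x).le (norm_nonneg _)

variable {c} in
theorem WB_add {x y : H} {a b : ℝ} (hx : WB c.E w a x) (hy : WB c.E w b y) :
    WB c.E w (a + b) (x + y) := fun φ => by
  rw [inner_add_left, add_mul]
  exact (norm_add_le _ _).trans (add_le_add (hx φ) (hy φ))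

variable {c} in
theorem WB_mono (hw : ∀ x, 0 < w x) {x : H} {a b : ℝ} (hx : WB c.E w a x) (hab : a ≤ b) :
    WB c.E w b x := fun φ =>
  (hx φ).trans (mul_le_mul_of_nonneg_right hab (int_w_nonneg c hw φ))

variable [T2Space X] [BorelSpace X]

theorem integrable_w (hw : Continuous w) (φ : Core c.S) :
    Integrable (fun x => w x * nm c.C (φ : Raw Γ I n V) x) c.μ := by
  have := H566.finComp c.S.met c.vol
  exact (hw.mul φ.2.continuous_nm).integrable_of_hasCompactSupport φ.2.nm_supp.mul_left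

/-- the integral in a chart is at most the integral over `X` -/
theorem chart_le (hw : Continuous w) (hw0 : ∀ x, 0 < w x) (γ : Γ) (i : I) (φ : Core c.S) :
    Integrable (fun y => w (γ • c.C.ψ i y) * ‖(φ : Raw Γ I n V) γ i y‖ *
      Vale.Agent.P223.H.dens (c.G i) y) ∧
    ∫ y, w (γ • c.C.ψ i y) * ‖(φ : Raw Γ I n V) γ i y‖ * Vale.Agent.P223.H.dens (c.G i) y ≤
      ∫ x, w x * nm c.C (φ : Raw Γ I n V) x ∂c.μ := by
  have hi := integrable_w c hw φ
  have h0 := Int.integrable_chart c.S.met c.vol γ i _ hi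
  simp only [φ.2.nm_chart] at h0
  refine ⟨h0, ?_⟩
  set R := Set.range (fun y => γ • c.C.ψ i y) with hR
  have hRm : MeasurableSet R := (Int.measurableEmbedding_chart c.C γ i).measurableSet_range
  have h1 := Int.integral_chart c.S.met c.vol γ i
    (R.indicator fun x => w x * nm c.C (φ : Raw Γ I n V) x)
    (fun x hx => Set.indicator_of_notMem hx _)
  have h2 : ∀ y, R.indicator (fun x => w x * nm c.C (φ : Raw Γ I n V) x) (γ • c.C.ψ i y) =
      w (γ • c.C.ψ i y) * ‖(φ : Raw Γ I n V) γ i y‖ := fun y => by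
    rw [Set.indicator_of_mem (show γ • c.C.ψ i y ∈ R from ⟨y, rfl⟩), φ.2.nm_chart]
  simp only [h2] at h1
  rw [← h1, integral_indicator hRm]
  refine setIntegral_le_integral hi (Filter.Eventually.of_forall fun x => ?_)
  exact mul_nonneg (hw0 x).le (norm_nonneg _)

variable [Fintype I] [ConnectedSpace X] [T2Space M] [FiniteDimensional ℂ V]

/-- sup bounds for local sections -/
theorem loc_WB (hI : SpecIntS) (hn : 1 ≤ n) (hw : Continuous w) (hw0 : ∀ x, 0 < w x)
    {K : Set (E n)} (hK : IsCompact K) (γ : Γ) (i : I) :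
    ∃ N, 0 ≤ N ∧ ∀ f ∈ CS K V, ∀ a, 0 ≤ a → (∀ x, ‖f x‖ ≤ a) →
      WB c.E w (N * a) (locE c γ i f) := by
  have hr : Continuous fun y => w (γ • c.C.ψ i y) :=
    hw.comp (Bas3.chart_emb c.C γ i).continuous
  obtain ⟨N, hN⟩ := hK.exists_bound_of_continuousOn
    (f := fun y => (w (γ • c.C.ψ i y))⁻¹) (hr.inv₀ fun y => (hw0 _).ne').continuousOn
  refine ⟨max N 0, le_max_right _ _, fun f hf a ha hfa φ => ?_⟩
  have hL := locRep c hI hn hK γ i
  rw [hL.inner f hf φ]
  obtain ⟨h1, h2⟩ := chart_le c hw hw0 γ i φ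
  refine (norm_integral_le_integral_norm _).trans ?_
  refine le_trans ?_ (mul_le_mul_of_nonneg_left h2 (by positivity))
  rw [← integral_const_mul]
  refine integral_mono_ae (hL.integrable_inner hf φ).norm (h1.const_mul _) ?_
  filter_upwards with y
  have hd := Int.dens_pos c.S.met i y
  rw [norm_mul, Complex.norm_real, Real.norm_of_nonneg hd.le]
  by_cases hy : y ∈ K
  · have h3 := norm_inner_le_norm (𝕜 := ℂ) (f y) ((φ : Raw Γ I n V) γ i y)
    have h4 := hN y hy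
    have h5 : 0 < w (γ • c.C.ψ i y) := hw0 _
    rw [Real.norm_of_nonneg (by positivity)] at h4
    have h6 : 1 ≤ max N 0 * w (γ • c.C.ψ i y) := by
      calc (1 : ℝ) = (w (γ • c.C.ψ i y))⁻¹ * w (γ • c.C.ψ i y) := by field_simp
        _ ≤ max N 0 * w (γ • c.C.ψ i y) := by
          gcongr
          exact h4.trans (le_max_left _ _)
    have h7 := hfa y
    calc Vale.Agent.P223.H.dens (c.G i) y * ‖⟪f y, (φ : Raw Γ I n V) γ i y⟫_ℂ‖
        ≤ Vale.Agent.P223.H.dens (c.G i) y * (a * ‖(φ : Raw Γ I n V) γ i y‖) := by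
          gcongr
          exact h3.trans (by gcongr)
      _ = 1 * (Vale.Agent.P223.H.dens (c.G i) y * (a * ‖(φ : Raw Γ I n V) γ i y‖)) := by ring
      _ ≤ (max N 0 * w (γ • c.C.ψ i y)) *
          (Vale.Agent.P223.H.dens (c.G i) y * (a * ‖(φ : Raw Γ I n V) γ i y‖)) := by gcongr
      _ = _ := by ring
  · rw [hf.2 y hy, inner_zero_left, norm_zero, mul_zero]
    have := hw0 (γ • c.C.ψ i y)
    positivity

omit [BorelSpace X] [Fintype I] [ConnectedSpace X] [T2Space M] [FiniteDimensional ℂ V] in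
theorem nm_lC_pw (γ : Γ) (i : I) {f : E n → V} (hf : f ∈ H566.CS n V) (k : E n)
    (hf' : pw k f ∈ H566.CS n V) (x : X) :
    nm c.C (c.S.lC γ i ⟨pw k f, hf'⟩ : Raw Γ I n V) x =
      nm c.C (c.S.lC γ i ⟨f, hf⟩ : Raw Γ I n V) x := by
  unfold nm
  change ‖c.S.loc γ i (pw k f) _ _ _‖ = ‖c.S.loc γ i f _ _ _‖
  by_cases hx : c.C.pg x • c.C.ψ (c.C.pi x) (c.C.py x) ∈ Set.range (fun z => γ • c.C.ψ i z)
  · obtain ⟨z, hz⟩ := hx
    rw [c.S.loc_of hz.symm, c.S.loc_of hz.symm]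
    simp only [pw]
    rw [map_smul, norm_smul, norm_ew, one_mul]
  · unfold SpX.loc
    rw [if_neg hx, if_neg hx]

omit [BorelSpace X] [Fintype I] [ConnectedSpace X] [T2Space M] [FiniteDimensional ℂ V] in
/-- pairing with plane waves -/
theorem pw_pair (hw0 : ∀ x, 0 < w x)
    {K : Set (E n)} (hK : IsCompact K) (γ : Γ) (i : I) {f : E n → V} (hf : f ∈ CS K V) :
    ∃ N, 0 ≤ N ∧ ∀ k b x, WB c.E w b x → ‖⟪locE c γ i (pw k f), x⟫_ℂ‖ ≤ b * N := by
  have hf5 := CS.mem566 hK hf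
  refine ⟨∫ x, w x * nm c.C (c.S.lC γ i ⟨f, hf5⟩ : Raw Γ I n V) x ∂c.μ,
    int_w_nonneg c hw0 _, fun k b x hx => ?_⟩
  have hk5 := CS.mem566 hK (CS.pw_mem hf k)
  have h1 := hx (c.S.lC γ i ⟨pw k f, hk5⟩)
  rw [← locE_eq] at h1
  rw [norm_inner_symm]
  simp only [nm_lC_pw c γ i hf5 k hk5] at h1
  exact h1

end

end Vale.Agent.P223.H691
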