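import Vale.Agent.P223.H691.Sym

/-! Second order operators acting on plane waves times symbols. -/

namespace Vale.Agent.P223.H691

open scoped ContDiff
open Complex

section
variable {n : ℕ} {V : Type} [NormedAddCommGroup V] [NormedSpace ℂ V]

/-- partial derivative -/
noncomputable def pv (j : Fin n) (u : E n → V) (x : E n) : V := fderiv ℝ u x (Pi.single j 1)

/-- Coefficients of a second order operator with leading part `-∑ g_jk ∂_j ∂_k`. -/
structure Coef (n : ℕ) (V : Type) [NormedAddCommGroup V] [NormedSpace ℂ V] where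
  g : E n → Matrix (Fin n) (Fin n) ℝ
  Ec : Fin n → E n → V →L[ℂ] V
  Fc : E n → V →L[ℂ] V
  g_smooth : ∀ j k, ContDiff ℝ ∞ (fun x => g x j k)
  g_pos : ∀ x, (g x).PosDef
  E_smooth : ∀ j, ContDiff ℝ ∞ (Ec j)
  F_smooth : ContDiff ℝ ∞ Fc

/-- The operator `u ↦ -(∑ g_jk ∂_j ∂_k u + ∑ E_j ∂_j u + F u)`. -/
noncomputable def Coef.L (c : Coef n V) (u : E n → V) (x : E n) : V :=
  -(∑ j, ∑ k, c.g x j k • pv j (pv k u) x + ∑ j, c.Ec j x (pv j u x) + c.Fc x (u x))

/-- `|k|²` -/
def Coef.q2 (c : Coef n V) (k x : E n) : ℝ := ∑ j, ∑ l, c.g x j l * (k j * k l)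

theorem Coef.q2_eq (c : Coef n V) (k x : E n) : star k ⬝ᵥ (c.g x).mulVec k = c.q2 k x := by
  unfold Coef.q2 dotProduct
  refine Finset.sum_congr rfl fun j _ => ?_
  unfold Matrix.mulVec dotProduct
  rw [Finset.mul_sum]
  refine Finset.sum_congr rfl fun l _ => ?_
  simp only [Pi.star_apply, star_trivial]
  ring

theorem Coef.q2_nonneg (c : Coef n V) (k x : E n) : 0 ≤ c.q2 k x := by
  rw [← c.q2_eq]
  exact (c.g_pos x).posSemidef.dotProduct_mulVec_nonneg k

theorem Coef.q2_pos (c : Coef n V) {k : E n} (hk : k ≠ 0) (x : E n) : 0 < c.q2 k x := by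
  rw [← c.q2_eq]
  exact (c.g_pos x).dotProduct_mulVec_pos hk

/-- `μ² + |k|²` -/
def Coef.den (c : Coef n V) (q : Ph n × E n) : ℝ := q.1.1 ^ 2 + c.q2 q.1.2 q.2

theorem Coef.den_pos (c : Coef n V) {q : Ph n × E n} (hq : q.1 ≠ 0) : 0 < c.den q := by
  unfold Coef.den
  by_cases hk : q.1.2 = 0
  · have hm : q.1.1 ≠ 0 := fun h => hq (Prod.ext h hk)
    have := c.q2_nonneg q.1.2 q.2
    positivity
  · have := c.q2_pos hk q.2
    positivity

/-- `h = (μ² + |k|²)⁻¹` -/
noncomputable def Coef.h (c : Coef n V) (q : Ph n × E n) : ℝ := (c.den q)⁻¹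

theorem Coef.den_smooth (c : Coef n V) : ContDiff ℝ ∞ c.den := by
  unfold Coef.den Coef.q2
  have h1 : ContDiff ℝ ∞ fun q : Ph n × E n => q.1.1 := contDiff_fst.comp contDiff_fst
  have h2 : ∀ j, ContDiff ℝ ∞ fun q : Ph n × E n => q.1.2 j := fun j =>
    (contDiff_apply ℝ ℝ j).comp (contDiff_snd.comp contDiff_fst)
  refine (h1.pow 2).add (ContDiff.sum fun j _ => ContDiff.sum fun l _ => ?_)
  exact ((c.g_smooth j l).comp contDiff_snd).mul ((h2 j).mul (h2 l))

theorem Coef.h_smooth (c : Coef n V) : ContDiffOn ℝ ∞ c.h {q | q.1 ≠ 0} :=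
  c.den_smooth.contDiffOn.inv fun _ hq => (c.den_pos hq).ne'

theorem Coef.h_hom (c : Coef n V) (t : ℝ) (p : Ph n) (x : E n) :
    c.h (t • p, x) = t ^ (-2 : ℤ) * c.h (p, x) := by
  have : c.den (t • p, x) = t ^ 2 * c.den (p, x) := by
    simp only [Coef.den, Coef.q2, Prod.smul_fst, Prod.smul_snd, smul_eq_mul, Pi.smul_apply,
      mul_add, Finset.mul_sum]
    congr 1
    · ring
    · exact Finset.sum_congr rfl fun j _ => Finset.sum_congr rfl fun l _ => by ring
  rw [Coef.h, Coef.h, this, mul_inv, zpow_neg]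
  rfl

variable {K : Set (E n)} {r : ℤ} {B B' : Ph n × E n → V}

/-- multiplication by `h` -/
noncomputable def Coef.mh (c : Coef n V) (B : Ph n × E n → V) (q : Ph n × E n) : V :=
  c.h q • B q

theorem SymGe.mh (h : SymGe K r B) (c : Coef n V) : SymGe K (r + 2) (c.mh B) :=
  h.hmul (s := 2) c.h_smooth fun t _ p x _ => c.h_hom t p x

theorem Sym.mh (h : Sym K r B) (c : Coef n V) : Sym K (r + 2) (c.mh B) :=
  h.hmul (s := 2) c.h_smooth fun t _ p x _ => c.h_hom t p x

/-- The operator `L` acting on the variable `x` of a symbol. -/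
noncomputable def Coef.LX (c : Coef n V) (B : Ph n × E n → V) (q : Ph n × E n) : V :=
  c.L (fun y => B (q.1, y)) q.2

theorem SymGe.LX (h : SymGe K r B) (hK : IsClosed K) (c : Coef n V) : SymGe K r (c.LX B) := by
  have h1 : SymGe K r (fun q => ∑ j, ∑ k, c.g q.2 j k • H691.dX j (H691.dX k B) q) :=
    SymGe.sum _ fun j _ => SymGe.sum _ fun k _ => ((h.dX hK k).dX hK j).fmul (c.g_smooth j k)
  have h2 : SymGe K r (fun q => ∑ j, c.Ec j q.2 (H691.dX j B q)) :=
    SymGe.sum _ fun j _ => (h.dX hK j).clm (c.E_smooth j)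
  have h3 : SymGe K r (fun q => c.Fc q.2 (B q)) := h.clm c.F_smooth
  exact ((h1.add h2).add h3).neg

/-- The error term `-2i ∑ g_jl k_j ∂_l B - i ∑ k_j E_j B`. -/
noncomputable def Coef.T1 (c : Coef n V) (B : Ph n × E n → V) (q : Ph n × E n) : V :=
  (-I) • (∑ j, q.1.2 j • ((2 : ℝ) • ∑ l, c.g q.2 j l • dX l B q + c.Ec j q.2 (B q)))

theorem SymGe.T1 (h : SymGe K r B) (hK : IsClosed K) (c : Coef n V) :
    SymGe K (r - 1) (c.T1 B) := by
  refine SymGe.const_smul _ (SymGe.sum _ fun j _ => SymGe.kmul ?_ j)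
  have h1 : SymGe K r (fun q => ∑ l, c.g q.2 j l • H691.dX l B q) :=
    SymGe.sum _ fun l _ => (h.dX hK l).fmul (c.g_smooth j l)
  have h2 : SymGe K r (fun q => (2 : ℝ) • ∑ l, c.g q.2 j l • H691.dX l B q) :=
    h1.fmul (f := fun _ => (2 : ℝ)) contDiff_const
  exact h2.add (h.clm (c.E_smooth j))

/-- The error operator. -/
noncomputable def Coef.T (c : Coef n V) (B : Ph n × E n → V) (q : Ph n × E n) : V :=
  c.T1 (c.mh B) q + c.LX (c.mh B) q

theorem SymGe.T (h : SymGe K r B) (hK : IsClosed K) (c : Coef n V) : SymGe K (r + 1) (c.T B) :=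
  (((h.mh c).T1 hK c).mono (by omega)).add (((h.mh c).LX hK c).mono (by omega))

/-- the pairing -/
def dt (k x : E n) : ℝ := ∑ j, k j * x j

/-- The plane wave. -/
noncomputable def ew (k x : E n) : ℂ := cexp (I * (dt k x : ℂ))

/-- A plane wave times a function. -/
noncomputable def pw (k : E n) (f : E n → V) (x : E n) : V := ew k x • f x

theorem norm_ew (k x : E n) : ‖ew k x‖ = 1 := by
  rw [ew, mul_comm, norm_exp_ofReal_mul_I]

theorem norm_pw (k : E n) (f : E n → V) (x : E n) : ‖pw k f x‖ = ‖f x‖ := by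
  rw [pw, norm_smul, norm_ew, one_mul]

theorem contDiff_dt (k : E n) : ContDiff ℝ ∞ (dt k) := by
  unfold dt
  exact ContDiff.sum fun j _ => contDiff_const.mul (contDiff_apply ℝ ℝ j)

theorem contDiff_ew (k : E n) : ContDiff ℝ ∞ (ew k) := by
  unfold ew
  exact (contDiff_const.mul (ofRealCLM.contDiff.comp (contDiff_dt k))).cexp

theorem contDiff_pw (k : E n) {f : E n → V} (hf : ContDiff ℝ ∞ f) : ContDiff ℝ ∞ (pw k f) :=
  (contDiff_ew k).smul hf

theorem hasFDerivAt_dt (k x : E n) :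
    HasFDerivAt (dt k) (∑ j, k j • (ContinuousLinearMap.proj j : E n →L[ℝ] ℝ)) x := by
  unfold dt
  refine HasFDerivAt.fun_sum fun j _ => ?_
  exact (hasFDerivAt_apply j x).const_mul (k j)

theorem fderiv_ew (k x : E n) (j : Fin n) :
    fderiv ℝ (ew k) x (Pi.single j 1) = (I * k j) * ew k x := by
  have h1 := (hasFDerivAt_dt k x)
  have h2 : HasFDerivAt (fun y => (dt k y : ℂ))
      (ofRealCLM.comp (∑ j, k j • (ContinuousLinearMap.proj j : E n →L[ℝ] ℝ))) x :=
    ofRealCLM.hasFDerivAt.comp x h1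
  have h3 := (h2.const_mul I).cexp
  have h4 : fderiv ℝ (ew k) x = _ := h3.fderiv
  rw [h4]
  simp only [FunLike.coe_smul, Pi.smul_apply, ContinuousLinearMap.coe_comp,
    Function.comp_apply, FunLike.coe_sum, Finset.sum_apply, ofRealCLM_apply,
    ContinuousLinearMap.proj_apply, smul_eq_mul]
  have h5 : ∑ c : Fin n, k c * (Pi.single j (1 : ℝ) : E n) c = k j := by
    rw [Finset.sum_eq_single j]
    · simp
    · intro b _ hb
      simp [hb]
    · simp
  rw [h5, ew]
  ring

theorem pv_pw (k : E n) {f : E n → V} (hf : Differentiable ℝ f) (j : Fin n) :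
    pv j (pw k f) = pw k (fun x => (I * k j) • f x + pv j f x) := by
  funext x
  have h1 : DifferentiableAt ℝ (ew k) x := ((contDiff_ew k).differentiable (by simp)) x
  unfold pv
  have h2 : fderiv ℝ (pw k f) x = _ := fderiv_fun_smul h1 (hf x)
  rw [h2]
  simp only [add_apply, FunLike.coe_smul, Pi.smul_apply,
    ContinuousLinearMap.smulRight_apply, fderiv_ew, pw, smul_add, smul_smul]
  rw [add_comm, mul_comm (ew k x)]

theorem pv_add {f f' : E n → V} (hf : Differentiable ℝ f) (hf' : Differentiable ℝ f')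
    (j : Fin n) : pv j (fun x => f x + f' x) = fun x => pv j f x + pv j f' x := by
  funext x
  unfold pv
  rw [fderiv_fun_add (hf x) (hf' x)]
  rfl

theorem pv_smul {f : E n → V} (hf : Differentiable ℝ f) (a : ℂ)
    (j : Fin n) : pv j (fun x => a • f x) = fun x => a • pv j f x := by
  funext x
  unfold pv
  rw [fderiv_fun_const_smul (hf x)]
  rfl

theorem contDiff_pv {f : E n → V} (hf : ContDiff ℝ ∞ f) (j : Fin n) : ContDiff ℝ ∞ (pv j f) := by
  unfold pv
  exact (hf.fderiv_right (m := ∞) (by simp)).clm_apply contDiff_const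

/-- `L` on plane waves. -/
theorem Coef.L_pw (c : Coef n V) (k : E n) {f : E n → V} (hf : ContDiff ℝ ∞ f) (x : E n) :
    c.L (pw k f) x = ew k x • ((c.q2 k x) • f x +
      (-I) • (∑ j, k j • ((2 : ℝ) • ∑ l, c.g x j l • pv l f x + c.Ec j x (f x))) + c.L f x) := by
  have hd : Differentiable ℝ f := hf.differentiable (by simp)
  have hd' : ∀ l, Differentiable ℝ (pv l f) := fun l =>
    (contDiff_pv hf l).differentiable (by simp)
  have e1 : ∀ j, pv j (pw k f) = pw k (fun x => (I * k j) • f x + pv j f x) :=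
    fun j => pv_pw k hd j
  have e2 : ∀ j l, pv j (pv l (pw k f)) x = ew k x • ((I * k j) • ((I * k l) • f x + pv l f x) +
      ((I * k l) • pv j f x + pv j (pv l f) x)) := by
    intro j l
    have h3 : Differentiable ℝ fun x => (I * k l) • f x + pv l f x := (hd.const_smul _).add (hd' l)
    have h4 : Differentiable ℝ fun x => (I * k l) • f x := hd.const_smul _
    rw [e1 l, pv_pw k h3 j]
    simp only [pw]
    rw [pv_add h4 (hd' l), pv_smul hd]
  have hsym : ∀ j l, c.g x j l = c.g x l j := fun j l => by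
    have := (c.g_pos x).isHermitian.apply l j
    simpa using this
  have hL : c.L (pw k f) x = ew k x • -(∑ j, ∑ l, c.g x j l • ((I * k j) • ((I * k l) • f x +
      pv l f x) + ((I * k l) • pv j f x + pv j (pv l f) x)) +
      ∑ j, c.Ec j x ((I * k j) • f x + pv j f x) + c.Fc x (f x)) := by
    unfold Coef.L
    rw [smul_neg, smul_add, smul_add, Finset.smul_sum, Finset.smul_sum]
    congr 1
    congr 1
    · congr 1
      · refine Finset.sum_congr rfl fun j _ => ?_
        rw [Finset.smul_sum]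
        refine Finset.sum_congr rfl fun l _ => ?_
        rw [e2, smul_comm]
      · refine Finset.sum_congr rfl fun j _ => ?_
        rw [e1]
        simp only [pw]
        rw [map_smul]
    · simp only [pw]
      rw [map_smul]
  rw [hL]
  congr 1
  have t1 : ∀ j l : Fin n, c.g x j l • ((I * k j) • ((I * k l) • f x + pv l f x) +
      ((I * k l) • pv j f x + pv j (pv l f) x)) = -((c.g x j l * (k j * k l)) • f x) +
      (I * (c.g x j l * k j : ℝ)) • pv l f x + (I * (c.g x l j * k l : ℝ)) • pv j f x +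
      c.g x j l • pv j (pv l f) x := by
    intro j l
    rw [hsym l j, smul_add, smul_add, smul_add, smul_add, smul_smul, ← neg_smul]
    simp only [← coe_smul, smul_smul]
    have a1 : ((c.g x j l : ℝ) : ℂ) * (I * ↑(k j) * (I * ↑(k l))) =
        ((-(c.g x j l * (k j * k l)) : ℝ) : ℂ) := by
      push_cast
      linear_combination (((c.g x j l : ℝ) : ℂ) * k j * k l) * I_mul_I
    have a2 : ((c.g x j l : ℝ) : ℂ) * (I * ↑(k j)) = I * ((c.g x j l * k j : ℝ) : ℂ) := by
      push_cast; ring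
    have a3 : ((c.g x j l : ℝ) : ℂ) * (I * ↑(k l)) = I * ((c.g x j l * k l : ℝ) : ℂ) := by
      push_cast; ring
    rw [a1, a2, a3]
    abel
  have t2 : ∑ j, ∑ l, (I * (c.g x l j * k l : ℝ)) • pv j f x =
      ∑ j, ∑ l, (I * (c.g x j l * k j : ℝ)) • pv l f x := Finset.sum_comm
  have t3 : (-I) • (∑ j, k j • ((2 : ℝ) • ∑ l, c.g x j l • pv l f x + c.Ec j x (f x))) =
      -(∑ j, ∑ l, (I * (c.g x j l * k j : ℝ)) • pv l f x) -
      (∑ j, ∑ l, (I * (c.g x j l * k j : ℝ)) • pv l f x) - ∑ j, (I * k j) • c.Ec j x (f x) := by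
    rw [neg_smul, Finset.smul_sum, ← Finset.sum_neg_distrib, ← Finset.sum_neg_distrib,
      ← Finset.sum_sub_distrib, ← Finset.sum_sub_distrib]
    refine Finset.sum_congr rfl fun j _ => ?_
    have : I • (k j • ((2 : ℝ) • ∑ l, c.g x j l • pv l f x)) =
        (∑ l, (I * (c.g x j l * k j : ℝ)) • pv l f x) +
        ∑ l, (I * (c.g x j l * k j : ℝ)) • pv l f x := by
      rw [← two_smul ℝ, Finset.smul_sum, Finset.smul_sum, Finset.smul_sum, Finset.smul_sum]
      refine Finset.sum_congr rfl fun l _ => ?_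
      simp only [← coe_smul, smul_smul]
      congr 1
      push_cast
      ring
    rw [smul_add, smul_add, this]
    simp only [← coe_smul, smul_smul]
    abel
  have t4 : ∑ j, c.Ec j x ((I * k j) • f x + pv j f x) = ∑ j, (I * k j) • c.Ec j x (f x) +
      ∑ j, c.Ec j x (pv j f x) := by
    rw [← Finset.sum_add_distrib]
    exact Finset.sum_congr rfl fun j _ => by rw [map_add, map_smul]
  have t5 : c.q2 k x • f x = ∑ j, ∑ l, (c.g x j l * (k j * k l)) • f x := by
    rw [Coef.q2, Finset.sum_smul]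
    exact Finset.sum_congr rfl fun j _ => by rw [Finset.sum_smul]
  rw [t3, t4, t5, Coef.L]
  simp only [t1, Finset.sum_add_distrib, Finset.sum_neg_distrib]
  rw [t2]
  abel

/-- The main identity: `(μ² + L) (e_k h B) = e_k (B + T B)`. -/
theorem Coef.L_mh (c : Coef n V) (h : SymGe K r B) {p : Ph n} (hp : p ≠ 0) (x : E n) :
    (p.1 ^ 2) • pw p.2 (fun y => c.mh B (p, y)) x + c.L (pw p.2 (fun y => c.mh B (p, y))) x =
      pw p.2 (fun y => B (p, y) + c.T B (p, y)) x := by
  have hs : ContDiff ℝ ∞ (fun y => c.mh B (p, y)) := (h.mh c).contDiff_x hp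
  rw [c.L_pw p.2 hs x]
  simp only [pw]
  rw [smul_comm, ← smul_add]
  congr 1
  rw [← add_assoc, ← add_assoc, Coef.T, ← add_assoc]
  congr 1
  rw [Coef.T1]
  congr 1
  rw [← add_smul]
  unfold Coef.mh
  rw [smul_smul]
  have : p.1 ^ 2 + c.q2 p.2 x = c.den (p, x) := rfl
  rw [this, Coef.h, mul_inv_cancel₀ (c.den_pos (q := (p, x)) hp).ne', one_smul]

end

end Vale.Agent.P223.H691
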