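import Vale.Agent.P223.MathlibUsed
import Mathlib.Analysis.SpecialFunctions.Complex.LogDeriv
import Mathlib.Analysis.InnerProductSpace.Basic
import Mathlib.Analysis.Calculus.ContDiff.Operations

/-! Plane waves and homogeneous symbols on `ℝ^n`. -/

namespace Vale.Agent.P223.H691

open scoped ContDiff
open Complex

/-- `ℝ^n`. -/
abbrev E (n : ℕ) := Fin n → ℝ

/-- The parameters `(μ, k)`. -/
abbrev Ph (n : ℕ) := ℝ × E n

section
variable {n : ℕ} {V W : Type} [NormedAddCommGroup V] [NormedSpace ℂ V] [NormedAddCommGroup W]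
  [NormedSpace ℂ W]

/-- Symbols: smooth functions of `(μ, k, x)` off `(μ, k) = 0`, homogeneous of degree `-r` in
`(μ, k)`, which vanish for `x ∉ K`. -/
structure Sym (K : Set (E n)) (r : ℤ) (B : Ph n × E n → V) : Prop where
  cd : ContDiffOn ℝ ∞ B {q | q.1 ≠ 0}
  hom : ∀ t : ℝ, 0 < t → ∀ p x, p ≠ 0 → B (t • p, x) = (t ^ (-r)) • B (p, x)
  supp : ∀ p x, p ≠ 0 → x ∉ K → B (p, x) = 0

theorem isOpen_dom : IsOpen {q : Ph n × E n | q.1 ≠ 0} :=
  (isOpen_compl_singleton (x := (0 : Ph n))).preimage continuous_fst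

variable {K : Set (E n)} {r : ℤ} {B B' : Ph n × E n → V}

theorem Sym.congr (h : Sym K r B) (he : ∀ p x, p ≠ 0 → B' (p, x) = B (p, x)) : Sym K r B' where
  cd := h.cd.congr fun q hq => he q.1 q.2 hq
  hom t ht p x hp := by
    rw [he _ _ (smul_ne_zero ht.ne' hp), he _ _ hp, h.hom t ht p x hp]
  supp p x hp hx := by rw [he _ _ hp, h.supp p x hp hx]

theorem Sym.add (h : Sym K r B) (h' : Sym K r B') : Sym K r (B + B') where
  cd := h.cd.add h'.cd
  hom t ht p x hp := by
    simp only [Pi.add_apply, smul_add]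
    rw [h.hom t ht p x hp, h'.hom t ht p x hp]
  supp p x hp hx := by
    simp only [Pi.add_apply]
    rw [h.supp p x hp hx, h'.supp p x hp hx, add_zero]

theorem Sym.zero : Sym K r (0 : Ph n × E n → V) where
  cd := contDiffOn_const
  hom t ht p x hp := by simp
  supp p x hp hx := rfl

theorem Sym.sum {ι : Type} (s : Finset ι) {b : ι → Ph n × E n → V} (h : ∀ i ∈ s, Sym K r (b i)) :
    Sym K r (fun q => ∑ i ∈ s, b i q) := by
  classical
  induction s using Finset.induction_on with
  | empty => exact Sym.zero.congr fun p x _ => by simp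
  | insert a s ha ih =>
    have h1 := ih fun i hi => h i (Finset.mem_insert_of_mem hi)
    have h2 := h a (Finset.mem_insert_self a s)
    exact (h2.add h1).congr fun p x _ => by simp [Finset.sum_insert ha]

theorem Sym.const_smul (c : ℂ) (h : Sym K r B) : Sym K r (fun q => c • B q) where
  cd := contDiffOn_const.smul h.cd
  hom t ht p x hp := by
    rw [h.hom t ht p x hp, smul_comm]
  supp p x hp hx := by rw [h.supp p x hp hx, smul_zero]

/-- Multiplication by a function of `x`. -/
theorem Sym.fmul (h : Sym K r B) {f : E n → ℝ} (hf : ContDiff ℝ ∞ f) :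
    Sym K r (fun q => f q.2 • B q) where
  cd := (hf.comp contDiff_snd).contDiffOn.smul h.cd
  hom t ht p x hp := by
    simp only
    rw [h.hom t ht p x hp, smul_comm]
  supp p x hp hx := by simp only; rw [h.supp p x hp hx, smul_zero]

/-- Application of an operator valued function of `x`. -/
theorem Sym.clm (h : Sym K r B) {A : E n → V →L[ℂ] W} (hA : ContDiff ℝ ∞ A) :
    Sym K r (fun q => A q.2 (B q)) where
  cd := by
    have h1 : ContDiffOn ℝ ∞ (fun q : Ph n × E n => A q.2) {q | q.1 ≠ 0} :=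
      (hA.comp contDiff_snd).contDiffOn
    have h2 : ContDiff ℝ ∞ (fun z : (V →L[ℂ] W) × V => z.1 z.2) := by
      have : IsBoundedBilinearMap ℝ (fun z : (V →L[ℂ] W) × V => z.1 z.2) :=
        { add_left := fun x₁ x₂ y => rfl
          smul_left := fun c x y => rfl
          add_right := fun x y₁ y₂ => map_add _ _ _
          smul_right := fun c x y => by simp
          bound := ⟨1, one_pos, fun x y => by rw [one_mul]; exact x.le_opNorm y⟩ }
      exact this.contDiff
    exact h2.comp_contDiffOn (h1.prodMk h.cd)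
  hom t ht p x hp := by
    simp only
    rw [h.hom t ht p x hp]
    simp
  supp p x hp hx := by simp only; rw [h.supp p x hp hx, map_zero]

/-- Multiplication by a homogeneous function. -/
theorem Sym.hmul (h : Sym K r B) {s : ℤ} {a : Ph n × E n → ℝ}
    (ha : ContDiffOn ℝ ∞ a {q | q.1 ≠ 0})
    (hh : ∀ t : ℝ, 0 < t → ∀ p x, p ≠ 0 → a (t • p, x) = t ^ (-s) * a (p, x)) :
    Sym K (r + s) (fun q => a q • B q) where
  cd := ha.smul h.cd
  hom t ht p x hp := by
    rw [h.hom t ht p x hp, hh t ht p x hp, smul_smul, smul_smul]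
    congr 1
    rw [neg_add, zpow_add₀ ht.ne']; ring
  supp p x hp hx := by rw [h.supp p x hp hx, smul_zero]

/-- Multiplication by `k j`. -/
theorem Sym.kmul (h : Sym K r B) (j : Fin n) : Sym K (r - 1) (fun q => q.1.2 j • B q) := by
  refine h.hmul (s := -1) (a := fun q => q.1.2 j) ?_ fun t ht p x hp => ?_
  · exact ((contDiff_apply ℝ ℝ j).comp (contDiff_snd.comp contDiff_fst)).contDiffOn
  · simp

/-- The partial derivative in the direction `j` of the variable `x`. -/
noncomputable def dX (j : Fin n) (B : Ph n × E n → V) (q : Ph n × E n) : V :=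
  fderiv ℝ (fun y => B (q.1, y)) q.2 (Pi.single j 1)

theorem Sym.hasFDerivAt (h : Sym K r B) {p : Ph n} (hp : p ≠ 0) (x : E n) :
    HasFDerivAt (fun y => B (p, y))
      ((fderiv ℝ B (p, x)).comp (ContinuousLinearMap.inr ℝ (Ph n) (E n))) x := by
  have h1 : DifferentiableAt ℝ B (p, x) :=
    (h.cd.differentiableOn (by simp) (p, x) hp).differentiableAt (isOpen_dom.mem_nhds hp)
  exact h1.hasFDerivAt.comp x (hasFDerivAt_prodMk_right p x)

theorem Sym.dX_eq (h : Sym K r B) (j : Fin n) {p : Ph n} (hp : p ≠ 0) (x : E n) :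
    dX j B (p, x) = fderiv ℝ B (p, x) (0, Pi.single j 1) := by
  unfold dX
  simp only
  rw [(h.hasFDerivAt hp x).fderiv]
  simp

theorem Sym.contDiff_x (h : Sym K r B) {p : Ph n} (hp : p ≠ 0) :
    ContDiff ℝ ∞ (fun y => B (p, y)) := by
  have h1 : ContDiffOn ℝ ∞ (fun y : E n => B (p, y)) Set.univ := by
    refine h.cd.comp (contDiff_prodMk_right p).contDiffOn fun y _ => ?_
    exact hp
  exact contDiffOn_univ.1 h1

theorem Sym.dX (h : Sym K r B) (hK : IsClosed K) (j : Fin n) : Sym K r (dX j B) where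
  cd := by
    have h1 : ContDiffOn ℝ ∞ (fun q => fderiv ℝ B q (0, Pi.single j 1)) {q | q.1 ≠ 0} := by
      have : ContDiffOn ℝ ∞ (fderiv ℝ B) {q : Ph n × E n | q.1 ≠ 0} :=
        h.cd.fderiv_of_isOpen isOpen_dom (by simp)
      exact this.clm_apply contDiffOn_const
    exact h1.congr fun q hq => h.dX_eq j hq q.2
  hom t ht p x hp := by
    unfold H691.dX
    simp only
    have h1 : (fun y => B (t • p, y)) = fun y => t ^ (-r) • B (p, y) :=
      funext fun y => h.hom t ht p y hp
    rw [h1, fderiv_fun_const_smul (h.hasFDerivAt hp x).differentiableAt]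
    rfl
  supp p x hp hx := by
    unfold H691.dX
    simp only
    have h1 : (fun y => B (p, y)) =ᶠ[nhds x] fun _ => 0 := by
      filter_upwards [hK.isOpen_compl.mem_nhds hx] with y hy
      exact h.supp p y hp hy
    rw [h1.fderiv_eq]
    simp

theorem Sym.bound (h : Sym K r B) (hK : IsCompact K) :
    ∃ C : ℝ, 0 ≤ C ∧ ∀ p x, p ≠ 0 → ‖B (p, x)‖ ≤ C * ‖p‖ ^ (-r) := by
  have hc : ContinuousOn B (Metric.sphere (0 : Ph n) 1 ×ˢ K) := by
    refine h.cd.continuousOn.mono fun q hq => ?_
    have : ‖q.1‖ = 1 := by simpa using hq.1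
    intro h0
    rw [h0] at this
    simp at this
  obtain ⟨C, hC⟩ := ((isCompact_sphere (0 : Ph n) 1).prod hK).exists_bound_of_continuousOn hc
  refine ⟨max C 0, le_max_right _ _, fun p x hp => ?_⟩
  have hp' : 0 < ‖p‖ := norm_pos_iff.2 hp
  by_cases hx : x ∈ K
  · have h1 := h.hom ‖p‖ hp' (‖p‖⁻¹ • p) x (smul_ne_zero (inv_ne_zero hp'.ne') hp)
    rw [smul_smul, mul_inv_cancel₀ hp'.ne', one_smul] at h1
    rw [h1, norm_smul, mul_comm, norm_zpow, norm_norm]
    refine mul_le_mul_of_nonneg_right ?_ (zpow_nonneg hp'.le _)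
    refine (hC (‖p‖⁻¹ • p, x) ⟨?_, hx⟩).trans (le_max_left _ _)
    simp [norm_smul, hp'.ne']
  · rw [h.supp p x hp hx, norm_zero]
    positivity

theorem Sym.mono {K' : Set (E n)} (h : Sym K r B) (hKK : K ⊆ K') : Sym K' r B where
  cd := h.cd
  hom := h.hom
  supp p x hp hx := h.supp p x hp fun hx' => hx (hKK hx')

/-- A smooth function of `x` as a symbol of order `0`. -/
theorem Sym.of_fun {f : E n → V} (hf : ContDiff ℝ ∞ f) (hs : ∀ x, x ∉ K → f x = 0) :
    Sym K 0 (fun q : Ph n × E n => f q.2) where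
  cd := (hf.comp contDiff_snd).contDiffOn
  hom t ht p x hp := by simp
  supp p x hp hx := hs x hx

/-- Finite sums of symbols of orders at least `r`. -/
inductive SymGe (K : Set (E n)) (r : ℤ) : (Ph n × E n → V) → Prop
  | of {ρ : ℤ} {B : Ph n × E n → V} : r ≤ ρ → Sym K ρ B → SymGe K r B
  | add {B B' : Ph n × E n → V} : SymGe K r B → SymGe K r B' → SymGe K r (B + B')
  | congr {B B' : Ph n × E n → V} : SymGe K r B → (∀ p x, p ≠ 0 → B' (p, x) = B (p, x)) →
      SymGe K r B'

theorem Sym.ge (h : Sym K r B) : SymGe K r B := .of le_rfl h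

theorem SymGe.zero : SymGe K r (0 : Ph n × E n → V) := Sym.zero.ge

theorem SymGe.mono {r' : ℤ} (h : SymGe K r B) (hr : r' ≤ r) : SymGe K r' B := by
  induction h with
  | of h1 h2 => exact .of (hr.trans h1) h2
  | add _ _ ih ih' => exact .add ih ih'
  | congr _ he ih => exact .congr ih he

theorem SymGe.const_smul (c : ℂ) (h : SymGe K r B) : SymGe K r (fun q => c • B q) := by
  induction h with
  | of h1 h2 => exact .of h1 (h2.const_smul c)
  | add _ _ ih ih' => exact (SymGe.add ih ih').congr fun p x _ => by simp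
  | congr _ he ih => exact ih.congr fun p x hp => by rw [he p x hp]

theorem SymGe.neg (h : SymGe K r B) : SymGe K r (fun q => -B q) :=
  (h.const_smul (-1)).congr fun p x _ => by simp

theorem SymGe.sub (h : SymGe K r B) (h' : SymGe K r B') : SymGe K r (fun q => B q - B' q) :=
  (h.add h'.neg).congr fun p x _ => by simp [sub_eq_add_neg]

theorem SymGe.sum {ι : Type} (s : Finset ι) {b : ι → Ph n × E n → V}
    (h : ∀ i ∈ s, SymGe K r (b i)) : SymGe K r (fun q => ∑ i ∈ s, b i q) := by
  classical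
  induction s using Finset.induction_on with
  | empty => exact SymGe.zero.congr fun p x _ => by simp
  | insert a s ha ih =>
    have h1 := ih fun i hi => h i (Finset.mem_insert_of_mem hi)
    have h2 := h a (Finset.mem_insert_self a s)
    exact (h2.add h1).congr fun p x _ => by simp [Finset.sum_insert ha]

theorem SymGe.fmul (h : SymGe K r B) {f : E n → ℝ} (hf : ContDiff ℝ ∞ f) :
    SymGe K r (fun q => f q.2 • B q) := by
  induction h with
  | of h1 h2 => exact .of h1 (h2.fmul hf)
  | add _ _ ih ih' => exact (SymGe.add ih ih').congr fun p x _ => by simp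
  | congr _ he ih => exact ih.congr fun p x hp => by simp only; rw [he p x hp]

theorem SymGe.clm (h : SymGe K r B) {A : E n → V →L[ℂ] W} (hA : ContDiff ℝ ∞ A) :
    SymGe K r (fun q => A q.2 (B q)) := by
  induction h with
  | of h1 h2 => exact .of h1 (h2.clm hA)
  | add _ _ ih ih' => exact (SymGe.add ih ih').congr fun p x _ => by simp
  | congr _ he ih => exact ih.congr fun p x hp => by simp only; rw [he p x hp]

theorem SymGe.hmul (h : SymGe K r B) {s : ℤ} {a : Ph n × E n → ℝ}
    (ha : ContDiffOn ℝ ∞ a {q | q.1 ≠ 0})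
    (hh : ∀ t : ℝ, 0 < t → ∀ p x, p ≠ 0 → a (t • p, x) = t ^ (-s) * a (p, x)) :
    SymGe K (r + s) (fun q => a q • B q) := by
  induction h with
  | of h1 h2 => exact .of (by omega) (h2.hmul ha hh)
  | add _ _ ih ih' => exact (SymGe.add ih ih').congr fun p x _ => by simp
  | congr _ he ih => exact ih.congr fun p x hp => by rw [he p x hp]

theorem SymGe.kmul (h : SymGe K r B) (j : Fin n) :
    SymGe K (r - 1) (fun q => q.1.2 j • B q) := by
  induction h with
  | of h1 h2 => exact .of (by omega) (h2.kmul j)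
  | add _ _ ih ih' => exact (SymGe.add ih ih').congr fun p x _ => by simp
  | congr _ he ih => exact ih.congr fun p x hp => by simp only; rw [he p x hp]

theorem SymGe.contDiff_x (h : SymGe K r B) {p : Ph n} (hp : p ≠ 0) :
    ContDiff ℝ ∞ (fun y => B (p, y)) := by
  induction h with
  | of h1 h2 => exact h2.contDiff_x hp
  | add _ _ ih ih' => exact ih.add ih'
  | @congr B₁ B₂ _ he ih =>
    have : (fun y => B₂ (p, y)) = fun y => B₁ (p, y) := funext fun y => he p y hp
    rw [this]
    exact ih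

theorem SymGe.supp (h : SymGe K r B) {p : Ph n} (hp : p ≠ 0) {x : E n} (hx : x ∉ K) :
    B (p, x) = 0 := by
  induction h with
  | of h1 h2 => exact h2.supp p x hp hx
  | add _ _ ih ih' => simp only [Pi.add_apply]; rw [ih, ih', add_zero]
  | congr _ he ih => rw [he p x hp, ih]

theorem SymGe.dX (h : SymGe K r B) (hK : IsClosed K) (j : Fin n) : SymGe K r (dX j B) := by
  induction h with
  | of h1 h2 => exact .of h1 (h2.dX hK j)
  | add h1 h2 ih ih' =>
    refine (SymGe.add ih ih').congr fun p x hp => ?_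
    have d1 := ((h1.contDiff_x hp).differentiable (by simp)) x
    have d2 := ((h2.contDiff_x hp).differentiable (by simp)) x
    unfold H691.dX
    simp only [Pi.add_apply]
    rw [fderiv_fun_add d1 d2]
    rfl
  | @congr B₁ B₂ _ he ih =>
    refine ih.congr fun p x hp => ?_
    unfold H691.dX
    simp only
    have : (fun y => B₂ (p, y)) = fun y => B₁ (p, y) := funext fun y => he p y hp
    rw [this]

theorem SymGe.continuousOn (h : SymGe K r B) : ContinuousOn B {q | q.1 ≠ 0} := by
  induction h with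
  | of h1 h2 => exact h2.cd.continuousOn
  | add _ _ ih ih' => exact ih.add ih'
  | congr _ he ih => exact ih.congr fun q hq => he q.1 q.2 hq

/-- The estimate of a symbol for `1 ≤ μ`. -/
theorem SymGe.bound (h : SymGe K r B) (hK : IsCompact K) :
    ∃ C : ℝ, 0 ≤ C ∧ ∀ p x, 1 ≤ ‖p‖ → ‖B (p, x)‖ ≤ C * ‖p‖ ^ (-r) := by
  induction h with
  | @of ρ B h1 h2 =>
    obtain ⟨C, hC0, hC⟩ := h2.bound hK
    refine ⟨C, hC0, fun p x hp => ?_⟩
    have hp0 : p ≠ 0 := by
      rintro rfl
      simp at hp
      linarith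
    refine (hC p x hp0).trans (mul_le_mul_of_nonneg_left ?_ hC0)
    exact zpow_le_zpow_right₀ hp (by omega)
  | add _ _ ih ih' =>
    obtain ⟨C, hC0, hC⟩ := ih
    obtain ⟨C', hC0', hC'⟩ := ih'
    refine ⟨C + C', add_nonneg hC0 hC0', fun p x hp => ?_⟩
    refine (norm_add_le _ _).trans ?_
    rw [add_mul]
    exact add_le_add (hC p x hp) (hC' p x hp)
  | congr _ he ih =>
    obtain ⟨C, hC0, hC⟩ := ih
    refine ⟨C, hC0, fun p x hp => ?_⟩
    have hp0 : p ≠ 0 := by
      rintro rfl
      simp at hp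
      linarith
    rw [he p x hp0]
    exact hC p x hp

end

end Vale.Agent.P223.H691
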