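import Vale.Agent.P223.H691.Nuc
import Mathlib.MeasureTheory.Integral.Bochner.SumMeasure

/-! Countable sums of nuclear operators. -/

namespace Vale.Agent.P223.H691

open scoped InnerProductSpace Topology
open MeasureTheory Filter

section
variable {H : Type} [NormedAddCommGroup H] [InnerProductSpace ℂ H] [CompleteSpace H]

/-- `T` is nuclear with nuclear norm at most `B`. -/
def Nu (T : H →L[ℂ] H) (B : ℝ) : Prop :=
  ∃ (α : Type) (_ : MeasurableSpace α) (ν : Measure α) (u v : α → H),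
    IntRep ν u v T ∧ ∫ a, ‖u a‖ * ‖v a‖ ∂ν ≤ B

omit [CompleteSpace H] in
theorem Nu.nonneg {T : H →L[ℂ] H} {B : ℝ} (h : Nu T B) : 0 ≤ B := by
  obtain ⟨α, mα, ν, u, v, h1, h2⟩ := h
  exact (integral_nonneg fun a => by positivity).trans h2

omit [CompleteSpace H] in
theorem Nu.mono {T : H →L[ℂ] H} {B B' : ℝ} (h : Nu T B) (hB : B ≤ B') : Nu T B' := by
  obtain ⟨α, mα, ν, u, v, h1, h2⟩ := h
  exact ⟨α, mα, ν, u, v, h1, h2.trans hB⟩

omit [CompleteSpace H] in
theorem IntRep.nu {α : Type} [MeasurableSpace α] {ν : Measure α} {u v : α → H} {T : H →L[ℂ] H}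
    (h : IntRep ν u v T) : Nu T (∫ a, ‖u a‖ * ‖v a‖ ∂ν) := ⟨α, _, ν, u, v, h, le_rfl⟩

theorem Nu.norm_tr_le {T : H →L[ℂ] H} {B : ℝ} (h : Nu T B) : ‖tr T‖ ≤ B := by
  obtain ⟨α, mα, ν, u, v, h1, h2⟩ := h
  rw [h1.tr_eq]
  refine (norm_integral_le_integral_norm _).trans (le_trans ?_ h2)
  refine integral_mono_ae h1.integrable_trace.norm h1.int ?_
  filter_upwards with a
  exact (norm_inner_le_norm (𝕜 := ℂ) (v a) (u a)).trans (le_of_eq (mul_comm _ _))

theorem Nu.left {T : H →L[ℂ] H} {B : ℝ} (h : Nu T B) (A : H →L[ℂ] H) :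
    Nu (A * T) (‖A‖ * B) := by
  obtain ⟨α, mα, ν, u, v, h1, h2⟩ := h
  refine ⟨α, mα, ν, _, _, h1.left A, ?_⟩
  refine le_trans ?_ (mul_le_mul_of_nonneg_left h2 (norm_nonneg A))
  rw [← integral_const_mul]
  refine integral_mono_ae (h1.left A).int (h1.int.const_mul _) ?_
  filter_upwards with a
  calc ‖A (u a)‖ * ‖v a‖ ≤ (‖A‖ * ‖u a‖) * ‖v a‖ := by gcongr; exact A.le_opNorm _
    _ = ‖A‖ * (‖u a‖ * ‖v a‖) := by ring

theorem Nu.right {T : H →L[ℂ] H} {B : ℝ} (h : Nu T B) (A : H →L[ℂ] H) :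
    Nu (T * A) (B * ‖A‖) := by
  obtain ⟨α, mα, ν, u, v, h1, h2⟩ := h
  refine ⟨α, mα, ν, _, _, h1.right A, ?_⟩
  refine le_trans ?_ (mul_le_mul_of_nonneg_right h2 (norm_nonneg A))
  rw [← integral_mul_const]
  refine integral_mono_ae (h1.right A).int (h1.int.mul_const _) ?_
  filter_upwards with a
  have : ‖A.adjoint‖ = ‖A‖ := ContinuousLinearMap.adjoint.norm_map A
  calc ‖u a‖ * ‖A.adjoint (v a)‖ ≤ ‖u a‖ * (‖A.adjoint‖ * ‖v a‖) := by
        gcongr; exact A.adjoint.le_opNorm _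
    _ = ‖u a‖ * ‖v a‖ * ‖A‖ := by rw [this]; ring

theorem Nu.summable {T : H →L[ℂ] H} {B : ℝ} (h : Nu T B) :
    Summable (fun j => ⟪hb H j, T (hb H j)⟫_ℂ) := by
  obtain ⟨α, mα, ν, u, v, h1, h2⟩ := h
  exact (h1.hasSum_trace (hb H)).summable

theorem Nu.tr_comm {T : H →L[ℂ] H} {B : ℝ} (h : Nu T B) (A : H →L[ℂ] H) :
    tr (A * T) = tr (T * A) := by
  obtain ⟨α, mα, ν, u, v, h1, h2⟩ := h
  exact h1.nucLe.tr_comm A

theorem measurableEmbedding_sigmaMk {ι : Type} {α : ι → Type} [∀ i, MeasurableSpace (α i)]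
    (i : ι) : MeasurableEmbedding (Sigma.mk i : α i → Σ i, α i) where
  injective := sigma_mk_injective
  measurable := fun s hs => by
    rw [Sigma.instMeasurableSpace] at hs
    exact MeasurableSpace.measurableSet_iInf.1 hs i
  measurableSet_image' := fun {s} hs => by
    refine MeasurableSpace.measurableSet_iInf.2 fun j => ?_
    change MeasurableSet (Sigma.mk j ⁻¹' (Sigma.mk i '' s))
    by_cases hij : i = j
    · subst hij
      rwa [Set.preimage_image_eq _ sigma_mk_injective]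
    · convert MeasurableSet.empty
      ext x
      simp only [Set.mem_preimage, Set.mem_image, Set.mem_empty_iff_false, iff_false, not_exists,
        not_and]
      intro y _ hy
      exact hij (congrArg Sigma.fst hy)

/-- the measure on the disjoint union -/
noncomputable def sgm {ι : Type} {α : ι → Type} [∀ i, MeasurableSpace (α i)]
    (ν : ∀ i, Measure (α i)) : Measure (Σ i, α i) :=
  Measure.sum fun i => (ν i).map (Sigma.mk i)

theorem sgm_integrable {ι : Type} [Countable ι] {α : ι → Type} [∀ i, MeasurableSpace (α i)]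
    {ν : ∀ i, Measure (α i)} {F : Type} [NormedAddCommGroup F] {f : (Σ i, α i) → F}
    (h : ∀ i, Integrable (fun a => f ⟨i, a⟩) (ν i))
    (hs : Summable fun i => ∫ a, ‖f ⟨i, a⟩‖ ∂(ν i)) : Integrable f (sgm ν) := by
  refine integrable_sum_measure (fun i => ?_) ?_
  · exact (measurableEmbedding_sigmaMk i).integrable_map_iff.2 (h i)
  · refine hs.congr fun i => ?_
    rw [(measurableEmbedding_sigmaMk i).integral_map]

theorem sgm_hasSum {ι : Type} {α : ι → Type} [∀ i, MeasurableSpace (α i)]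
    {ν : ∀ i, Measure (α i)} {F : Type} [NormedAddCommGroup F] [NormedSpace ℝ F]
    {f : (Σ i, α i) → F} (h : Integrable f (sgm ν)) :
    HasSum (fun i => ∫ a, f ⟨i, a⟩ ∂(ν i)) (∫ q, f q ∂(sgm ν)) := by
  have h1 := hasSum_integral_measure h
  simp only [(measurableEmbedding_sigmaMk _).integral_map] at h1
  exact h1

theorem sgm_aesm {ι : Type} [Countable ι] {α : ι → Type} [∀ i, MeasurableSpace (α i)]
    {ν : ∀ i, Measure (α i)} {F : Type} [NormedAddCommGroup F] {f : (Σ i, α i) → F}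
    (h : ∀ i, AEStronglyMeasurable (fun a => f ⟨i, a⟩) (ν i)) :
    AEStronglyMeasurable f (sgm ν) :=
  aestronglyMeasurable_sum_measure_iff.2 fun i =>
    (measurableEmbedding_sigmaMk i).aestronglyMeasurable_map_iff.2 (h i)

/-- countable sums -/
theorem IntRep.sigma {ι : Type} [Countable ι] {T : ι → H →L[ℂ] H} {S : H →L[ℂ] H}
    {α : ι → Type} [∀ i, MeasurableSpace (α i)] {ν : ∀ i, Measure (α i)} {u v : ∀ i, α i → H}
    (h1 : ∀ i, IntRep (ν i) (u i) (v i) (T i))
    (sb : Summable fun i => ∫ a, ‖u i a‖ * ‖v i a‖ ∂(ν i))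
    (hS : ∀ x, HasSum (fun i => T i x) (S x)) :
    IntRep (sgm ν) (fun q => u q.1 q.2) (fun q => v q.1 q.2) S := by
  have mU : AEStronglyMeasurable (fun q : Σ i, α i => u q.1 q.2) (sgm ν) :=
    sgm_aesm fun i => (h1 i).mu
  have mW : AEStronglyMeasurable (fun q : Σ i, α i => v q.1 q.2) (sgm ν) :=
    sgm_aesm fun i => (h1 i).mv
  have int : Integrable (fun q : Σ i, α i => ‖u q.1 q.2‖ * ‖v q.1 q.2‖) (sgm ν) := by
    refine sgm_integrable (fun i => (h1 i).int) ?_
    refine sb.congr fun i => integral_congr_ae (Eventually.of_forall fun a => ?_)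
    exact (Real.norm_of_nonneg (by positivity)).symm
  obtain ⟨S', hS'⟩ := exists_intRep mU mW int
  have eS : S' = S := by
    refine ContinuousLinearMap.ext fun x => ?_
    refine HasSum.unique ?_ (hS x)
    rw [hS'.rep]
    have h3 := sgm_hasSum (hS'.integrable_smul x)
    have e3 : (fun i => ∫ a, ⟪v i a, x⟫_ℂ • u i a ∂(ν i)) = fun i => T i x := by
      funext i
      rw [(h1 i).rep]
    simp only at h3
    rwa [e3] at h3
  rw [← eS]
  exact hS'

theorem Nu.hasSum {ι : Type} [Countable ι] {T : ι → H →L[ℂ] H} {S : H →L[ℂ] H} {b : ι → ℝ}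
    (h : ∀ i, Nu (T i) (b i)) (hb : Summable b) (hS : ∀ x, HasSum (fun i => T i x) (S x)) :
    Nu S (∑' i, b i) ∧ HasSum (fun i => tr (T i)) (tr S) := by
  choose α mα ν u v h1 h2 using h
  have sb : Summable fun i => ∫ a, ‖u i a‖ * ‖v i a‖ ∂(ν i) :=
    Summable.of_nonneg_of_le (fun i => integral_nonneg fun a => by positivity) h2 hb
  have h3 := IntRep.sigma h1 sb hS
  refine ⟨⟨_, _, _, _, _, h3, ?_⟩, ?_⟩
  · have h4 := sgm_hasSum h3.int
    rw [← h4.tsum_eq]
    exact Summable.tsum_le_tsum h2 sb hb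
  · rw [h3.tr_eq]
    have h4 := sgm_hasSum h3.integrable_trace
    have e3 : (fun i => ∫ a, ⟪v i a, u i a⟫_ℂ ∂(ν i)) = fun i => tr (T i) := by
      funext i
      rw [(h1 i).tr_eq]
    simp only at h4
    rwa [e3] at h4

/-- strongly convergent sums -/
theorem Nu.hasSum_mul {ι : Type} [Countable ι] {A : ι → H →L[ℂ] H} {S T : H →L[ℂ] H} {B b : ℝ}
    (hB : ∀ (t : Finset ι) (x : H), ‖∑ i ∈ t, A i x‖ ≤ B * ‖x‖)
    (hS : ∀ x, HasSum (fun i => A i x) (S x)) (h : Nu T b) :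
    HasSum (fun i => tr (A i * T)) (tr (S * T)) := by
  obtain ⟨α, mα, ν, u, v, h1, h2⟩ := h
  rw [(h1.left S).tr_eq]
  have e1 : ∀ i, tr (A i * T) = ∫ a, ⟪v a, A i (u a)⟫_ℂ ∂ν := fun i => (h1.left (A i)).tr_eq
  simp only [e1]
  have e2 : ∀ t : Finset ι, ∑ i ∈ t, ∫ a, ⟪v a, A i (u a)⟫_ℂ ∂ν =
      ∫ a, ⟪v a, ∑ i ∈ t, A i (u a)⟫_ℂ ∂ν := by
    intro t
    rw [← integral_finsetSum _ fun i _ => (h1.left (A i)).integrable_trace]
    simp only [inner_sum]
  change Tendsto (fun t : Finset ι => ∑ i ∈ t, ∫ a, ⟪v a, A i (u a)⟫_ℂ ∂ν) atTop _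
  simp only [e2]
  refine tendsto_integral_filter_of_dominated_convergence (fun a => B * (‖u a‖ * ‖v a‖)) ?_ ?_
    (h1.int.const_mul B) ?_
  · refine Eventually.of_forall fun t => ?_
    refine h1.mv.inner ?_
    have : (fun a => ∑ i ∈ t, A i (u a)) = fun a => (∑ i ∈ t, A i) (u a) := by
      funext a; rw [sum_apply]
    rw [this]
    exact (∑ i ∈ t, A i).continuous.comp_aestronglyMeasurable h1.mu
  · refine Eventually.of_forall fun t => ?_
    filter_upwards with a
    refine (norm_inner_le_norm (𝕜 := ℂ) _ _).trans ?_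
    calc ‖v a‖ * ‖∑ i ∈ t, A i (u a)‖ ≤ ‖v a‖ * (B * ‖u a‖) := by
          gcongr; exact hB t (u a)
      _ = B * (‖u a‖ * ‖v a‖) := by ring
  · filter_upwards with a
    exact ((continuous_const.inner continuous_id).tendsto _).comp (hS (u a))

theorem Nu.add {T T' : H →L[ℂ] H} {b b' : ℝ} (h : Nu T b) (h' : Nu T' b') :
    Nu (T + T') (b + b') ∧ tr (T + T') = tr T + tr T' := by
  have h1 := Nu.hasSum (ι := Bool) (T := fun i => if i then T else T')
    (b := fun i => if i then b else b') (S := T + T')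
    (by intro i; cases i <;> simp [h, h']) (Summable.of_finite)
    (fun x => by
      have := hasSum_fintype fun i : Bool => (if i then T else T') x
      simpa using this)
  refine ⟨?_, ?_⟩
  · have h2 := h1.1
    rw [tsum_fintype] at h2
    simpa using h2
  · have h2 := h1.2.unique (hasSum_fintype _)
    simpa using h2

theorem Nu.smul {T : H →L[ℂ] H} {b : ℝ} (h : Nu T b) (z : ℂ) :
    Nu (z • T) (‖z‖ * b) ∧ tr (z • T) = z * tr T := by
  have h1 := h.left (z • (1 : H →L[ℂ] H))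
  rw [smul_mul_assoc, one_mul] at h1
  refine ⟨h1.mono (mul_le_mul_of_nonneg_right ?_ h.nonneg), ?_⟩
  · refine ContinuousLinearMap.opNorm_le_bound _ (norm_nonneg z) fun x => ?_
    simp [norm_smul]
  · obtain ⟨α, mα, ν, u, v, h2, h3⟩ := h
    exact tr_smul h2.nucLe z

end

end Vale.Agent.P223.H691
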