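import Vale.Agent.P223.H691.PWb
import Vale.Agent.P223.H691.TCS
import Mathlib.Analysis.Calculus.BumpFunction.FiniteDimension

/-! Fine partitions of unity and averages. -/

namespace Vale.Agent.P223.H691

open scoped ContDiff InnerProductSpace Topology
open MeasureTheory Filter

/-- fine partition of unity on a compact set -/
structure Fine {n : ℕ} (K : Set (E n)) (ε : ℝ) {ι : Type} [Fintype ι] (θ : ι → E n → ℝ) :
    Prop where
  sm : ∀ j, ContDiff ℝ ∞ (θ j)
  nn : ∀ j y, 0 ≤ θ j y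
  le : ∀ y, ∑ j, θ j y ≤ 1
  eq : ∀ y ∈ K, ∑ j, θ j y = 1
  dst : ∀ j y z, θ j y ≠ 0 → θ j z ≠ 0 → dist y z ≤ ε
  near : ∀ j y, θ j y ≠ 0 → ∃ z ∈ K, dist y z ≤ ε

theorem exists_fine_aux {n : ℕ} (K : Set (E n)) (ε : ℝ) (hε : 0 < ε) (xs : List (E n))
    (hx : ∀ x ∈ xs, x ∈ K) : ∃ (ι : Type) (_ : Fintype ι) (θ : ι → E n → ℝ),
    (∀ j, ContDiff ℝ ∞ (θ j)) ∧ (∀ j y, 0 ≤ θ j y) ∧ (∀ y, ∑ j, θ j y ≤ 1) ∧
    (∀ x ∈ xs, ∀ y ∈ Metric.closedBall x (ε / 4), ∑ j, θ j y = 1) ∧
    (∀ j, ∃ x ∈ K, ∀ y, θ j y ≠ 0 → dist y x ≤ ε / 2) := by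
  induction xs with
  | nil =>
    exact ⟨Empty, inferInstance, fun _ _ => 0, fun j => j.elim, fun j => j.elim, by simp, by simp,
      fun j => j.elim⟩
  | cons x xs ih =>
    obtain ⟨ι, _, θ, h1, h2, h3, h4, h5⟩ := ih fun x hx' => hx x (List.mem_cons_of_mem _ hx')
    let f : ContDiffBump x := ⟨ε / 4, ε / 2, by linarith, by linarith⟩
    have hs : ContDiff ℝ ∞ fun y => ∑ j, θ j y := ContDiff.sum fun j _ => h1 j
    refine ⟨Option ι, inferInstance, fun j => j.elim (fun y => f y * (1 - ∑ j, θ j y)) θ,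
      ?_, ?_, ?_, ?_, ?_⟩
    · rintro (_ | j)
      · exact f.contDiff.mul (contDiff_const.sub hs)
      · exact h1 j
    · rintro (_ | j) y
      · exact mul_nonneg f.nonneg (by linarith [h3 y])
      · exact h2 j y
    · intro y
      rw [Fintype.sum_option]
      simp only [Option.elim_none, Option.elim_some]
      nlinarith [h3 y, f.nonneg (x := y), f.le_one (x := y)]
    · intro x' hx' y hy
      rw [Fintype.sum_option]
      simp only [Option.elim_none, Option.elim_some]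
      rcases List.mem_cons.1 hx' with rfl | hx'
      · rw [f.one_of_mem_closedBall hy]; ring
      · rw [h4 x' hx' y hy]; ring
    · rintro (_ | j)
      · refine ⟨x, hx x List.mem_cons_self, fun y hy => ?_⟩
        by_contra hlt
        apply hy
        simp only [Option.elim_none]
        rw [f.zero_of_le_dist (not_le.1 hlt).le, zero_mul]
      · exact h5 j

theorem exists_fine {n : ℕ} {K : Set (E n)} (hK : IsCompact K) {ε : ℝ} (hε : 0 < ε) :
    ∃ (ι : Type) (_ : Fintype ι) (θ : ι → E n → ℝ), Fine K ε θ := by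
  obtain ⟨t, ht, hf, hc⟩ := hK.finite_cover_balls (show 0 < ε / 4 by linarith)
  obtain ⟨ι, _, θ, h1, h2, h3, h4, h5⟩ := exists_fine_aux K ε hε hf.toFinset.toList
    (fun x hx => ht (by simpa using hx))
  refine ⟨ι, inferInstance, θ, h1, h2, h3, fun y hy => ?_, fun j y z hy hz => ?_,
    fun j y hy => ?_⟩
  · have := hc hy
    simp only [Set.mem_iUnion] at this
    obtain ⟨x, hx, hxy⟩ := this
    exact h4 x (by simpa using hx) y (Metric.ball_subset_closedBall hxy)
  · obtain ⟨x, _, hx⟩ := h5 j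
    calc dist y z ≤ dist y x + dist z x := dist_triangle_right _ _ _
      _ ≤ ε / 2 + ε / 2 := add_le_add (hx y hy) (hx z hz)
      _ = ε := by ring
  · obtain ⟨x, hxK, hx⟩ := h5 j
    have h6 := hx y hy
    exact ⟨x, hxK, by linarith⟩

section
variable {n : ℕ} {V : Type} [NormedAddCommGroup V] [InnerProductSpace ℂ V]

/-- average with respect to `θ` -/
noncomputable def avg (θ : E n → ℝ) (f : E n → V) : V := ((∫ y, θ y : ℝ) : ℂ)⁻¹ • ∫ y, (θ y : ℂ) • f y

theorem avg_sq {θ : E n → ℝ} (hθ : Continuous θ) (h0 : ∀ y, 0 ≤ θ y) (hc : HasCompactSupport θ)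
    {f : E n → V} (hf : Continuous f) :
    (∫ y, θ y) * ‖avg θ f‖ ^ 2 ≤ ∫ y, θ y * ‖f y‖ ^ 2 := by
  have i0 : Integrable θ := hθ.integrable_of_hasCompactSupport hc
  have i1 : Integrable fun y => θ y * ‖f y‖ :=
    (hθ.mul hf.norm).integrable_of_hasCompactSupport hc.mul_right
  have i2 : Integrable fun y => θ y * ‖f y‖ ^ 2 :=
    (hθ.mul (hf.norm.pow 2)).integrable_of_hasCompactSupport hc.mul_right
  have hI : 0 ≤ ∫ y, θ y := integral_nonneg h0
  rcases hI.eq_or_lt with hz | hp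
  · rw [← hz, zero_mul]
    exact integral_nonneg fun y => mul_nonneg (h0 y) (by positivity)
  set J := ∫ y, θ y with hJ
  set A := ∫ y, θ y * ‖f y‖ with hA
  have h1 : ‖avg θ f‖ ≤ J⁻¹ * A := by
    unfold avg
    rw [norm_smul, norm_inv, Complex.norm_real, Real.norm_of_nonneg hI]
    gcongr
    refine (norm_integral_le_integral_norm _).trans (le_of_eq (integral_congr_ae ?_))
    filter_upwards with y
    rw [norm_smul, Complex.norm_real, Real.norm_of_nonneg (h0 y)]
  have h2 : 0 ≤ ∫ y, θ y * (‖f y‖ - J⁻¹ * A) ^ 2 :=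
    integral_nonneg fun y => mul_nonneg (h0 y) (by positivity)
  have h3 : ∀ t : ℝ, ∫ y, θ y * (‖f y‖ - t) ^ 2 =
      (∫ y, θ y * ‖f y‖ ^ 2) - 2 * t * A + t ^ 2 * J := by
    intro t
    have i3 : Integrable fun y => 2 * t * (θ y * ‖f y‖) := i1.const_mul _
    have i4 : Integrable fun y => θ y * ‖f y‖ ^ 2 - 2 * t * (θ y * ‖f y‖) := i2.sub i3
    have i5 : Integrable fun y => t ^ 2 * θ y := i0.const_mul _
    have e : ∀ y, θ y * (‖f y‖ - t) ^ 2 =
        (θ y * ‖f y‖ ^ 2 - 2 * t * (θ y * ‖f y‖)) + t ^ 2 * θ y := fun y => by ring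
    simp only [e]
    rw [integral_add i4 i5, integral_sub i2 i3, integral_const_mul, integral_const_mul]
  rw [h3] at h2
  have h4 : (J⁻¹ * A) ^ 2 * J = (J⁻¹ * A) * A := by field_simp
  have h5 : J * (J⁻¹ * A) ^ 2 = (J⁻¹ * A) * A := by field_simp
  calc J * ‖avg θ f‖ ^ 2 ≤ J * (J⁻¹ * A) ^ 2 := by gcongr
    _ = (J⁻¹ * A) * A := h5
    _ ≤ ∫ y, θ y * ‖f y‖ ^ 2 := by rw [h4] at h2; linarith

theorem avg_near {θ : E n → ℝ} (hθ : Continuous θ) (h0 : ∀ y, 0 ≤ θ y) (hc : HasCompactSupport θ)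
    {f : E n → V} (hf : Continuous f) {x : E n} (hx : θ x ≠ 0) {η : ℝ}
    (h : ∀ y, θ y ≠ 0 → ‖f x - f y‖ ≤ η) [CompleteSpace V] : ‖f x - avg θ f‖ ≤ η := by
  have i0 : Integrable θ := hθ.integrable_of_hasCompactSupport hc
  have hI : 0 < ∫ y, θ y := hθ.integral_pos_of_hasCompactSupport_nonneg_nonzero hc h0 hx
  have i1 : Integrable fun y => (θ y : ℂ) • f y :=
    ((Complex.continuous_ofReal.comp hθ).smul hf).integrable_of_hasCompactSupport
      ((hc.comp_left (g := fun r : ℝ => (r : ℂ)) Complex.ofReal_zero).smul_right)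
  have i2 : Integrable fun y => (θ y : ℂ) • f x :=
    ((Complex.continuous_ofReal.comp hθ).smul continuous_const).integrable_of_hasCompactSupport
      ((hc.comp_left (g := fun r : ℝ => (r : ℂ)) Complex.ofReal_zero).smul_right)
  have hne : ((∫ y, θ y : ℝ) : ℂ) ≠ 0 := by exact_mod_cast hI.ne'
  have e1 : f x - avg θ f = ((∫ y, θ y : ℝ) : ℂ)⁻¹ • ∫ y, (θ y : ℂ) • (f x - f y) := by
    simp only [smul_sub]
    rw [integral_sub i2 i1, smul_sub]
    congr 1
    rw [integral_smul_const, integral_complex_ofReal, smul_smul, inv_mul_cancel₀ hne, one_smul]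
  rw [e1, norm_smul, norm_inv, Complex.norm_real, Real.norm_of_nonneg hI.le,
    inv_mul_le_iff₀ hI]
  refine (norm_integral_le_integral_norm _).trans ?_
  rw [mul_comm, ← integral_const_mul]
  refine integral_mono_of_nonneg (Eventually.of_forall fun y => norm_nonneg _)
    (i0.const_mul _) (Eventually.of_forall fun y => ?_)
  change ‖(θ y : ℂ) • (f x - f y)‖ ≤ η * θ y
  rw [norm_smul, Complex.norm_real, Real.norm_of_nonneg (h0 y), mul_comm]
  by_cases hy : θ y = 0
  · rw [hy]; simp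
  · exact mul_le_mul_of_nonneg_right (h y hy) (h0 y)

end

end Vale.Agent.P223.H691
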