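import Vale.Agent.P223.H691.TrA

/-! Approximation of multiplication operators by operators of finite rank. -/

namespace Vale.Agent.P223.H691

open scoped ContDiff InnerProductSpace Topology
open MeasureTheory Filter Complex

section
variable {n : ℕ} {V C H : Type} [NormedAddCommGroup V] [InnerProductSpace ℂ V]
  [NormedAddCommGroup H] [InnerProductSpace ℂ H]
  {K₀ K : Set (E n)} {dens : E n → ℝ} {e : C → H} {rep : C → E n → V}
  {loc : (E n → V) → H} {ε : ℝ} {ι κ : Type} [Fintype ι] [Fintype κ] {θ : ι → E n → ℝ}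

/-- left vectors -/
noncomputable def uS (loc : (E n → V) → H) (cf : E n → ℝ) (θ : ι → E n → ℝ) (b : κ → V)
    (q : ι × κ) : H := loc fun y => ((cf y * θ q.1 y : ℝ) : ℂ) • b q.2

/-- right vectors -/
noncomputable def vS (loc : (E n → V) → H) (dens : E n → ℝ) (θ : ι → E n → ℝ) (b : κ → V)
    (q : ι × κ) : H := loc fun y => ((θ q.1 y * ((∫ z, θ q.1 z) * dens y)⁻¹ : ℝ) : ℂ) • b q.2

/-- `θ` is supported in `K` -/
theorem Fine.zero (hθ : Fine K₀ ε θ) (hK : ∀ y, (∃ z ∈ K₀, dist y z ≤ ε) → y ∈ K) (j : ι) (y : E n)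
    (hy : y ∉ K) : θ j y = 0 := by
  by_contra h
  exact hy (hK y (hθ.near j y h))

theorem LocRep.sum (h : LocRep K dens e rep loc) {α : Type} (s : Finset α) (f : α → E n → V)
    (hf : ∀ a, f a ∈ CS K V) : loc (∑ a ∈ s, f a) = ∑ a ∈ s, loc (f a) := by
  classical
  induction s using Finset.induction_on with
  | empty =>
    simp only [Finset.sum_empty]
    have := h.smul (CS K V).zero_mem 0
    simpa using this
  | insert a s ha ih =>
    rw [Finset.sum_insert ha, Finset.sum_insert ha, h.add (hf a) ((CS K V).sum_mem fun a _ => hf a),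
      ih]

variable (h : LocRep K dens e rep loc) (hθ : Fine K₀ ε θ)
  (hK : ∀ y, (∃ z ∈ K₀, dist y z ≤ ε) → y ∈ K)

include h hθ hK

theorem v_mem (j : ι) (w : V) :
    (fun y => ((θ j y * ((∫ z, θ j z) * dens y)⁻¹ : ℝ) : ℂ) • w) ∈ CS K V := by
  refine CS.fmul_mem (f := fun y => θ j y * ((∫ z, θ j z) * dens y)⁻¹) ?_ ?_ contDiff_const
  · by_cases hI : ∫ z, θ j z = 0
    · simp only [hI, zero_mul, inv_zero, mul_zero]
      exact contDiff_const
    · exact (hθ.sm j).mul ((contDiff_const.mul h.dens_smooth).inv fun y =>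
        mul_ne_zero hI (h.dens_pos y).ne')
  · intro x hx
    rw [hθ.zero hK j x hx, zero_mul]

omit h in
theorem u_mem {cf : E n → ℝ} (hcf : ContDiff ℝ ∞ cf) (j : ι) (w : V) :
    (fun y => ((cf y * θ j y : ℝ) : ℂ) • w) ∈ CS K V := by
  refine CS.fmul_mem (f := fun y => cf y * θ j y) (hcf.mul (hθ.sm j)) ?_ contDiff_const
  intro x hx
  rw [hθ.zero hK j x hx, mul_zero]

theorem θ_hcs (j : ι) : HasCompactSupport (θ j) :=
  HasCompactSupport.intro h.compact fun x hx => hθ.zero hK j x hx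

omit [Fintype κ] in
theorem v_inner (b : κ → V) [CompleteSpace V] (q : ι × κ) (c : C) :
    ⟪vS loc dens θ b q, e c⟫_ℂ = ⟪b q.2, avg (θ q.1) (rep c)⟫_ℂ := by
  have hcs := θ_hcs h hθ hK q.1
  have hc := (hθ.sm q.1).continuous
  have i1 : Integrable fun y => (θ q.1 y : ℂ) • rep c y :=
    ((Complex.continuous_ofReal.comp hc).smul
      (h.rep_smooth c).continuous).integrable_of_hasCompactSupport
      ((hcs.comp_left (g := fun r : ℝ => (r : ℂ)) Complex.ofReal_zero).smul_right)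
  unfold vS avg
  rw [h.inner _ (v_mem h hθ hK q.1 (b q.2)) c, inner_smul_right, ← integral_inner i1,
    ← integral_const_mul]
  refine integral_congr_ae ?_
  filter_upwards with y
  have hd := (h.dens_pos y).ne'
  rw [inner_smul_left, inner_smul_right, conj_ofReal]
  push_cast
  have hd' : (dens y : ℂ) ≠ 0 := by exact_mod_cast hd
  rw [mul_inv]
  field_simp

/-- the approximating operator -/
theorem S_e {cf : E n → ℝ} (hcf : ContDiff ℝ ∞ cf) (b : OrthonormalBasis κ ℂ V) [CompleteSpace V]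
    (c : C) : (∑ q : ι × κ, (innerSL ℂ (vS loc dens θ b q)).smulRight (uS loc cf θ b q)) (e c) =
      loc (∑ j, fun y => ((cf y * θ j y : ℝ) : ℂ) • avg (θ j) (rep c)) := by
  rw [h.sum _ _ fun j => u_mem hθ hK hcf j _, sum_apply,
    Fintype.sum_prod_type]
  refine Finset.sum_congr rfl fun j _ => ?_
  have e1 : (fun y => ((cf y * θ j y : ℝ) : ℂ) • avg (θ j) (rep c)) =
      ∑ s, ⟪b s, avg (θ j) (rep c)⟫_ℂ • fun y => ((cf y * θ j y : ℝ) : ℂ) • b s := by
    funext y
    rw [Finset.sum_apply]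
    simp only [Pi.smul_apply]
    conv_lhs => rw [← b.sum_repr' (avg (θ j) (rep c)), Finset.smul_sum]
    exact Finset.sum_congr rfl fun s _ => smul_comm _ _ _
  rw [e1, h.sum _ _ fun s => (CS K V).smul_mem _ (u_mem hθ hK hcf j (b s))]
  refine Finset.sum_congr rfl fun s _ => ?_
  rw [h.smul (u_mem hθ hK hcf j (b s))]
  simp only [ContinuousLinearMap.smulRight_apply, innerSL_apply_apply]
  rw [v_inner h hθ hK b (j, s) c]
  rfl

/-- square function estimate -/
theorem S_norm_sq {cf : E n → ℝ} (hcf : ContDiff ℝ ∞ cf)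
    {D d₀ : ℝ} (hd₀ : 0 < d₀) (hD : ∀ y ∈ K, dens y * cf y ^ 2 ≤ D) (hd : ∀ y ∈ K, d₀ ≤ dens y)
    (c : C) (hi : IntegrableOn (fun y => dens y * ‖rep c y‖ ^ 2) K) :
    ‖loc (∑ j, fun y => ((cf y * θ j y : ℝ) : ℂ) • avg (θ j) (rep c))‖ ^ 2 ≤
      D / d₀ * ∫ y in K, dens y * ‖rep c y‖ ^ 2 := by
  have hcs := θ_hcs h hθ hK
  have hct := fun j => (hθ.sm j).continuous
  have hf := (h.rep_smooth c).continuous
  rw [h.norm _ ((CS K V).sum_mem fun j _ => u_mem hθ hK hcf j _)]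
  have hz : ∀ j y, y ∉ K → θ j y = 0 := fun j y hy => hθ.zero hK j y hy
  have hD0 : ∀ y ∈ K, 0 ≤ D := fun y hy => le_trans (by have := h.dens_pos y; positivity) (hD y hy)
  have iA : ∀ j, Integrable fun y => θ j y * ‖avg (θ j) (rep c)‖ ^ 2 := fun j =>
    ((hct j).mul continuous_const).integrable_of_hasCompactSupport (hcs j).mul_right
  have iF : ∀ j, Integrable fun y => θ j y * ‖rep c y‖ ^ 2 := fun j =>
    ((hct j).mul (hf.norm.pow 2)).integrable_of_hasCompactSupport (hcs j).mul_right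
  have p1 : ∀ y, dens y * ‖(∑ j, fun y => ((cf y * θ j y : ℝ) : ℂ) • avg (θ j) (rep c)) y‖ ^ 2 ≤
      D * ∑ j, θ j y * ‖avg (θ j) (rep c)‖ ^ 2 := by
    intro y
    rw [Finset.sum_apply]
    by_cases hy : y ∈ K
    · have h1 : ‖∑ j, ((cf y * θ j y : ℝ) : ℂ) • avg (θ j) (rep c)‖ ≤
          |cf y| * ∑ j, θ j y * ‖avg (θ j) (rep c)‖ := by
        rw [Finset.mul_sum]
        refine (norm_sum_le _ _).trans (Finset.sum_le_sum fun j _ => ?_)
        rw [norm_smul, Complex.norm_real, Real.norm_eq_abs, abs_mul, abs_of_nonneg (hθ.nn j y)]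
        exact le_of_eq (by ring)
      have h2 : (∑ j, θ j y * ‖avg (θ j) (rep c)‖) ^ 2 ≤
          (∑ j, θ j y) * ∑ j, θ j y * ‖avg (θ j) (rep c)‖ ^ 2 :=
        Finset.sum_sq_le_sum_mul_sum_of_sq_le_mul _ (fun j _ => hθ.nn j y)
          (fun j _ => mul_nonneg (hθ.nn j y) (by positivity)) fun j _ => le_of_eq (by ring)
      have h3 : 0 ≤ ∑ j, θ j y * ‖avg (θ j) (rep c)‖ ^ 2 :=
        Finset.sum_nonneg fun j _ => mul_nonneg (hθ.nn j y) (by positivity)
      have h4 : 0 ≤ dens y := (h.dens_pos y).le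
      calc dens y * ‖∑ j, ((cf y * θ j y : ℝ) : ℂ) • avg (θ j) (rep c)‖ ^ 2
          ≤ dens y * (|cf y| * ∑ j, θ j y * ‖avg (θ j) (rep c)‖) ^ 2 := by gcongr
        _ = (dens y * cf y ^ 2) * (∑ j, θ j y * ‖avg (θ j) (rep c)‖) ^ 2 := by
            rw [mul_pow, sq_abs]; ring
        _ ≤ D * (1 * ∑ j, θ j y * ‖avg (θ j) (rep c)‖ ^ 2) := by
            refine mul_le_mul (hD y hy) (h2.trans ?_) (by positivity) (hD0 y hy)
            exact mul_le_mul_of_nonneg_right (hθ.le y) h3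
        _ = _ := by rw [one_mul]
    · simp [hz _ y hy]
  have hi1 : Integrable fun y => D * ∑ j, θ j y * ‖avg (θ j) (rep c)‖ ^ 2 :=
    (integrable_finsetSum _ fun j _ => iA j).const_mul _
  refine (integral_mono_of_nonneg (Eventually.of_forall fun y => ?_) hi1
    (Eventually.of_forall p1)).trans ?_
  · have := (h.dens_pos y).le
    change 0 ≤ dens y * _
    positivity
  rcases K.eq_empty_or_nonempty with hKe | ⟨y₀, hy₀⟩
  · have h0 : ∀ j y, θ j y = 0 := fun j y => hz j y (by rw [hKe]; exact Set.notMem_empty y)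
    simp [h0, hKe]
  have hD' : 0 ≤ D := hD0 y₀ hy₀
  rw [integral_const_mul, integral_finsetSum _ fun j _ => iA j]
  have h5 : ∀ j, ∫ y, θ j y * ‖avg (θ j) (rep c)‖ ^ 2 ≤ ∫ y, θ j y * ‖rep c y‖ ^ 2 := by
    intro j
    rw [integral_mul_const]
    exact avg_sq (hct j) (hθ.nn j) (hcs j) hf
  calc D * ∑ j, ∫ y, θ j y * ‖avg (θ j) (rep c)‖ ^ 2
      ≤ D * ∑ j, ∫ y, θ j y * ‖rep c y‖ ^ 2 :=
        mul_le_mul_of_nonneg_left (Finset.sum_le_sum fun j _ => h5 j) hD'
    _ = D * ∫ y, ∑ j, θ j y * ‖rep c y‖ ^ 2 := by rw [integral_finsetSum _ fun j _ => iF j]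
    _ = D * ∫ y in K, ∑ j, θ j y * ‖rep c y‖ ^ 2 := by
        rw [setIntegral_eq_integral_of_forall_compl_eq_zero]
        intro y hy
        simp [hz _ y hy]
    _ ≤ D * ∫ y in K, d₀⁻¹ * (dens y * ‖rep c y‖ ^ 2) := by
        refine mul_le_mul_of_nonneg_left ?_ hD'
        refine setIntegral_mono_on (integrable_finsetSum _ fun j _ => iF j).integrableOn
          (hi.const_mul _) h.compact.measurableSet fun y hy => ?_
        rw [← Finset.sum_mul, ← mul_assoc]
        refine mul_le_mul_of_nonneg_right ((hθ.le y).trans ?_) (by positivity)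
        rw [← div_eq_inv_mul, one_le_div hd₀]
        exact hd y hy
    _ = _ := by rw [integral_const_mul]; ring

/-- convergence -/
theorem S_near {cf : E n → ℝ} (h0 : ∀ y, y ∉ K₀ → cf y = 0)
    (h00 : ∀ y, 0 ≤ cf y) {A : ℝ} (hA : ∀ y, cf y ≤ A) {f : E n → V} (hf : Continuous f) {η : ℝ}
    (hη : ∀ y ∈ K, ∀ z ∈ K, dist y z ≤ ε → ‖f y - f z‖ ≤ η) (hη0 : 0 ≤ η) [CompleteSpace V]
    (hε : 0 ≤ ε) (y : E n) :
    ‖(cf y : ℂ) • f y - (∑ j, fun y => ((cf y * θ j y : ℝ) : ℂ) • avg (θ j) f) y‖ ≤ A * η := by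
  rw [Finset.sum_apply]
  have hA0 : 0 ≤ A := (h00 y).trans (hA y)
  by_cases hy : y ∈ K₀
  · have hyK : y ∈ K := hK y ⟨y, hy, by rwa [dist_self]⟩
    have e1 : (cf y : ℂ) • f y - ∑ j, ((cf y * θ j y : ℝ) : ℂ) • avg (θ j) f =
        ∑ j, ((cf y * θ j y : ℝ) : ℂ) • (f y - avg (θ j) f) := by
      simp only [smul_sub, Finset.sum_sub_distrib]
      congr 1
      rw [← Finset.sum_smul]
      congr 1
      rw [← ofReal_sum, ← Finset.mul_sum, hθ.eq y hy, mul_one]
    rw [e1]
    calc ‖∑ j, ((cf y * θ j y : ℝ) : ℂ) • (f y - avg (θ j) f)‖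
        ≤ ∑ j, (cf y * θ j y) * η := by
          refine (norm_sum_le _ _).trans (Finset.sum_le_sum fun j _ => ?_)
          have h1 : 0 ≤ cf y * θ j y := mul_nonneg (h00 y) (hθ.nn j y)
          rw [norm_smul, Complex.norm_real, Real.norm_of_nonneg h1]
          by_cases hj : θ j y = 0
          · rw [hj]; simp
          · refine mul_le_mul_of_nonneg_left ?_ h1
            refine avg_near (hθ.sm j).continuous (hθ.nn j) (θ_hcs h hθ hK j) hf hj fun z hz => ?_
            refine hη y hyK z ?_ (hθ.dst j y z hj hz)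
            exact hK z (hθ.near j z hz)
      _ = cf y * η := by rw [← Finset.sum_mul, ← Finset.mul_sum, hθ.eq y hy, mul_one]
      _ ≤ A * η := by gcongr; exact hA y
  · simp only [h0 y hy, zero_mul, ofReal_zero, zero_smul, Finset.sum_const_zero, sub_zero,
      norm_zero]
    positivity

end

section
variable {H : Type} [NormedAddCommGroup H] [InnerProductSpace ℂ H] {α : Type} [Fintype α]

/-- operators of finite rank -/
theorem exists_fin_intRep [CompleteSpace H] (u v : α → H) : ∃ (_ : MeasurableSpace α) (ν : Measure α),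
    IntRep ν u v (∑ q, (innerSL ℂ (v q)).smulRight (u q)) ∧ ∀ f : α → ℂ, ∫ a, f a ∂ν = ∑ a, f a := by
  let _ : MeasurableSpace α := ⊤
  have : MeasurableSingletonClass α := ⟨fun _ => trivial⟩
  refine ⟨⊤, Measure.count, ⟨?_, ?_, ?_, fun x => ?_⟩, fun f => integral_count f⟩
  · exact (StronglyMeasurable.of_discrete).aestronglyMeasurable
  · exact (StronglyMeasurable.of_discrete).aestronglyMeasurable
  · exact Integrable.of_finite
  · rw [integral_count, sum_apply]
    rfl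

theorem tr_fin [CompleteSpace H] (T : H →L[ℂ] H) (u v : α → H) :
    tr (T * ∑ q, (innerSL ℂ (v q)).smulRight (u q)) = ∑ q, ⟪v q, T (u q)⟫_ℂ := by
  obtain ⟨_, ν, h1, h2⟩ := exists_fin_intRep u v
  rw [(h1.left T).tr_eq, h2]

end

end Vale.Agent.P223.H691
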