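import Vale.Agent.P223.H691.TrB

/-! Approximation of multiplication operators: conclusions in a chart. -/

namespace Vale.Agent.P223.H691

open scoped ContDiff InnerProductSpace Topology
open MeasureTheory Filter Complex

section
variable {n : ℕ} {V C H : Type} [NormedAddCommGroup V] [InnerProductSpace ℂ V]
  [NormedAddCommGroup H] [InnerProductSpace ℂ H]
  {K₀ K : Set (E n)} {dens : E n → ℝ} {e : C → H} {rep : C → E n → V}
  {loc : (E n → V) → H}

theorem tr_le {ε : ℝ} {ι κ : Type} [Fintype ι] [Fintype κ] {θ : ι → E n → ℝ}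
    (h : LocRep K dens e rep loc) (hθ : Fine K₀ ε θ)
    (hK : ∀ y, (∃ z ∈ K₀, dist y z ≤ ε) → y ∈ K) (b : OrthonormalBasis κ ℂ V) [CompleteSpace H]
    {cf : E n → ℝ} (hcf : ContDiff ℝ ∞ cf) (h0 : ∀ y, 0 ≤ cf y) (hcc : HasCompactSupport cf)
    (T : H →L[ℂ] H) {β : ℝ} (hβ : 0 ≤ β)
    (hT : ∀ f ∈ CS K V, ∀ g ∈ CS K V, ‖⟪loc f, T (loc g)⟫_ℂ‖ ≤
      β * (∫ y, dens y * ‖f y‖) * ∫ y, dens y * ‖g y‖) :
    ‖tr (T * ∑ q : ι × κ, (innerSL ℂ (vS loc dens θ b q)).smulRight (uS loc cf θ b q))‖ ≤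
      Fintype.card κ * β * ∫ y, cf y * dens y := by
  rw [tr_fin]
  have hcs := θ_hcs h hθ hK
  have hct := fun j => (hθ.sm j).continuous
  have hdc := h.dens_smooth.continuous
  have iU : ∀ j, Integrable fun y => cf y * dens y * θ j y := fun j =>
    ((hcf.continuous.mul hdc).mul (hct j)).integrable_of_hasCompactSupport (hcs j).mul_left
  have iC : Integrable fun y => cf y * dens y :=
    (hcf.continuous.mul hdc).integrable_of_hasCompactSupport hcc.mul_right
  have h1 : ∀ q : ι × κ, ‖⟪vS loc dens θ b q, T (uS loc cf θ b q)⟫_ℂ‖ ≤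
      β * ∫ y, cf y * dens y * θ q.1 y := by
    rintro ⟨j, s⟩
    have h2 := hT _ (v_mem h hθ hK j (b s)) _ (u_mem hθ hK hcf j (b s))
    have hI : 0 ≤ ∫ z, θ j z := integral_nonneg (hθ.nn j)
    have e1 : ∫ y, dens y * ‖((θ j y * ((∫ z, θ j z) * dens y)⁻¹ : ℝ) : ℂ) • b s‖ ≤ 1 := by
      have e2 : ∀ y, dens y * ‖((θ j y * ((∫ z, θ j z) * dens y)⁻¹ : ℝ) : ℂ) • b s‖ =
          (∫ z, θ j z)⁻¹ * θ j y := by
        intro y
        have hd := h.dens_pos y
        rw [norm_smul, Complex.norm_real, b.norm_eq_one, mul_one, Real.norm_of_nonneg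
          (mul_nonneg (hθ.nn j y) (inv_nonneg.2 (mul_nonneg hI hd.le))), mul_inv]
        field_simp
      simp only [e2]
      rw [integral_const_mul]
      exact inv_mul_le_one
    have e3 : ∫ y, dens y * ‖((cf y * θ j y : ℝ) : ℂ) • b s‖ = ∫ y, cf y * dens y * θ j y := by
      refine integral_congr_ae (Eventually.of_forall fun y => ?_)
      simp only
      rw [norm_smul, Complex.norm_real, b.norm_eq_one, mul_one, Real.norm_of_nonneg
        (mul_nonneg (h0 y) (hθ.nn j y))]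
      ring
    rw [e3] at h2
    refine h2.trans ?_
    have h3 : 0 ≤ ∫ y, cf y * dens y * θ j y := integral_nonneg fun y =>
      mul_nonneg (mul_nonneg (h0 y) (h.dens_pos y).le) (hθ.nn j y)
    refine mul_le_mul_of_nonneg_right ?_ h3
    calc β * _ ≤ β * 1 := mul_le_mul_of_nonneg_left e1 hβ
      _ = β := mul_one β
  refine (norm_sum_le _ _).trans ((Finset.sum_le_sum fun q _ => h1 q).trans ?_)
  rw [Fintype.sum_prod_type]
  simp only [Finset.sum_const, Finset.card_univ, nsmul_eq_mul]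
  rw [← Finset.mul_sum, ← Finset.mul_sum, ← integral_finsetSum _ fun j _ => iU j, mul_assoc]
  refine mul_le_mul_of_nonneg_left (mul_le_mul_of_nonneg_left ?_ hβ) (by positivity)
  refine integral_mono (integrable_finsetSum _ fun j _ => iU j) iC fun y => ?_
  simp only
  rw [← Finset.mul_sum]
  have h4 : 0 ≤ cf y * dens y := mul_nonneg (h0 y) (h.dens_pos y).le
  nlinarith [hθ.le y]

/-- the multiplication by `cf` is a strong limit of operators of finite rank -/
theorem LocRep.approx [FiniteDimensional ℂ V] [CompleteSpace H] (h : LocRep K dens e rep loc)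
    (hK₀ : IsCompact K₀) (hK : ∀ y, (∃ z ∈ K₀, dist y z ≤ 1) → y ∈ K)
    {cf : E n → ℝ} (hcf : ContDiff ℝ ∞ cf) (h0 : ∀ y, 0 ≤ cf y) (hz : ∀ y, y ∉ K₀ → cf y = 0)
    (hL2 : ∀ c, IntegrableOn (fun y => dens y * ‖rep c y‖ ^ 2) K ∧
      ∫ y in K, dens y * ‖rep c y‖ ^ 2 ≤ ‖e c‖ ^ 2) :
    ∃ (B : ℝ) (S : ℕ → H →L[ℂ] H), 0 ≤ B ∧ (∀ k c, ‖S k (e c)‖ ≤ B * ‖e c‖) ∧
      (∀ c, Tendsto (fun k => S k (e c)) atTop (𝓝 (loc fun y => (cf y : ℂ) • rep c y))) ∧
      ∀ (T : H →L[ℂ] H) (β : ℝ), 0 ≤ β →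
        (∀ f ∈ CS K V, ∀ g ∈ CS K V, ‖⟪loc f, T (loc g)⟫_ℂ‖ ≤
          β * (∫ y, dens y * ‖f y‖) * ∫ y, dens y * ‖g y‖) →
        ∀ k, ‖tr (T * S k)‖ ≤ Module.finrank ℂ V * β * ∫ y, cf y * dens y := by
  have hcc : HasCompactSupport cf := HasCompactSupport.intro hK₀ fun y hy => hz y hy
  have : CompleteSpace V := FiniteDimensional.complete ℂ V
  have hε : ∀ k : ℕ, (0 : ℝ) < 1 / (k + 1) := fun k => by positivity
  have hε1 : ∀ k : ℕ, (1 : ℝ) / (k + 1) ≤ 1 := fun k => by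
    rw [div_le_one (by positivity)]
    have : (0 : ℝ) ≤ k := by positivity
    linarith
  choose ι hι θ hθ using fun k : ℕ => exists_fine hK₀ (hε k)
  have hKk : ∀ k : ℕ, ∀ y, (∃ z ∈ K₀, dist y z ≤ 1 / ((k : ℝ) + 1)) → y ∈ K := by
    rintro k y ⟨z, hz, hyz⟩
    exact hK y ⟨z, hz, hyz.trans (hε1 k)⟩
  set b := stdOrthonormalBasis ℂ V with hb
  obtain ⟨D, hD⟩ := h.compact.exists_bound_of_continuousOn (f := fun y => dens y * cf y ^ 2)
    (h.dens_smooth.continuous.mul (hcf.continuous.pow 2)).continuousOn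
  obtain ⟨d₁, hd₁⟩ := h.compact.exists_bound_of_continuousOn (f := fun y => (dens y)⁻¹)
    (h.dens_smooth.continuous.inv₀ fun y => (h.dens_pos y).ne').continuousOn
  obtain ⟨A, hA⟩ := hcf.continuous.bounded_above_of_compact_support hcc
  have hd₀ : 0 < (max d₁ 1)⁻¹ := by positivity
  refine ⟨√(max D 0 / (max d₁ 1)⁻¹), fun k => ∑ q : ι k × Fin (Module.finrank ℂ V),
    (innerSL ℂ (vS loc dens (θ k) b q)).smulRight (uS loc cf (θ k) b q), Real.sqrt_nonneg _,
    fun k c => ?_, fun c => ?_, fun T β hβ hT k => ?_⟩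
  · rw [S_e h (hθ k) (hKk k) hcf b c]
    have h1 := S_norm_sq h (hθ k) (hKk k) hcf (D := max D 0) hd₀ (fun y hy => ?_)
      (fun y hy => ?_) c (hL2 c).1
    · refine abs_le_of_sq_le_sq' ?_ (by positivity) |>.2
      rw [mul_pow, Real.sq_sqrt (by positivity)]
      exact h1.trans (mul_le_mul_of_nonneg_left (hL2 c).2 (by positivity))
    · exact ((le_abs_self _).trans (hD y hy)).trans (le_max_left _ _)
    · have h2 := hd₁ y hy
      have h3 := h.dens_pos y
      rw [Real.norm_of_nonneg (by positivity)] at h2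
      rw [inv_le_comm₀ (by positivity) h3]
      exact h2.trans (le_max_left _ _)
  · obtain ⟨A', hA', hA''⟩ := h.norm_le
    have hf := (h.rep_smooth c).continuous
    rw [Metric.tendsto_atTop]
    intro r hr
    have hu := h.compact.uniformContinuousOn_of_continuous hf.continuousOn
    rw [Metric.uniformContinuousOn_iff] at hu
    have hApos : 0 < A' * max A 0 + 1 := by positivity
    obtain ⟨δ, hδ, hδ'⟩ := hu (r / (A' * max A 0 + 1)) (by positivity)
    obtain ⟨N, hN⟩ := exists_nat_one_div_lt hδ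
    refine ⟨N, fun k hk => ?_⟩
    rw [dist_comm, dist_eq_norm, S_e h (hθ k) (hKk k) hcf b c]
    have m1 : (fun y => (cf y : ℂ) • rep c y) ∈ CS K V := CS.fmul_mem hcf
      (fun x hx => hz x fun hx' => hx (hK x ⟨x, hx', by simp⟩)) (h.rep_smooth c)
    have m2 : ∑ j, (fun y => ((cf y * θ k j y : ℝ) : ℂ) • avg (θ k j) (rep c)) ∈ CS K V :=
      (CS K V).sum_mem fun j _ => u_mem (hθ k) (hKk k) hcf j _
    rw [← h.sub m1 m2]
    have hk' : (1 : ℝ) / (k + 1) ≤ 1 / (N + 1) := by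
      have : (N : ℝ) ≤ k := by exact_mod_cast hk
      gcongr
    have h5 : ∀ y, ‖(cf y : ℂ) • rep c y -
        (∑ j, fun y => ((cf y * θ k j y : ℝ) : ℂ) • avg (θ k j) (rep c)) y‖ ≤
        max A 0 * (r / (A' * max A 0 + 1)) := S_near h (hθ k) (hKk k) hz h0
        (fun y => ((le_abs_self _).trans (hA y)).trans (le_max_left _ _)) hf
        (fun y hy z hz' hyz => ?_) (by positivity) (hε k).le
    · have h6 := hA'' _ ((CS K V).sub_mem m1 m2) _ (by positivity) h5
      refine h6.trans_lt ?_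
      rw [← mul_assoc, mul_div_assoc', div_lt_iff₀ hApos, mul_comm]
      nlinarith [hr]
    · rw [← dist_eq_norm]
      exact (hδ' y hy z hz' (lt_of_le_of_lt (hyz.trans hk') hN)).le
  · have h1 := tr_le h (hθ k) (hKk k) b hcf h0 hcc T hβ hT
    rwa [Fintype.card_fin] at h1

end

end Vale.Agent.P223.H691
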